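import Vale.Agent.P359.Sl2

/-! T4: first quantised wave functions of Fock vectors. -/

namespace Vale.Agent.P359

open Finset

theorem kap_add (N : ℕ) (Ψ Φ : Fk) (x : Fin N → ℕ) :
    kap N (Ψ + Φ) x = kap N Ψ x + kap N Φ x := by
  induction N generalizing Ψ Φ with
  | zero => rfl
  | succ n ih => simp only [kap, map_add, ih]

theorem kap_smul (N : ℕ) (c : ℝ) (Ψ : Fk) (x : Fin N → ℕ) :
    kap N (c • Ψ) x = c * kap N Ψ x := by
  induction N generalizing Ψ with
  | zero => rfl
  | succ n ih => simp only [kap, map_smul, ih]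

theorem kap_neg (N : ℕ) (Ψ : Fk) (x : Fin N → ℕ) : kap N (-Ψ) x = - kap N Ψ x := by
  have := kap_smul N (-1) Ψ x
  simpa using this

theorem kap_sub (N : ℕ) (Ψ Φ : Fk) (x : Fin N → ℕ) :
    kap N (Ψ - Φ) x = kap N Ψ x - kap N Φ x := by
  rw [sub_eq_add_neg, kap_add, kap_neg, sub_eq_add_neg]

theorem kap_zero (N : ℕ) (x : Fin N → ℕ) : kap N 0 x = 0 := by
  have := kap_smul N 0 0 x
  simpa using this

theorem kap_sum {ι : Type*} (N : ℕ) (s : Finset ι) (f : ι → Fk) (x : Fin N → ℕ) :
    kap N (∑ i ∈ s, f i) x = ∑ i ∈ s, kap N (f i) x := by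
  classical
  induction s using Finset.induction_on with
  | empty => simp [kap_zero]
  | insert i s hi ih => rw [sum_insert hi, sum_insert hi, kap_add, ih]

theorem kap_cons {N Q : ℕ} (Ψ : Fk) (p : Fin (Q + 1)) (x : Fin N → Fin (Q + 1)) :
    kap (N + 1) Ψ (fun i => (Fin.cons p x : Fin (N + 1) → Fin (Q + 1)) i)
      = kap N (ann p Ψ) (fun i => x i) := rfl

theorem kap_norm {N Q : ℕ} {Ψ : Fk} (h : Sup N Q Ψ) :
    ∑ x : Fin N → Fin (Q + 1), kap N Ψ (fun i => x i) ^ 2 = (N.factorial : ℝ) * ip Q Ψ Ψ := by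
  induction N generalizing Ψ with
  | zero =>
    simp only [kap, ip, univ_unique, sum_singleton, Nat.factorial_zero, Nat.cast_one, one_mul]
    rw [sum_eq_single_of_mem ∅ (by simp), sq]
    intro S _ hS
    by_contra hc
    have : Ψ S ≠ 0 := fun h0 => hc (by simp [h0])
    exact hS (card_eq_zero.1 (h S this).2)
  | succ n ih =>
    rw [← (Fin.consEquiv fun _ : Fin (n + 1) => Fin (Q + 1)).sum_comp, Fintype.sum_prod_type]
    have e1 : ∀ p : Fin (Q + 1), ∑ x : Fin n → Fin (Q + 1),
        kap (n + 1) Ψ (fun i => ((Fin.consEquiv fun _ : Fin (n + 1) => Fin (Q + 1)) (p, x)) i) ^ 2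
        = (n.factorial : ℝ) * ip Q Ψ (cre p (ann p Ψ)) := by
      intro p
      rw [← ip_ann (Nat.lt_succ_iff.1 p.2), ← ih (h.ann p)]
      rfl
    simp only [e1]
    rw [← mul_sum, ← ip_sum_right, Fin.sum_univ_eq_sum_range (fun p => cre p (ann p Ψ)), h.number,
      ip_smul_right, Nat.factorial_succ]
    push_cast; ring

theorem kap_swap {N : ℕ} (Ψ : Fk) (x : Fin N → ℕ) {i j : Fin N} (hij : i ≠ j) :
    kap N Ψ (fun k => x (Equiv.swap i j k)) = - kap N Ψ x := by
  induction N generalizing Ψ with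
  | zero => exact i.elim0
  | succ n ih =>
    have ss : ∀ (Ψ : Fk) (x : Fin (n + 1) → ℕ) (i j : Fin n), i ≠ j →
        kap (n + 1) Ψ (fun k => x (Equiv.swap i.succ j.succ k)) = - kap (n + 1) Ψ x := by
      intro Ψ x i j hij
      simp only [kap]
      rw [Equiv.swap_apply_of_ne_of_ne (Fin.succ_ne_zero i).symm (Fin.succ_ne_zero j).symm,
        ← ih _ _ hij]
      congr 1
      funext k
      simp only [Fin.tail]
      rw [(Fin.succ_injective n).swap_apply]
    have zs : ∀ (Ψ : Fk) (x : Fin (n + 1) → ℕ) (j : Fin n),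
        kap (n + 1) Ψ (fun k => x (Equiv.swap 0 j.succ k)) = - kap (n + 1) Ψ x := by
      intro Ψ x j
      obtain ⟨m, rfl⟩ : ∃ m, n = m + 1 := ⟨n - 1, by have := j.pos; omega⟩
      have z1 : ∀ (Ψ : Fk) (x : Fin (m + 2) → ℕ),
          kap (m + 2) Ψ (fun k => x (Equiv.swap 0 (Fin.succ 0) k)) = - kap (m + 2) Ψ x := by
        intro Ψ x
        simp only [kap, Fin.tail]
        rw [Equiv.swap_apply_left, Equiv.swap_apply_right, ← kap_neg]
        congr 1
        have := congrArg (fun T : Op => T Ψ) (ann_ann (x 0) (x (Fin.succ 0)))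
        simpa using this
      by_cases hj : j = 0
      · rw [hj]; exact z1 Ψ x
      · have e : Equiv.swap (0 : Fin (m + 2)) j.succ = Equiv.swap (Fin.succ 0) j.succ *
            Equiv.swap 0 (Fin.succ 0) * Equiv.swap (Fin.succ 0) j.succ := by
          rw [Equiv.swap_mul_swap_mul_swap (Fin.succ_ne_zero _).symm (Fin.succ_ne_zero _).symm,
            Equiv.swap_comm]
        rw [e]
        simp only [Equiv.Perm.mul_apply]
        rw [ss Ψ (fun k => x (Equiv.swap (Fin.succ 0) j.succ (Equiv.swap 0 (Fin.succ 0) k))) 0 j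
          (Ne.symm hj), z1 Ψ (fun k => x (Equiv.swap (Fin.succ 0) j.succ k)),
          ss Ψ x 0 j (Ne.symm hj)]
        ring
    rcases Fin.eq_zero_or_eq_succ i with rfl | ⟨i, rfl⟩ <;>
      rcases Fin.eq_zero_or_eq_succ j with rfl | ⟨j, rfl⟩
    · exact absurd rfl hij
    · exact zs Ψ x j
    · rw [Equiv.swap_comm]; exact zs Ψ x i
    · exact ss Ψ x i j fun h => hij (by rw [h])

/-- second quantisation of a wave function -/
noncomputable def build (Q : ℕ) : (N : ℕ) → ((Fin N → Fin (Q + 1)) → ℝ) → Fk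
  | 0, f => Fk.mk fun S => if S = ∅ then f Fin.elim0 else 0
  | N + 1, f => ((N : ℝ) + 1)⁻¹ • ∑ p : Fin (Q + 1), cre p (build Q N fun x => f (Fin.cons p x))

theorem build_succ (Q N : ℕ) (f : (Fin (N + 1) → Fin (Q + 1)) → ℝ) :
    build Q (N + 1) f =
      ((N : ℝ) + 1)⁻¹ • ∑ p : Fin (Q + 1), cre p (build Q N fun x => f (Fin.cons p x)) := rfl

theorem build_sup (Q N : ℕ) (f : (Fin N → Fin (Q + 1)) → ℝ) : Sup N Q (build Q N f) := by
  induction N with
  | zero =>
    intro S hS
    have : S = ∅ := by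
      by_contra hc
      exact hS (by simp [build, hc])
    simp [this]
  | succ n ih =>
    exact Sup.smul _ (Sup.sum _ _ fun p _ => (ih _).cre (Nat.lt_succ_iff.1 p.2))

theorem build_neg (Q N : ℕ) (f : (Fin N → Fin (Q + 1)) → ℝ) :
    build Q N (fun x => - f x) = - build Q N f := by
  induction N with
  | zero => ext S; by_cases h : S = ∅ <;> simp [build, h]
  | succ n ih => simp only [build, ih, map_neg, sum_neg_distrib, smul_neg]

theorem anti_cons {N Q : ℕ} {f : (Fin (N + 1) → Fin (Q + 1)) → ℝ}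
    (hf : ∀ (x : Fin (N + 1) → Fin (Q + 1)) (i j : Fin (N + 1)), i ≠ j →
      f (fun k => x (Equiv.swap i j k)) = - f x) (p : Fin (Q + 1))
    (x : Fin N → Fin (Q + 1)) (i j : Fin N) (hij : i ≠ j) :
    f (Fin.cons p fun k => x (Equiv.swap i j k)) = - f (Fin.cons p x) := by
  rw [← hf (Fin.cons p x) i.succ j.succ (fun h => hij (Fin.succ_injective _ h))]
  congr 1
  funext k
  refine Fin.cases ?_ (fun k => ?_) k
  · rw [Equiv.swap_apply_of_ne_of_ne (Fin.succ_ne_zero i).symm (Fin.succ_ne_zero j).symm]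
    rfl
  · rw [(Fin.succ_injective N).swap_apply]; rfl

theorem cons_cons_swap {α : Type*} {N : ℕ} (p q : α) (x : Fin N → α) :
    (fun k => (Fin.cons p (Fin.cons q x) : Fin (N + 2) → α) (Equiv.swap 0 (Fin.succ 0) k))
      = Fin.cons q (Fin.cons p x) := by
  funext k
  refine Fin.cases ?_ (fun k => Fin.cases ?_ (fun k => ?_) k) k
  · rw [Equiv.swap_apply_left]; rfl
  · rw [Equiv.swap_apply_right]; rfl
  · rw [Equiv.swap_apply_of_ne_of_ne (Fin.succ_ne_zero _)
      (fun h => Fin.succ_ne_zero k (Fin.succ_injective _ h))]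
    rfl

theorem ann_build {N Q : ℕ} (f : (Fin (N + 1) → Fin (Q + 1)) → ℝ)
    (hf : ∀ (x : Fin (N + 1) → Fin (Q + 1)) (i j : Fin (N + 1)), i ≠ j →
      f (fun k => x (Equiv.swap i j k)) = - f x) (q : Fin (Q + 1)) :
    ann q (build Q (N + 1) f) = build Q N fun x => f (Fin.cons q x) := by
  have car : ∀ (p : Fin (Q + 1)) (q : Fin (Q + 1)) (ψ : Fk),
      ann q (cre p ψ) = (if p = q then ψ else 0) - cre p (ann q ψ) := by
    intro p q ψ
    have := congrArg (fun T : Op => T ψ) (ann_cre q p)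
    simp only [LinearMap.add_apply, Module.End.mul_apply] at this
    rw [eq_sub_iff_add_eq, this]
    by_cases h : p = q
    · simp [h]
    · rw [if_neg h, if_neg (fun h' => h (Fin.ext h'.symm))]; rfl
  induction N generalizing q with
  | zero =>
    rw [build_succ, map_smul, map_sum]
    simp only [car, (build_sup Q 0 _).ann_zero]
    simp
  | succ n ih =>
    rw [build_succ, map_smul, map_sum]
    have e1 : ∀ p : Fin (Q + 1), ann q (build Q (n + 1) fun x => f (Fin.cons p x))
        = - build Q n fun x => f (Fin.cons q (Fin.cons p x)) := by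
      intro p
      rw [ih _ (anti_cons hf p), ← build_neg]
      congr 1
      funext x
      rw [← hf _ 0 (Fin.succ 0) (Fin.succ_ne_zero _).symm, cons_cons_swap]
    simp only [car, e1, map_neg, sub_neg_eq_add, sum_add_distrib, sum_ite_eq', mem_univ, if_true]
    have e2 : ∑ p : Fin (Q + 1), cre p (build Q n fun x => f (Fin.cons q (Fin.cons p x)))
        = ((n : ℝ) + 1) • build Q (n + 1) fun x => f (Fin.cons q x) := by
      rw [build_succ, smul_smul, mul_inv_cancel₀ (by positivity), one_smul]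
    rw [e2]
    nth_rewrite 1 [← one_smul ℝ (build Q (n + 1) fun x => f (Fin.cons q x))]
    rw [← add_smul, smul_smul]
    have : (((n + 1 : ℕ) : ℝ) + 1)⁻¹ * (1 + ((n : ℝ) + 1)) = 1 := by
      push_cast; field_simp; ring
    rw [this, one_smul]

theorem kap_build {N Q : ℕ} (f : (Fin N → Fin (Q + 1)) → ℝ)
    (hf : ∀ (x : Fin N → Fin (Q + 1)) (i j : Fin N), i ≠ j →
      f (fun k => x (Equiv.swap i j k)) = - f x) (x : Fin N → Fin (Q + 1)) :
    kap N (build Q N f) (fun i => x i) = f x := by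
  induction N with
  | zero => simp only [kap, build, Fk.mk_apply, if_true]; congr 1; exact Subsingleton.elim _ _
  | succ n ih =>
    rw [← Fin.cons_self_tail x, kap_cons, ann_build f hf, ih _ (anti_cons hf _)]

theorem kap_surj {N Q : ℕ} (f : (Fin N → Fin (Q + 1)) → ℝ)
    (hf : ∀ (x : Fin N → Fin (Q + 1)) (i j : Fin N), i ≠ j →
      f (fun k => x (Equiv.swap i j k)) = - f x) :
    ∃ Ψ : Fk, Sup N Q Ψ ∧ ∀ x : Fin N → Fin (Q + 1), kap N Ψ (fun i => x i) = f x :=
  ⟨build Q N f, build_sup Q N f, kap_build f hf⟩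

/-- coefficient of the pair amplitude -/
noncomputable def ampc (Q a : ℕ) (y : Fin (Q + 1) × Fin (Q + 1)) : ℝ :=
  if (y.1 : ℕ) + y.2 = a + 1 then (a.choose y.1 : ℝ) * wt Q y.1 * wt Q y.2 else 0

theorem kap_bb {n Q : ℕ} (Ψ : Fk) (a : ℕ) (x : Fin n → Fin (Q + 1)) :
    kap n (bb Q a Ψ) (fun i => x i) = ∑ y : Fin (Q + 1) × Fin (Q + 1), ampc Q a y *
      kap (n + 2) Ψ (fun i => (Fin.cons y.1 (Fin.cons y.2 x) : Fin (n + 2) → Fin (Q + 1)) i) := by
  let T : ℕ → ℕ → ℝ := fun p q => kap n (ann q (ann p Ψ)) (fun i => x i)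
  let g : ℕ → ℝ := fun p => (a.choose p : ℝ) * wt Q p * wt Q (a + 1 - p) * T p (a + 1 - p)
  have hL : kap n (bb Q a Ψ) (fun i => x i) = ∑ p ∈ range (a + 1), g p := by
    rw [bb, LinearMap.sum_apply, kap_sum]
    refine sum_congr rfl fun p _ => ?_
    simp only [ee, LinearMap.smul_apply, Module.End.mul_apply, map_smul, kap_smul, g, T]
    ring
  have hR : ∀ p : Fin (Q + 1), ∑ q : Fin (Q + 1), ampc Q a (p, q) *
      kap (n + 2) Ψ (fun i => (Fin.cons p (Fin.cons q x) : Fin (n + 2) → Fin (Q + 1)) i)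
      = g p := by
    intro p
    have e : ∀ q : Fin (Q + 1), ampc Q a (p, q) *
        kap (n + 2) Ψ (fun i => (Fin.cons p (Fin.cons q x) : Fin (n + 2) → Fin (Q + 1)) i)
        = if (q : ℕ) = a + 1 - p then g p else 0 := by
      intro q
      rw [kap_cons, kap_cons, ampc]
      by_cases h1 : (p : ℕ) + q = a + 1
      · have h2 : (q : ℕ) = a + 1 - p := by omega
        rw [if_pos h1, if_pos h2]
        simp only [g, T, ← h2]
      · rw [if_neg h1, zero_mul]
        split_ifs with h2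
        · have : a < p := by omega
          simp [g, Nat.choose_eq_zero_of_lt this]
        · rfl
    simp only [e]
    rw [Fin.sum_univ_eq_sum_range (fun q => if q = a + 1 - p then g p else 0), sum_ite_eq']
    split_ifs with h
    · rfl
    · have : Q < a + 1 - p := by rw [mem_range] at h; omega
      simp [g, wt_eq_zero this]
  rw [hL, Fintype.sum_prod_type]
  simp only [hR]
  rw [Fin.sum_univ_eq_sum_range g]
  have s1 : ∑ p ∈ range (a + 1), g p = ∑ p ∈ range (a + 1 + (Q + 1)), g p := by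
    refine sum_subset (range_subset_range.2 (by omega)) fun p _ hp => ?_
    have : a < p := by simpa using hp
    simp [g, Nat.choose_eq_zero_of_lt this]
  have s2 : ∑ p ∈ range (Q + 1), g p = ∑ p ∈ range (a + 1 + (Q + 1)), g p := by
    refine sum_subset (range_subset_range.2 (by omega)) fun p _ hp => ?_
    have : Q < p := by simpa using hp
    simp [g, wt_eq_zero this]
  rw [s1, s2]

end Vale.Agent.P359
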