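import Mathlib

/-! Polynomial algebra for the zero-mode lemma. -/

namespace Vale.Agent.P359

open MvPolynomial Finset

noncomputable section

variable {N : ℕ}

/-- the substitution `X j ↦ X i` -/
def eps (i j : Fin N) : MvPolynomial (Fin N) ℂ →ₐ[ℂ] MvPolynomial (Fin N) ℂ :=
  aeval fun k => if k = j then X i else X k

theorem eps_X (i j k : Fin N) : eps i j (X k) = X (if k = j then i else k) := by
  by_cases h : k = j <;> simp [eps, h]

theorem dvd_sub_eps (i j : Fin N) (G : MvPolynomial (Fin N) ℂ) :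
    (X j - X i) ∣ G - eps i j G := by
  induction G using MvPolynomial.induction_on with
  | C a => simp [eps]
  | add p q hp hq =>
    rw [map_add, show p + q - (eps i j p + eps i j q) = (p - eps i j p) + (q - eps i j q) by ring]
    exact dvd_add hp hq
  | mul_X p k hp =>
    rw [map_mul, eps_X]
    by_cases h : k = j
    · subst h
      rw [if_pos rfl, show p * X k - eps i k p * X i
        = (p - eps i k p) * X k + (X k - X i) * eps i k p by ring]
      exact dvd_add (hp.mul_right _) (dvd_mul_right _ _)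
    · rw [if_neg h, ← sub_mul]
      exact hp.mul_right _

theorem eps_d (i j : Fin N) : eps i j (X j - X i) = 0 := by
  rw [map_sub, eps_X, eps_X]; simp

theorem dvd_iff_eps (i j : Fin N) (G : MvPolynomial (Fin N) ℂ) :
    (X j - X i) ∣ G ↔ eps i j G = 0 := by
  constructor
  · rintro ⟨H, rfl⟩; rw [map_mul, eps_d, zero_mul]
  · intro h; simpa [h] using dvd_sub_eps i j G

theorem d_ne_zero {i j : Fin N} (h : i ≠ j) : (X j - X i : MvPolynomial (Fin N) ℂ) ≠ 0 :=
  fun e => h (X_injective (sub_eq_zero.1 e)).symm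

theorem d_prime {i j : Fin N} (h : i ≠ j) : Prime (X j - X i : MvPolynomial (Fin N) ℂ) := by
  refine ⟨d_ne_zero h, fun hu => ?_, fun a b hab => ?_⟩
  · have := hu.map (eps i j)
    rw [eps_d] at this
    exact not_isUnit_zero this
  · simp only [dvd_iff_eps, map_mul] at hab ⊢
    exact mul_eq_zero.1 hab

theorem eps_swap (i j : Fin N) (G : MvPolynomial (Fin N) ℂ) :
    eps i j (rename (Equiv.swap i j) G) = eps i j G := by
  have : (eps i j).comp (rename (Equiv.swap i j)) = eps i j := by
    ext1 k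
    simp only [AlgHom.comp_apply, rename_X, eps_X]
    congr 1
    by_cases h1 : k = i
    · subst h1; simp
    · by_cases h2 : k = j
      · subst h2; simp
      · rw [Equiv.swap_apply_of_ne_of_ne h1 h2]
  exact DFunLike.congr_fun this G

theorem dvd_of_anti (i j : Fin N) {G : MvPolynomial (Fin N) ℂ}
    (h : rename (Equiv.swap i j) G = - G) : (X j - X i) ∣ G := by
  rw [dvd_iff_eps]
  have := eps_swap i j G
  rw [h, map_neg] at this
  exact (self_eq_neg.1 this.symm)

theorem cube_dvd {i j : Fin N} (hij : i ≠ j) {F : MvPolynomial (Fin N) ℂ}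
    (h : rename (Equiv.swap i j) F = - F) (h0 : eps i j (pderiv j F) = 0) :
    (X j - X i) ^ 3 ∣ F := by
  obtain ⟨G, rfl⟩ := dvd_of_anti i j h
  have hG : eps i j G = 0 := by
    rw [Derivation.leibniz, map_sub, pderiv_X_self, pderiv_X_of_ne hij, smul_eq_mul, smul_eq_mul,
      map_add, map_mul, eps_d] at h0
    simpa using h0
  obtain ⟨G2, rfl⟩ := (dvd_iff_eps i j G).2 hG
  have h2 : rename (Equiv.swap i j) G2 = - G2 := by
    simp only [map_mul, map_sub, rename_X, Equiv.swap_apply_left, Equiv.swap_apply_right] at h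
    apply mul_left_cancel₀ (pow_ne_zero 2 (d_ne_zero hij))
    linear_combination h
  obtain ⟨G3, rfl⟩ := dvd_of_anti i j h2
  exact ⟨G3, by ring⟩

theorem cube_swap {F : MvPolynomial (Fin N) ℂ}
    (h : ∀ a b, a ≠ b → rename (Equiv.swap a b) F = - F) {i j : Fin N}
    (hd : (X j - X i) ^ 3 ∣ F) (a b : Fin N) :
    (X (Equiv.swap a b j) - X (Equiv.swap a b i)) ^ 3 ∣ F := by
  by_cases hab : a = b
  · subst hab; simpa using hd
  · have := map_dvd (rename (Equiv.swap a b)) hd
    rw [h a b hab, dvd_neg] at this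
    simpa using this

theorem cube_all {n : ℕ} {F : MvPolynomial (Fin (n + 2)) ℂ}
    (h : ∀ a b, a ≠ b → rename (Equiv.swap a b) F = - F)
    (hd : (X 1 - X 0) ^ 3 ∣ F) {i j : Fin (n + 2)} (hij : i ≠ j) : (X j - X i) ^ 3 ∣ F := by
  have h1 := cube_swap h hd 1 (Equiv.swap 0 i j)
  have hj : Equiv.swap 0 i j ≠ 0 := by
    intro e
    have := congrArg (Equiv.swap 0 i) e
    simp at this
    exact hij this.symm
  rw [Equiv.swap_apply_left, Equiv.swap_apply_of_ne_of_ne (by simp) hj.symm] at h1
  simpa using cube_swap h h1 0 i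

/-- the cube of the Vandermonde product -/
def vdm3 (N : ℕ) : MvPolynomial (Fin N) ℂ :=
  ∏ i : Fin N, ∏ j : Fin N, if i < j then (X j - X i) ^ 3 else 1

theorem vdm3_dvd {F : MvPolynomial (Fin N) ℂ}
    (h : ∀ i j : Fin N, i ≠ j → (X j - X i) ^ 3 ∣ F) : vdm3 N ∣ F := by
  rw [vdm3, ← Fintype.prod_prod_type', ← prod_filter]
  apply Finset.prod_dvd_of_isRelPrime
  · rintro ⟨i, j⟩ h1 ⟨k, l⟩ h2 hne
    simp only [coe_filter, mem_univ, true_and, Set.mem_setOf_eq] at h1 h2
    apply IsRelPrime.pow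
    rw [(d_prime h1.ne).irreducible.isRelPrime_iff_not_dvd, dvd_iff_eps, map_sub, eps_X, eps_X,
      sub_eq_zero]
    intro e
    have e := X_injective e
    apply hne
    simp only [Prod.mk.injEq]
    dsimp only at e
    split_ifs at e <;> omega
  · rintro ⟨i, j⟩ h1
    simp only [mem_filter, mem_univ, true_and] at h1
    exact h i j h1.ne

theorem pair_count (k : Fin N) :
    ∑ i : Fin N, ∑ j : Fin N, (if i < j then
      3 * ((if i = k then 1 else 0) + (if j = k then 1 else 0)) else 0) = 3 * (N - 1) := by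
  have e : ∀ i j : Fin N, (if i < j then
      3 * ((if i = k then 1 else 0) + (if j = k then 1 else 0)) else 0)
      = (if i = k then (if k < j then 3 else 0) else 0)
        + (if j = k then (if i < k then 3 else 0) else 0) := by
    intro i j; split_ifs <;> omega
  simp only [e, sum_add_distrib, sum_ite_eq', mem_univ, if_true]
  rw [sum_comm]
  simp only [sum_ite_eq', mem_univ, if_true, ← sum_filter, sum_const, smul_eq_mul,
    filter_lt_eq_Ioi, filter_gt_eq_Iio, Fin.card_Ioi, Fin.card_Iio]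
  have := k.2
  omega

theorem degreeOf_d {i j : Fin N} (h : i ≠ j) (k : Fin N) :
    (if i = k then 1 else 0) + (if j = k then 1 else 0) ≤
      degreeOf k (X j - X i : MvPolynomial (Fin N) ℂ) := by
  have key : ∀ a b : Fin N, a ≠ b → 1 ≤ degreeOf a (X a - X b : MvPolynomial (Fin N) ℂ) := by
    intro a b hab
    have : Finsupp.single a 1 ∈ (X a - X b : MvPolynomial (Fin N) ℂ).support := by
      rw [mem_support_iff, coeff_sub, coeff_X, coeff_X, if_pos rfl, if_neg]
      · simp
      · rw [Finsupp.single_left_inj one_ne_zero]; exact hab.symm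
    simpa using monomial_le_degreeOf a this
  by_cases h1 : i = k
  · subst h1
    rw [if_pos rfl, if_neg h.symm, ← neg_sub, degreeOf_neg]
    exact key _ _ h
  · by_cases h2 : j = k
    · subst h2
      rw [if_neg h1, if_pos rfl]
      exact key _ _ h.symm
    · simp [h1, h2]

theorem vdm3_ne_zero : vdm3 N ≠ 0 := by
  refine prod_ne_zero_iff.2 fun i _ => prod_ne_zero_iff.2 fun j _ => ?_
  split_ifs with h
  · exact pow_ne_zero _ (d_ne_zero h.ne)
  · exact one_ne_zero

theorem degreeOf_vdm3 (k : Fin N) : 3 * (N - 1) ≤ degreeOf k (vdm3 N) := by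
  have hne : ∀ i j : Fin N,
      (if i < j then (X j - X i) ^ 3 else 1 : MvPolynomial (Fin N) ℂ) ≠ 0 := by
    intro i j
    split_ifs with h
    · exact pow_ne_zero _ (d_ne_zero h.ne)
    · exact one_ne_zero
  rw [← pair_count k, vdm3,
    degreeOf_prod_eq _ _ fun i _ => prod_ne_zero_iff.2 fun j _ => hne i j]
  refine sum_le_sum fun i _ => ?_
  rw [degreeOf_prod_eq _ _ fun j _ => hne i j]
  refine sum_le_sum fun j _ => ?_
  by_cases h : i < j
  · rw [if_pos h, if_pos h, degreeOf_pow_eq _ _ _ (d_ne_zero h.ne)]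
    exact Nat.mul_le_mul_left _ (degreeOf_d h.ne k)
  · simp [h]

theorem eq_C_mul_vdm3 {F : MvPolynomial (Fin N) ℂ} (h : vdm3 N ∣ F)
    (hdeg : ∀ k, degreeOf k F ≤ 3 * (N - 1)) : ∃ c : ℂ, F = C c * vdm3 N := by
  obtain ⟨G, rfl⟩ := h
  by_cases hG : G = 0
  · exact ⟨0, by simp [hG]⟩
  refine ⟨G.coeff 0, ?_⟩
  rw [mul_comm, ← totalDegree_eq_zero_iff_eq_C.1]
  rw [totalDegree_eq_zero_iff]
  intro m hm k
  have h1 := hdeg k
  rw [degreeOf_mul_eq vdm3_ne_zero hG] at h1
  have h2 := degreeOf_vdm3 k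
  have h3 := monomial_le_degreeOf k hm
  omega

end

end Vale.Agent.P359
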