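import Vale.Agent.P359.Defs
import Vale.Agent.P359.Kap
import Vale.Agent.P359.KernelA

/-! T6: zero modes at the Laughlin flux are multiples of the Laughlin vector. -/

namespace Vale.Agent.P359

open MvPolynomial Finset

noncomputable section

/-- exponent vector of a configuration -/
def toF {N Q : ℕ} (x : Fin N → Fin (Q + 1)) : Fin N →₀ ℕ :=
  Finsupp.equivFunOnFinite.symm fun k => (x k : ℕ)

theorem toF_inj {N Q : ℕ} {x y : Fin N → Fin (Q + 1)} (h : toF x = toF y) : x = y := by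
  funext k
  exact Fin.ext (by simpa [toF] using DFunLike.congr_fun h k)

/-- the polynomial with given coefficients -/
def polyOf {N Q : ℕ} (g : (Fin N → Fin (Q + 1)) → ℂ) : MvPolynomial (Fin N) ℂ :=
  ∑ x, monomial (toF x) (g x)

theorem polyOf_eq {N Q : ℕ} (g : (Fin N → Fin (Q + 1)) → ℂ) :
    polyOf g = ∑ x, C (g x) * ∏ k, X k ^ (x k : ℕ) := by
  refine sum_congr rfl fun x _ => ?_
  rw [monomial_eq, Finsupp.prod_fintype _ _ (by simp)]
  simp [toF]

theorem coeff_polyOf {N Q : ℕ} (g : (Fin N → Fin (Q + 1)) → ℂ) (x : Fin N → Fin (Q + 1)) :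
    coeff (toF x) (polyOf g) = g x := by
  rw [polyOf, coeff_sum, sum_eq_single x]
  · simp
  · intro y _ hy
    rw [coeff_monomial, if_neg fun e => hy (toF_inj e)]
  · simp

theorem degreeOf_polyOf {N Q : ℕ} (g : (Fin N → Fin (Q + 1)) → ℂ) (k : Fin N) :
    degreeOf k (polyOf g) ≤ Q := by
  refine (degreeOf_sum_le _ _ _).trans (Finset.sup_le fun x _ => ?_)
  rw [degreeOf_le_iff]
  intro m hm
  rw [mem_singleton.1 (support_monomial_subset hm)]
  simpa [toF] using Nat.lt_succ_iff.1 (x k).2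

theorem polyOf_swap {N Q : ℕ} (g : (Fin N → Fin (Q + 1)) → ℂ) (i j : Fin N)
    (h : ∀ x, g (fun k => x (Equiv.swap i j k)) = - g x) :
    rename (Equiv.swap i j) (polyOf g) = - polyOf g := by
  rw [polyOf_eq, map_sum, ← sum_neg_distrib]
  refine Fintype.sum_equiv (Equiv.arrowCongr (Equiv.swap i j) (Equiv.refl _)) _ _ fun x => ?_
  have e : (Equiv.arrowCongr (Equiv.swap i j) (Equiv.refl (Fin (Q + 1)))) x
      = fun k => x (Equiv.swap i j k) := by
    funext k; simp
  rw [e, h, map_mul, rename_C, map_prod, map_neg, neg_mul, neg_neg]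
  congr 1
  refine Fintype.prod_equiv (Equiv.swap i j) _ _ fun k => ?_
  simp

theorem sum_cons_cons {n Q : ℕ} {M : Type*} [AddCommMonoid M]
    (G : (Fin (n + 2) → Fin (Q + 1)) → M) :
    ∑ x, G x = ∑ z : Fin n → Fin (Q + 1), ∑ y : Fin (Q + 1) × Fin (Q + 1),
      G (Fin.cons y.1 (Fin.cons y.2 z)) := by
  rw [← (Fin.consEquiv fun _ => Fin (Q + 1)).sum_comp, Fintype.sum_prod_type, sum_comm,
    ← (Fin.consEquiv fun _ => Fin (Q + 1)).sum_comp, Fintype.sum_prod_type, sum_comm]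
  refine sum_congr rfl fun z _ => ?_
  rw [Fintype.sum_prod_type, sum_comm]
  rfl

theorem eps_pderiv_polyOf {n Q : ℕ} (g : (Fin (n + 2) → Fin (Q + 1)) → ℂ)
    (h : ∀ (a : ℕ) (z : Fin n → Fin (Q + 1)), ∑ y : Fin (Q + 1) × Fin (Q + 1),
      (if (y.1 : ℕ) + y.2 = a + 1 then ((y.2 : ℕ) : ℂ) * g (Fin.cons y.1 (Fin.cons y.2 z)) else 0)
        = 0) :
    eps 0 1 (pderiv 1 (polyOf g)) = 0 := by
  rw [polyOf_eq, sum_cons_cons, map_sum, map_sum]
  refine sum_eq_zero fun z _ => ?_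
  have hM : pderiv (1 : Fin (n + 2))
      (∏ k : Fin n, (X k.succ.succ : MvPolynomial (Fin (n + 2)) ℂ) ^ (z k : ℕ)) = 0 := by
    apply pderiv_eq_zero_of_notMem_vars
    intro hv
    have := vars_prod _ hv
    simp only [mem_biUnion, mem_univ, true_and] at this
    obtain ⟨k, hk⟩ := this
    have := vars_pow _ _ hk
    rw [vars_X, mem_singleton] at this
    exact absurd (congrArg Fin.val this) (by simp)
  set M := ∏ k : Fin n, (X k.succ.succ : MvPolynomial (Fin (n + 2)) ℂ) ^ (z k : ℕ) with hMd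
  have e : ∀ y : Fin (Q + 1) × Fin (Q + 1), eps 0 1 (pderiv 1
      (C (g (Fin.cons y.1 (Fin.cons y.2 z))) * ∏ k : Fin (n + 2),
        (X k : MvPolynomial (Fin (n + 2)) ℂ) ^
          ((Fin.cons y.1 (Fin.cons y.2 z) : Fin (n + 2) → Fin (Q + 1)) k : ℕ)))
      = ∑ a ∈ range (2 * Q + 1), C (if (y.1 : ℕ) + y.2 = a + 1 then
          ((y.2 : ℕ) : ℂ) * g (Fin.cons y.1 (Fin.cons y.2 z)) else 0) * (X 0 ^ a * eps 0 1 M) := by
    rintro ⟨p, q⟩
    rw [Fin.prod_univ_succ, Fin.prod_univ_succ]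
    simp only [Fin.cons_zero, Fin.cons_succ]
    simp only [Fin.succ_zero_eq_one, ← hMd]
    have h01 : pderiv (1 : Fin (n + 2)) (X 0 : MvPolynomial (Fin (n + 2)) ℂ) = 0 :=
      pderiv_X_of_ne (by simp)
    have e0 : eps (0 : Fin (n + 2)) 1 (X 0) = X 0 := by rw [eps_X]; simp
    have e1 : eps (0 : Fin (n + 2)) 1 (X 1) = X 0 := by rw [eps_X]; simp
    simp only [pderiv_mul, pderiv_C, pderiv_pow, hM, h01, pderiv_X_self, zero_mul, mul_zero,
      zero_add, add_zero, mul_one, map_mul, map_pow, e0, e1, map_natCast, algHom_C]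
    rcases Nat.eq_zero_or_pos q with hq | hq
    · simp [hq]
    · have hp := p.2
      have hq' := q.2
      rw [sum_eq_single ((p : ℕ) + (q - 1))]
      · rw [if_pos (by omega), pow_add, map_mul, map_natCast, algebraMap_eq]; ring
      · intro a _ ha
        rw [if_neg (by omega), map_zero, zero_mul]
      · intro ha
        exact absurd (mem_range.2 (by omega)) ha
  rw [map_sum, map_sum, sum_congr rfl fun y _ => e y, sum_comm]
  refine sum_eq_zero fun a _ => ?_
  rw [← sum_mul, ← map_sum, h, map_zero, zero_mul]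

theorem wt_eq {Q : ℕ} (p : ℕ) :
    wt Q p = p.factorial * Real.sqrt (Q.choose p) / Real.sqrt Q ^ p := by
  rw [wt, Nat.descFactorial_eq_factorial_mul_choose, Real.sqrt_div (by positivity)]
  congr 1
  · rw [Nat.cast_mul, ← mul_assoc, Real.sqrt_mul (by positivity),
      Real.sqrt_mul_self (by positivity)]
  · rw [Real.sqrt_eq_iff_mul_self_eq (by positivity) (by positivity), ← mul_pow,
      Real.mul_self_sqrt (by positivity)]

theorem ampc_eq (Q a : ℕ) (y : Fin (Q + 1) × Fin (Q + 1)) :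
    ampc Q a y = a.factorial / Real.sqrt Q ^ (a + 1) * (if (y.1 : ℕ) + y.2 = a + 1 then
      ((y.2 : ℕ) : ℝ) * (Real.sqrt (Q.choose y.1) * Real.sqrt (Q.choose y.2)) else 0) := by
  rw [ampc]
  split_ifs with h
  · have key : (a.choose y.1 : ℝ) * (y.1 : ℕ).factorial * (y.2 : ℕ).factorial
        = a.factorial * (y.2 : ℕ) := by
      rcases hq : (y.2 : ℕ) with _ | q
      · rw [Nat.choose_eq_zero_of_lt (by omega)]; simp
      · have := Nat.choose_mul_factorial_mul_factorial (show (y.1 : ℕ) ≤ a by omega)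
        rw [show a - y.1 = q by omega] at this
        rw [← this, Nat.factorial_succ]; push_cast; ring
    rw [wt_eq, wt_eq, ← h, pow_add]
    have : (a.factorial : ℝ) / (Real.sqrt Q ^ (y.1 : ℕ) * Real.sqrt Q ^ (y.2 : ℕ)) *
        (((y.2 : ℕ) : ℝ) * (Real.sqrt (Q.choose y.1) * Real.sqrt (Q.choose y.2)))
        = (a.factorial * (y.2 : ℕ)) * (Real.sqrt (Q.choose y.1) * Real.sqrt (Q.choose y.2))
          / (Real.sqrt Q ^ (y.1 : ℕ) * Real.sqrt Q ^ (y.2 : ℕ)) := by ring
    rw [this, ← key]; ring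
  · simp

/-- setting `u_i = 1` -/
def dehom (N : ℕ) : MvPolynomial (Fin N × Fin 2) ℂ →ₐ[ℂ] MvPolynomial (Fin N) ℂ :=
  aeval fun k => if k.2 = 0 then 1 else X k.1

theorem dehom_laughlin (N : ℕ) : dehom N (laughlinPoly N) = vdm3 N := by
  simp only [laughlinPoly, vdm3, map_prod]
  refine prod_congr rfl fun i _ => prod_congr rfl fun j _ => ?_
  split_ifs <;> simp [dehom]

theorem dehom_monomial {N : ℕ} (m : Fin N × Fin 2 →₀ ℕ) (c : ℂ) :
    dehom N (monomial m c) =
      monomial (Finsupp.equivFunOnFinite.symm fun k => m (k, 1)) c := by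
  rw [dehom, aeval_monomial, monomial_eq, Finsupp.prod_fintype _ _ (by simp),
    Finsupp.prod_fintype _ _ (by simp), Fintype.prod_prod_type]
  simp [Fin.prod_univ_two]

theorem laughlin_hom {N : ℕ} (k : Fin N) :
    IsWeightedHomogeneous (fun s : Fin N × Fin 2 => if s.1 = k then 1 else 0) (laughlinPoly N)
      (3 * (N - 1)) := by
  rw [← pair_count k, laughlinPoly]
  refine IsWeightedHomogeneous.prod _ _ _ fun i _ => IsWeightedHomogeneous.prod _ _ _ fun j _ => ?_
  by_cases h : i < j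
  · rw [if_pos h, if_pos h, ← smul_eq_mul]
    refine IsWeightedHomogeneous.pow (IsWeightedHomogeneous.sub ?_ ?_) 3
    · exact (isWeightedHomogeneous_X ℂ _ (i, 0)).mul (isWeightedHomogeneous_X ℂ _ (j, 1))
    · rw [add_comm]
      exact (isWeightedHomogeneous_X ℂ _ (j, 0)).mul (isWeightedHomogeneous_X ℂ _ (i, 1))
  · rw [if_neg h, if_neg h]
    exact isWeightedHomogeneous_one ℂ _

theorem laughlin_supp {N : ℕ} {m : Fin N × Fin 2 →₀ ℕ} (hm : m ∈ (laughlinPoly N).support)
    (k : Fin N) : m (k, 0) + m (k, 1) = 3 * (N - 1) := by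
  rw [← laughlin_hom k (mem_support_iff.1 hm), Finsupp.weight_apply,
    Finsupp.sum_fintype _ _ (by simp), Fintype.sum_prod_type, sum_eq_single k]
  · simp [Fin.sum_univ_two]
  · intro b _ hb; simp [hb]
  · simp

theorem coeff_vdm3 {N : ℕ} (x : Fin N → Fin (3 * (N - 1) + 1)) :
    coeff (toF x) (vdm3 N) = coeff (monoExp x) (laughlinPoly N) := by
  rw [← dehom_laughlin]
  conv_lhs => rw [(laughlinPoly N).as_sum, map_sum, coeff_sum]
  conv_rhs => rw [(laughlinPoly N).as_sum, coeff_sum]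
  refine sum_congr rfl fun m hm => ?_
  rw [dehom_monomial, coeff_monomial, coeff_monomial]
  refine if_congr ⟨fun e => ?_, fun e => ?_⟩ rfl rfl
  · ext ⟨k, b⟩
    have h1 : m (k, 1) = x k := by simpa [toF] using DFunLike.congr_fun e k
    have h2 := laughlin_supp hm k
    fin_cases b
    · simp [monoExp]; omega
    · simp [monoExp, h1]
  · ext k
    simp [e, monoExp, toF]

end

theorem zero_mode {n : ℕ} (f : (Fin (n + 2) → Fin (3 * (n + 2 - 1) + 1)) → ℝ)
    (hf : ∀ x (i j : Fin (n + 2)), i ≠ j → f (fun k => x (Equiv.swap i j k)) = - f x)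
    (h0 : ∀ (a : ℕ) (x : Fin n → Fin (3 * (n + 2 - 1) + 1)),
      ∑ y, ampc (3 * (n + 2 - 1)) a y * f (Fin.cons y.1 (Fin.cons y.2 x)) = 0) :
    ∃ c : ℂ, ∀ x, (f x : ℂ) = c * laughlin (n + 2) x := by
  have hQ : 0 < 3 * (n + 2 - 1) := by omega
  set g : (Fin (n + 2) → Fin (3 * (n + 2 - 1) + 1)) → ℂ := fun x =>
    (f x : ℂ) * ∏ i, (Real.sqrt (Nat.choose (3 * (n + 2 - 1)) (x i)) : ℂ) with hg
  have hanti : ∀ a b, a ≠ b → rename (Equiv.swap a b) (polyOf g) = - polyOf g := by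
    intro a b hab
    refine polyOf_swap g a b fun x => ?_
    simp only [hg]
    rw [hf x a b hab, Equiv.prod_comp (Equiv.swap a b)
      fun i => (Real.sqrt (Nat.choose (3 * (n + 2 - 1)) (x i)) : ℂ)]
    push_cast; ring
  have hd : eps 0 1 (pderiv 1 (polyOf g)) = 0 := by
    refine eps_pderiv_polyOf g fun a z => ?_
    have h1 := h0 a z
    simp only [ampc_eq, mul_assoc, ← mul_sum] at h1
    have h2 := (mul_eq_zero.1 h1).resolve_left (by positivity)
    have h3 := congrArg (fun t : ℝ => (t : ℂ) *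
      ∏ i, (Real.sqrt (Nat.choose (3 * (n + 2 - 1)) (z i)) : ℂ)) h2
    simp only [Complex.ofReal_zero, zero_mul, Complex.ofReal_sum, sum_mul] at h3
    refine Eq.trans (sum_congr rfl fun y _ => ?_) h3
    split_ifs
    · simp only [hg, Fin.prod_univ_succ, Fin.cons_zero, Fin.cons_succ]
      push_cast; ring
    · simp
  obtain ⟨c, hc⟩ := eq_C_mul_vdm3 (vdm3_dvd fun i j hij =>
    cube_all hanti (cube_dvd (by simp) (hanti 0 1 (by simp)) hd) hij) (degreeOf_polyOf g)
  refine ⟨c, fun x => ?_⟩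
  have h1 := coeff_polyOf g x
  rw [hc, coeff_C_mul, coeff_vdm3] at h1
  have h2 : ∏ i, (Real.sqrt (Nat.choose (3 * (n + 2 - 1)) (x i)) : ℂ) ≠ 0 := by
    refine prod_ne_zero_iff.2 fun i _ => ?_
    have := Nat.choose_pos (Nat.lt_succ_iff.1 (x i).2)
    exact_mod_cast (by positivity : Real.sqrt (Nat.choose (3 * (n + 2 - 1)) (x i)) ≠ 0)
  simp only [laughlin, coords]
  rw [← mul_div_assoc, h1, hg, mul_div_cancel_right₀ _ h2]

end Vale.Agent.P359
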