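import Vale.Agent.P359.PairBound
import Vale.Agent.P359.Kernel

/-! T7: from the Fock space gap to the statement. -/

namespace Vale.Agent.P359

open Finset

theorem norm_sq_re_im (a b : ℝ) : ‖(a : ℂ) + b * Complex.I‖ ^ 2 = a ^ 2 + b ^ 2 := by
  rw [← Complex.normSq_eq_norm_sq, Complex.normSq_add_mul_I]

theorem IsFermionic.swap {N Q : ℕ} {ψ : Tens N Q} (hψ : IsFermionic ψ)
    (x : Fin N → Fin (Q + 1)) {i j : Fin N} (hij : i ≠ j) :
    ψ (fun k => x (Equiv.swap i j k)) = - ψ x := by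
  rw [hψ, Equiv.Perm.sign_swap hij]; simp

theorem gap_of_fockGap {δ : ℝ} (hδ : 0 ≤ δ) {n : ℕ} (h : FockGap δ (3 * (n + 2 - 1)))
    (ψ : Tens (n + 2) (3 * (n + 2 - 1))) (hψ : IsFermionic ψ) :
    δ * (inner ℂ ψ (ψ - (ℂ ∙ laughlin (n + 2)).starProjection ψ)).re ≤
      (inner ℂ ψ (ham ψ)).re := by
  obtain ⟨ΨR, sR, hR⟩ := kap_surj (fun x => (ψ x).re)
    (fun x i j hij => by rw [hψ.swap x hij, Complex.neg_re])
  obtain ⟨ΨI, sI, hI⟩ := kap_surj (fun x => (ψ x).im)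
    (fun x i j hij => by rw [hψ.swap x hij, Complex.neg_im])
  obtain ⟨ΦR, tR, zR, gR⟩ := h _ ΨR sR
  obtain ⟨ΦI, tI, zI, gI⟩ := h _ ΨI sI
  obtain ⟨cR, hcR⟩ := zero_mode (fun x => kap (n + 2) ΦR fun i => x i)
    (fun x i j hij => kap_swap ΦR (fun i => x i) hij)
    (fun a x => by rw [← kap_bb, zR, kap_zero])
  obtain ⟨cI, hcI⟩ := zero_mode (fun x => kap (n + 2) ΦI fun i => x i)
    (fun x i j hij => kap_swap ΦI (fun i => x i) hij)
    (fun a x => by rw [← kap_bb, zI, kap_zero])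
  have hQ : 1 ≤ 3 * (n + 2 - 1) := by omega
  have hl := ham_lower hQ ψ hψ
  set K := (ℂ ∙ laughlin (n + 2)) with hK
  have hmem : (cR + cI * Complex.I) • laughlin (n + 2) ∈ K :=
    Submodule.smul_mem _ _ (Submodule.mem_span_singleton_self _)
  have e1 : (inner ℂ ψ (ψ - K.starProjection ψ)).re = ‖ψ - K.starProjection ψ‖ ^ 2 := by
    have h0 : inner ℂ (K.starProjection ψ) (ψ - K.starProjection ψ) = 0 :=
      Submodule.inner_right_of_mem_orthogonal (K.starProjection_apply_mem ψ)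
        (K.sub_starProjection_mem_orthogonal ψ)
    have h1 := inner_self_eq_norm_sq (𝕜 := ℂ) (ψ - K.starProjection ψ)
    rw [inner_sub_left, h0, sub_zero] at h1
    exact h1
  have e2 : ‖ψ - K.starProjection ψ‖ ≤ ‖ψ - (cR + cI * Complex.I) • laughlin (n + 2)‖ := by
    rw [K.starProjection_minimal]
    exact ciInf_le ⟨0, by rintro _ ⟨z, rfl⟩; exact norm_nonneg _⟩ (⟨_, hmem⟩ : K)
  have e3 : ‖ψ - (cR + cI * Complex.I) • laughlin (n + 2)‖ ^ 2 = ((n + 2).factorial : ℝ) *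
      (ip (3 * (n + 2 - 1)) (ΨR - ΦR) (ΨR - ΦR) + ip (3 * (n + 2 - 1)) (ΨI - ΦI) (ΨI - ΦI)) := by
    rw [mul_add, ← kap_norm (sR.sub tR), ← kap_norm (sI.sub tI), ← sum_add_distrib,
      EuclideanSpace.norm_sq_eq]
    refine sum_congr rfl fun x _ => ?_
    rw [← norm_sq_re_im, kap_sub, kap_sub, hR, hI]
    congr 2
    rw [PiLp.sub_apply, PiLp.smul_apply, smul_eq_mul]
    push_cast
    rw [hcR, hcI]
    linear_combination -(Complex.re_add_im (ψ x))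
  have e4 : ∀ a, ∑ x : Fin n → Fin (3 * (n + 2 - 1) + 1),
      ‖∑ y : Fin (3 * (n + 2 - 1) + 1) × Fin (3 * (n + 2 - 1) + 1),
        (ampc (3 * (n + 2 - 1)) a y : ℂ) * ψ (Fin.cons y.1 (Fin.cons y.2 x))‖ ^ 2
      = (n.factorial : ℝ) *
        (ip (3 * (n + 2 - 1)) (bb (3 * (n + 2 - 1)) a ΨR) (bb (3 * (n + 2 - 1)) a ΨR)
          + ip (3 * (n + 2 - 1)) (bb (3 * (n + 2 - 1)) a ΨI) (bb (3 * (n + 2 - 1)) a ΨI)) := by
    intro a
    rw [mul_add, ← kap_norm (sR.bb a), ← kap_norm (sI.bb a), ← sum_add_distrib]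
    refine sum_congr rfl fun x _ => ?_
    rw [← norm_sq_re_im, kap_bb, kap_bb]
    congr 2
    push_cast
    rw [sum_mul, ← sum_add_distrib]
    refine sum_congr rfl fun y _ => ?_
    rw [hR, hI]
    linear_combination -(ampc (3 * (n + 2 - 1)) a y : ℂ) *
      (Complex.re_add_im (ψ (Fin.cons y.1 (Fin.cons y.2 x))))
  simp only [e4] at hl
  have e5 : ((n + 2 : ℝ) * (n + 1)) * ∑ a ∈ range (2 * (3 * (n + 2 - 1)) - 1),
      (nu (3 * (n + 2 - 1)) a)⁻¹ * ((n.factorial : ℝ) *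
        (ip (3 * (n + 2 - 1)) (bb (3 * (n + 2 - 1)) a ΨR) (bb (3 * (n + 2 - 1)) a ΨR)
          + ip (3 * (n + 2 - 1)) (bb (3 * (n + 2 - 1)) a ΨI) (bb (3 * (n + 2 - 1)) a ΨI)))
      = ((n + 2).factorial : ℝ) *
        (hform (3 * (n + 2 - 1)) ΨR ΨR + hform (3 * (n + 2 - 1)) ΨI ΨI) := by
    rw [hform, hform, ← sum_add_distrib, mul_sum, mul_sum]
    refine sum_congr rfl fun a _ => ?_
    rw [Nat.factorial_succ, Nat.factorial_succ]
    push_cast; ring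
  rw [e5] at hl
  refine le_trans ?_ hl
  rw [e1]
  calc δ * ‖ψ - K.starProjection ψ‖ ^ 2
      ≤ δ * ‖ψ - (cR + cI * Complex.I) • laughlin (n + 2)‖ ^ 2 :=
        mul_le_mul_of_nonneg_left (pow_le_pow_left₀ (norm_nonneg _) e2 2) hδ
    _ = ((n + 2).factorial : ℝ) * (δ * ip (3 * (n + 2 - 1)) (ΨR - ΦR) (ΨR - ΦR)
          + δ * ip (3 * (n + 2 - 1)) (ΨI - ΦI) (ΨI - ΦI)) := by rw [e3]; ring
    _ ≤ _ := mul_le_mul_of_nonneg_left (add_le_add gR gI) (by positivity)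

end Vale.Agent.P359
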