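import Vale.Agent.P359.Ident

/-! Asymptotic calculus as `Q → ∞`, relative to `x = G(b₀,b₀)`. -/

namespace Vale.Agent.P359

open Finset Filter Asymptotics Topology

def lS : Filter St := comap St.Q atTop

abbrev Fam := ℕ → Op

theorem ev_Q {p : ℕ → Prop} (h : ∀ᶠ Q in atTop, p Q) : ∀ᶠ s in lS, p s.Q :=
  tendsto_comap.eventually h

theorem ev_ge (n : ℕ) : ∀ᶠ s in lS, n ≤ s.Q := ev_Q (eventually_ge_atTop n)

def Bd (X : Fam) : Prop := (fun s : St => s.G (X s.Q) (X s.Q)) =O[lS] St.x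
def Sm (X : Fam) : Prop := (fun s : St => s.G (X s.Q) (X s.Q)) =o[lS] St.x
def Lo (f : St → ℝ) : Prop := f =o[lS] St.x
/-- almost nonnegative -/
def AN (f : St → ℝ) : Prop := ∃ g : St → ℝ, (∀ᶠ s in lS, 0 ≤ g s) ∧ Lo fun s => f s - g s
/-- bounded left multiplier -/
def Mu (M : Fam) : Prop := ∃ C : ℝ, ∀ Q ψ, ip Q (M Q ψ) (M Q ψ) ≤ C * ip Q ψ ψ

theorem G_sq_bigO (X Y : Fam) : (fun s : St => s.G (X s.Q) (Y s.Q) ^ 2) =O[lS]
    (fun s : St => s.G (X s.Q) (X s.Q) * s.G (Y s.Q) (Y s.Q)) := by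
  refine IsBigO.of_bound' (Eventually.of_forall fun s => ?_)
  rw [Real.norm_of_nonneg (sq_nonneg _),
    Real.norm_of_nonneg (mul_nonneg (s.G_self_nonneg _) (s.G_self_nonneg _))]
  exact s.G_sq_le _ _

theorem Bd.G {X Y : Fam} (hX : Bd X) (hY : Bd Y) :
    (fun s : St => s.G (X s.Q) (Y s.Q)) =O[lS] St.x := by
  refine IsBigO.of_pow (n := 2) two_ne_zero ?_
  refine (G_sq_bigO X Y).trans ?_
  exact (IsBigO.mul hX hY).congr_right fun s => (pow_two _).symm

theorem Sm.G {X Y : Fam} (hX : Sm X) (hY : Bd Y) : Lo fun s : St => s.G (X s.Q) (Y s.Q) := by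
  refine IsLittleO.of_pow (n := 2) ?_ two_ne_zero
  refine (G_sq_bigO X Y).trans_isLittleO ?_
  exact (IsLittleO.mul_isBigO hX hY).congr_right fun s => (pow_two _).symm

theorem Sm.bd {X : Fam} (hX : Sm X) : Bd X := hX.isBigO

theorem Bd.congr {X Y : Fam} (hX : Bd X) (h : ∀ Q, 1 ≤ Q → X Q = Y Q) : Bd Y :=
  IsBigO.congr' hX ((ev_ge 1).mono fun s hs => by simp only [h s.Q hs]) EventuallyEq.rfl

theorem Sm.congr {X Y : Fam} (hX : Sm X) (h : ∀ Q, 1 ≤ Q → X Q = Y Q) : Sm Y :=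
  IsLittleO.congr' hX ((ev_ge 1).mono fun s hs => by simp only [h s.Q hs]) EventuallyEq.rfl

theorem Sm.zero : Sm fun _ => 0 := by
  unfold Sm; simp only [St.G_zero_left]; exact isLittleO_zero _ _

theorem Bd.zero : Bd fun _ => 0 := Sm.zero.bd

theorem Bd.add {X Y : Fam} (hX : Bd X) (hY : Bd Y) : Bd fun Q => X Q + Y Q := by
  unfold Bd
  simp only [St.G_add_left, St.G_add_right]
  exact ((hX.G hX).add (hY.G hX)).add ((hX.G hY).add (hY.G hY))

theorem Sm.add {X Y : Fam} (hX : Sm X) (hY : Sm Y) : Sm fun Q => X Q + Y Q := by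
  unfold Sm
  simp only [St.G_add_left, St.G_add_right]
  exact ((hX.G hX.bd).add (hY.G hX.bd)).add ((hX.G hY.bd).add (hY.G hY.bd))

theorem Bd.smul {X : Fam} (hX : Bd X) (c : ℝ) : Bd fun Q => c • X Q := by
  unfold Bd
  simp only [St.G_smul_left, St.G_smul_right]
  exact (IsBigO.const_mul_left hX c).const_mul_left c

theorem Sm.smul {X : Fam} (hX : Sm X) (c : ℝ) : Sm fun Q => c • X Q := by
  unfold Sm
  simp only [St.G_smul_left, St.G_smul_right]
  exact (IsLittleO.const_mul_left hX c).const_mul_left c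

theorem Bd.sum {ι : Type*} (t : Finset ι) {X : ι → Fam} (h : ∀ i ∈ t, Bd (X i)) :
    Bd fun Q => ∑ i ∈ t, X i Q := by
  classical
  induction t using Finset.induction_on with
  | empty => simpa using Bd.zero
  | insert a t ha ih =>
    simp only [sum_insert ha]
    exact (h a (mem_insert_self _ _)).add (ih fun i hi => h i (mem_insert_of_mem hi))

theorem Sm.sum {ι : Type*} (t : Finset ι) {X : ι → Fam} (h : ∀ i ∈ t, Sm (X i)) :
    Sm fun Q => ∑ i ∈ t, X i Q := by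
  classical
  induction t using Finset.induction_on with
  | empty => simpa using Sm.zero
  | insert a t ha ih =>
    simp only [sum_insert ha]
    exact (h a (mem_insert_self _ _)).add (ih fun i hi => h i (mem_insert_of_mem hi))

theorem lo_of_null {r : ℕ → ℝ} (hr : Tendsto r atTop (𝓝 0)) {f : St → ℝ} (hf : f =O[lS] St.x) :
    Lo fun s => r s.Q * f s := by
  have h1 : (fun s : St => r s.Q) =o[lS] (fun _ => (1 : ℝ)) :=
    (isLittleO_one_iff ℝ).mpr (hr.comp tendsto_comap)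
  exact (h1.mul_isBigO hf).congr_right fun s => one_mul _

theorem Bd.null_smul {X : Fam} (hX : Bd X) {r : ℕ → ℝ} (hr : Tendsto r atTop (𝓝 0)) :
    Sm fun Q => r Q • X Q := by
  unfold Sm
  simp only [St.G_smul_left, St.G_smul_right, ← mul_assoc]
  exact lo_of_null (r := fun Q => r Q * r Q) (by simpa using hr.mul hr) hX

theorem Mu.G_le {M : Fam} (hM : Mu M) (X : Fam) :
    (fun s : St => s.G (M s.Q * X s.Q) (M s.Q * X s.Q)) =O[lS]
      fun s : St => s.G (X s.Q) (X s.Q) := by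
  obtain ⟨C, hC⟩ := hM
  refine IsBigO.of_bound C (Eventually.of_forall fun s => ?_)
  rw [Real.norm_of_nonneg (s.G_self_nonneg _), Real.norm_of_nonneg (s.G_self_nonneg _)]
  simp only [St.G, Module.End.mul_apply, mul_sum]
  exact sum_le_sum fun j _ => hC _ _

theorem Mu.bd {M X : Fam} (hM : Mu M) (hX : Bd X) : Bd fun Q => M Q * X Q :=
  (hM.G_le X).trans hX

theorem Mu.sm {M X : Fam} (hM : Mu M) (hX : Sm X) : Sm fun Q => M Q * X Q :=
  (hM.G_le X).trans_isLittleO hX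

theorem wt_sq_le (Q p : ℕ) : wt Q p ^ 2 ≤ p.factorial := by
  rw [wt_sq]
  rcases Nat.eq_zero_or_pos Q with h | h
  · subst h
    rcases p with _ | p
    · simp
    · simp
  · rw [div_le_iff₀ (by positivity)]
    have : ((Q.descFactorial p : ℕ) : ℝ) ≤ (Q : ℝ) ^ p := by
      exact_mod_cast Nat.descFactorial_le_pow Q p
    exact mul_le_mul_of_nonneg_left this (by positivity)

theorem Mu.ee (p : ℕ) : Mu fun Q => ee Q p :=
  ⟨p.factorial, fun Q ψ => (ip_ee_le Q p ψ).trans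
    (mul_le_mul_of_nonneg_right (wt_sq_le Q p) (ip_self_nonneg _ _))⟩

theorem Mu.nonneg {M : Fam} (hM : Mu M) :
    ∃ C : ℝ, 0 ≤ C ∧ ∀ Q ψ, ip Q (M Q ψ) (M Q ψ) ≤ C * ip Q ψ ψ := by
  obtain ⟨C, hC⟩ := hM
  exact ⟨|C|, abs_nonneg _, fun Q ψ => (hC Q ψ).trans
    (mul_le_mul_of_nonneg_right (le_abs_self _) (ip_self_nonneg _ _))⟩

theorem Mu.mul {M N : Fam} (hM : Mu M) (hN : Mu N) : Mu fun Q => M Q * N Q := by
  obtain ⟨C, hC0, hC⟩ := hM.nonneg
  obtain ⟨D, hD⟩ := hN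
  refine ⟨C * D, fun Q ψ => (hC Q _).trans ?_⟩
  rw [mul_assoc]
  exact mul_le_mul_of_nonneg_left (hD Q ψ) hC0

theorem Mu.smul {M : Fam} (hM : Mu M) (c : ℝ) : Mu fun Q => c • M Q := by
  obtain ⟨C, hC⟩ := hM
  refine ⟨c * c * C, fun Q ψ => ?_⟩
  simp only [LinearMap.smul_apply, ip_smul_left, ip_smul_right]
  have := mul_le_mul_of_nonneg_left (hC Q ψ) (mul_self_nonneg c)
  linarith

theorem Mu.add {M N : Fam} (hM : Mu M) (hN : Mu N) : Mu fun Q => M Q + N Q := by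
  obtain ⟨C, hC⟩ := hM
  obtain ⟨D, hD⟩ := hN
  refine ⟨2 * C + 2 * D, fun Q ψ => ?_⟩
  have h := ip_self_nonneg Q (M Q ψ - N Q ψ)
  simp only [LinearMap.add_apply, ip_add_left, ip_add_right, ip_sub_left, ip_sub_right] at h ⊢
  have := hC Q ψ
  have := hD Q ψ
  linarith

theorem Mu.zero : Mu fun _ => 0 := ⟨0, fun Q ψ => by simp [ip_zero_left]⟩

theorem Mu.sum {ι : Type*} (t : Finset ι) {X : ι → Fam} (h : ∀ i ∈ t, Mu (X i)) :
    Mu fun Q => ∑ i ∈ t, X i Q := by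
  classical
  induction t using Finset.induction_on with
  | empty => simpa using Mu.zero
  | insert a t ha ih =>
    simp only [sum_insert ha]
    exact (h a (mem_insert_self _ _)).add (ih fun i hi => h i (mem_insert_of_mem hi))

theorem Mu.bb (a : ℕ) : Mu fun Q => bb Q a :=
  Mu.sum _ fun p _ => ((Mu.ee (a + 1 - p)).mul (Mu.ee p)).smul _

theorem nu_le (Q a : ℕ) (hQ : 1 ≤ Q) : nu Q a ≤ a.factorial * 2 ^ a := by
  unfold nu
  rw [div_le_iff₀ (by positivity), mul_assoc, ← mul_pow]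
  have h1 : (2 * Q - 2).descFactorial a ≤ (2 * Q) ^ a :=
    (Nat.descFactorial_le_pow _ _).trans (Nat.pow_le_pow_left (by omega) _)
  have h2 : (((2 * Q - 2).descFactorial a : ℕ) : ℝ) ≤ (2 * Q : ℝ) ^ a := by exact_mod_cast h1
  exact mul_le_mul_of_nonneg_left h2 (by positivity)

theorem Bd.bb (a : ℕ) : Bd fun Q => bb Q a := by
  refine IsBigO.of_bound (a.factorial * 2 ^ a) ((ev_ge 1).mono fun s hs => ?_)
  rw [Real.norm_of_nonneg (s.G_self_nonneg _), Real.norm_of_nonneg s.x_nonneg, s.G_bb hs]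
  exact mul_le_mul_of_nonneg_right (nu_le _ _ hs) s.x_nonneg

/-- approximate lowering -/
def TT (X X' : Fam) : Prop := Sm fun Q => X Q * lm Q - lm Q * X Q - X' Q
/-- exact raising -/
def UU (X X' : Fam) : Prop := ∀ Q, 1 ≤ Q → X Q * lp Q = lp Q * X Q + X' Q

theorem lo_inv {X X' Y Y' : Fam} (hT : TT X X') (hU : UU Y Y') (hY : Bd Y) :
    Lo fun s => s.G (X' s.Q) (Y s.Q) - s.G (X s.Q) (Y' s.Q) := by
  have h := (Sm.G hT hY).neg_left
  refine IsLittleO.congr' h ((ev_ge 1).mono fun s hs => ?_) EventuallyEq.rfl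
  simp only
  rw [s.G_sub_left, s.G_inv, hU s.Q hs, add_sub_cancel_left]
  ring

theorem TT.add {X X' Y Y' : Fam} (h : TT X X') (h' : TT Y Y') :
    TT (fun Q => X Q + Y Q) (fun Q => X' Q + Y' Q) :=
  (Sm.add h h').congr fun Q _ => by simp only [add_mul, mul_add]; abel

theorem TT.smul {X X' : Fam} (h : TT X X') (c : ℝ) :
    TT (fun Q => c • X Q) (fun Q => c • X' Q) :=
  (Sm.smul h c).congr fun Q _ => by simp only [smul_sub, smul_mul_assoc, mul_smul_comm]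

theorem TT.zero : TT (fun _ => 0) (fun _ => 0) := Sm.zero.congr fun Q _ => by simp

theorem TT.sum {ι : Type*} (t : Finset ι) {X X' : ι → Fam} (h : ∀ i ∈ t, TT (X i) (X' i)) :
    TT (fun Q => ∑ i ∈ t, X i Q) (fun Q => ∑ i ∈ t, X' i Q) :=
  (Sm.sum t h).congr fun Q _ => by simp only [sum_sub_distrib, sum_mul, mul_sum]

theorem TT.congr {X X' Y Y' : Fam} (h : TT X X') (h1 : ∀ Q, 1 ≤ Q → X Q = Y Q)
    (h2 : ∀ Q, 1 ≤ Q → X' Q = Y' Q) : TT Y Y' :=
  Sm.congr h fun Q hQ => by rw [h1 Q hQ, h2 Q hQ]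

theorem UU.add {X X' Y Y' : Fam} (h : UU X X') (h' : UU Y Y') :
    UU (fun Q => X Q + Y Q) (fun Q => X' Q + Y' Q) := fun Q hQ => by
  simp only [add_mul, mul_add, h Q hQ, h' Q hQ]; abel

theorem UU.smul {X X' : Fam} (h : UU X X') (c : ℝ) :
    UU (fun Q => c • X Q) (fun Q => c • X' Q) := fun Q hQ => by
  simp only [smul_mul_assoc, mul_smul_comm, h Q hQ, smul_add]

theorem UU.zero : UU (fun _ => 0) (fun _ => 0) := fun Q _ => by simp

theorem UU.mul {X X' Y Y' : Fam} (h : UU X X') (h' : UU Y Y') :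
    UU (fun Q => X Q * Y Q) (fun Q => X' Q * Y Q + X Q * Y' Q) := fun Q hQ => by
  rw [mul_assoc, h' Q hQ, mul_add, ← mul_assoc, h Q hQ]; noncomm_ring

theorem tendsto_div_Q (c : ℝ) : Tendsto (fun Q : ℕ => c / (Q : ℝ)) atTop (𝓝 0) :=
  tendsto_const_div_atTop_nhds_zero_nat c

theorem TT.bb (a : ℕ) : TT (fun Q => bb Q a) (fun Q => (2 * (a : ℝ)) • bb Q (a - 1)) := by
  refine ((Bd.bb (a - 1)).null_smul (tendsto_div_Q (-(a * (a + 1))))).congr fun Q hQ => ?_
  rw [bb_lm hQ, add_sub_cancel_left, ← sub_smul]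
  congr 1; ring

/-- A family of multipliers forming an approximate oscillator representation. -/
structure Osc (B : ℕ → Fam) (lam : ℝ) : Prop where
  mu : ∀ p, Mu (B p)
  up : ∀ p, UU (B p) (B (p + 1))
  down : ∀ p, ∃ r : ℝ, ∀ Q, 1 ≤ Q →
    B p Q * lm Q = lm Q * B p Q + (lam * p + r / Q) • B (p - 1) Q

theorem osc_ee : Osc (fun p Q => ee Q p) 1 where
  mu := Mu.ee
  up := fun p _ hQ => ee_lp hQ p
  down := fun p => ⟨-(p * (p - 1)), fun Q hQ => by rw [ee_lm hQ]; congr 2; ring⟩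

theorem osc_bb : Osc (fun p Q => bb Q p) 2 where
  mu := Mu.bb
  up := fun p _ hQ => bb_lp hQ p
  down := fun p => ⟨-(p * (p + 1)), fun Q hQ => by rw [bb_lm hQ]; congr 2; ring⟩

theorem Osc.tt {B : ℕ → Fam} {lam : ℝ} (hB : Osc B lam) (p : ℕ) {X X' : Fam} (h : TT X X')
    (hX : Bd X) :
    TT (fun Q => B p Q * X Q) (fun Q => (lam * p) • (B (p - 1) Q * X Q) + B p Q * X' Q) := by
  obtain ⟨r, hr⟩ := hB.down p
  have h1 := (hB.mu p).sm h
  have h2 := ((hB.mu (p - 1)).bd hX).null_smul (tendsto_div_Q r)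
  refine (h1.add h2).congr fun Q hQ => ?_
  have e : lm Q * (B p Q * X Q) = (B p Q * lm Q - (lam * p + r / Q) • B (p - 1) Q) * X Q := by
    rw [hr Q hQ, add_sub_cancel_right, mul_assoc]
  rw [e]
  simp only [mul_sub, sub_mul, add_smul, add_mul, smul_mul_assoc, mul_assoc]
  abel

theorem Lo.add {f g : St → ℝ} (hf : Lo f) (hg : Lo g) : Lo fun s => f s + g s :=
  IsLittleO.add hf hg
theorem Lo.sub {f g : St → ℝ} (hf : Lo f) (hg : Lo g) : Lo fun s => f s - g s :=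
  IsLittleO.sub hf hg
theorem Lo.const_mul {f : St → ℝ} (hf : Lo f) (c : ℝ) : Lo fun s => c * f s :=
  IsLittleO.const_mul_left hf c
theorem Lo.zero : Lo fun _ => 0 := isLittleO_zero _ _
theorem Lo.congr {f g : St → ℝ} (hf : Lo f) (h : ∀ s : St, 1 ≤ s.Q → f s = g s) : Lo g :=
  IsLittleO.congr' hf ((ev_ge 1).mono h) EventuallyEq.rfl
theorem Lo.sum {ι : Type*} (t : Finset ι) {f : ι → St → ℝ} (h : ∀ i ∈ t, Lo (f i)) :
    Lo fun s => ∑ i ∈ t, f i s := (IsLittleO.sum h).congr_left fun s => Finset.sum_apply s t f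
theorem Lo.lsum {ι : Type*} (t : List ι) {f : ι → St → ℝ} (h : ∀ i ∈ t, Lo (f i)) :
    Lo fun s => (t.map fun i => f i s).sum := by
  induction t with
  | nil => simpa using Lo.zero
  | cons a t ih =>
    simp only [List.map_cons, List.sum_cons]
    exact (h a List.mem_cons_self).add (ih fun i hi => h i (List.mem_cons_of_mem _ hi))

theorem Lo.an {f : St → ℝ} (hf : Lo f) : AN f :=
  ⟨fun _ => 0, Eventually.of_forall fun _ => le_rfl, by simpa using hf⟩
theorem AN.of_nonneg {f : St → ℝ} (hf : ∀ᶠ s in lS, 0 ≤ f s) : AN f :=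
  ⟨f, hf, by simpa using Lo.zero⟩
theorem AN.add {f g : St → ℝ} (hf : AN f) (hg : AN g) : AN fun s => f s + g s := by
  obtain ⟨f', h1, h2⟩ := hf
  obtain ⟨g', h3, h4⟩ := hg
  exact ⟨fun s => f' s + g' s, (h1.and h3).mono fun s h => add_nonneg h.1 h.2,
    (h2.add h4).congr fun s _ => by ring⟩
theorem AN.congr {f g : St → ℝ} (hf : AN f) (h : ∀ s : St, 1 ≤ s.Q → f s = g s) : AN g := by
  obtain ⟨f', h1, h2⟩ := hf
  exact ⟨f', h1, h2.congr fun s hs => by rw [h s hs]⟩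

theorem AN.final {c : ℝ} (hc : 0 < c) {f : St → ℝ} (hf : AN fun s => f s - c * s.x) :
    ∀ᶠ s in lS, 0 ≤ f s := by
  obtain ⟨g, h1, h2⟩ := hf
  have h3 := h2.def hc
  filter_upwards [h1, h3] with s h1 h3
  rw [Real.norm_of_nonneg s.x_nonneg, Real.norm_eq_abs] at h3
  have := neg_abs_le (f s - c * s.x - g s)
  linarith

end Vale.Agent.P359
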