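import Vale.Agent.P359.FockDefs

/-! T1: canonical anticommutation relations, inner product, supports. -/

namespace Vale.Agent.P359

open Finset

theorem ann_apply (p : ℕ) (ψ : Fk) (S : Finset ℕ) :
    ann p ψ S = if p ∈ S then 0 else sgn p S * ψ (insert p S) := rfl

theorem cre_apply (p : ℕ) (ψ : Fk) (S : Finset ℕ) :
    cre p ψ S = if p ∈ S then sgn p S * ψ (S.erase p) else 0 := rfl

theorem sgn_mul_self (p : ℕ) (S : Finset ℕ) : sgn p S * sgn p S = 1 := by
  unfold sgn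
  rw [← mul_pow]; simp

theorem sgn_insert (p : ℕ) {q : ℕ} {S : Finset ℕ} (hq : q ∉ S) :
    sgn p (insert q S) = (if q < p then -1 else 1) * sgn p S := by
  unfold sgn
  rw [filter_insert]
  by_cases h : q < p
  · simp only [h, if_true]
    rw [card_insert_of_notMem (by simp [hq]), pow_succ]; ring
  · simp [h]

theorem sgn_erase (p : ℕ) {q : ℕ} {S : Finset ℕ} (hq : q ∈ S) :
    sgn p (S.erase q) = (if q < p then -1 else 1) * sgn p S := by
  have h := sgn_insert p (q := q) (S := S.erase q) (by simp)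
  rw [insert_erase hq] at h
  rw [h]
  split_ifs <;> ring

theorem ann_sq (p : ℕ) : ann p * ann p = 0 := by
  ext ψ S
  simp [ann_apply]

theorem ann_ann (p q : ℕ) : ann p * ann q = -(ann q * ann p) := by
  by_cases hpq : p = q
  · subst hpq; simp [ann_sq]
  ext ψ S
  simp only [Module.End.mul_apply, LinearMap.neg_apply, Fk.neg_apply,
    ann_apply, mem_insert]
  by_cases hp : p ∈ S <;> by_cases hq : q ∈ S <;> simp [hp, hq, hpq, Ne.symm hpq]
  rw [sgn_insert q hp, sgn_insert p hq, insert_comm]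
  rcases lt_or_gt_of_ne hpq with h | h
  · simp [h, not_lt.mpr h.le]; ring
  · simp [h, not_lt.mpr h.le]; ring

theorem cre_cre (p q : ℕ) : cre p * cre q = -(cre q * cre p) := by
  ext ψ S
  simp only [Module.End.mul_apply, LinearMap.neg_apply, Fk.neg_apply,
    cre_apply, mem_erase]
  by_cases hpq : p = q
  · subst hpq; simp
  by_cases hp : p ∈ S <;> by_cases hq : q ∈ S <;> simp [hp, hq, hpq, Ne.symm hpq]
  rw [sgn_erase q hp, sgn_erase p hq, erase_right_comm]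
  rcases lt_or_gt_of_ne hpq with h | h
  · simp [h, not_lt.mpr h.le]; ring
  · simp [h, not_lt.mpr h.le]; ring

theorem ann_cre (p q : ℕ) : ann p * cre q + cre q * ann p = if p = q then 1 else 0 := by
  ext ψ S
  simp only [Module.End.mul_apply, LinearMap.add_apply, Fk.add_apply,
    ann_apply, cre_apply, mem_erase, mem_insert]
  by_cases hpq : p = q
  · subst hpq
    by_cases hp : p ∈ S
    · simp only [hp, if_true, ne_eq, not_true_eq_false, false_and, if_false, zero_add,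
        Module.End.one_apply]
      rw [sgn_erase p hp, insert_erase hp, ← mul_assoc]
      simp [sgn_mul_self]
    · simp only [hp, if_false, true_or, if_true, add_zero, Module.End.one_apply]
      rw [sgn_insert p hp, erase_insert hp, ← mul_assoc]
      simp [sgn_mul_self]
  · by_cases hp : p ∈ S <;> by_cases hq : q ∈ S <;> simp [hp, hq, hpq, Ne.symm hpq]
    rw [sgn_insert q hp, sgn_erase p hq, erase_insert_of_ne hpq]
    rcases lt_or_gt_of_ne hpq with h | h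
    · simp [h, not_lt.mpr h.le]; ring
    · simp [h, not_lt.mpr h.le]; ring

theorem ip_comm (Q : ℕ) (ψ χ : Fk) : ip Q ψ χ = ip Q χ ψ := by
  simp [ip, mul_comm]
theorem ip_add_left (Q : ℕ) (ψ φ χ : Fk) : ip Q (ψ + φ) χ = ip Q ψ χ + ip Q φ χ := by
  simp [ip, add_mul, sum_add_distrib]
theorem ip_add_right (Q : ℕ) (ψ φ χ : Fk) : ip Q χ (ψ + φ) = ip Q χ ψ + ip Q χ φ := by
  simp [ip, mul_add, sum_add_distrib]
theorem ip_sub_left (Q : ℕ) (ψ φ χ : Fk) : ip Q (ψ - φ) χ = ip Q ψ χ - ip Q φ χ := by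
  simp [ip, sub_mul, sum_sub_distrib]
theorem ip_sub_right (Q : ℕ) (ψ φ χ : Fk) : ip Q χ (ψ - φ) = ip Q χ ψ - ip Q χ φ := by
  simp [ip, mul_sub, sum_sub_distrib]
theorem ip_neg_left (Q : ℕ) (ψ χ : Fk) : ip Q (-ψ) χ = - ip Q ψ χ := by
  simp [ip]
theorem ip_neg_right (Q : ℕ) (ψ χ : Fk) : ip Q χ (-ψ) = - ip Q χ ψ := by
  simp [ip]
theorem ip_smul_left (Q : ℕ) (c : ℝ) (ψ χ : Fk) : ip Q (c • ψ) χ = c * ip Q ψ χ := by
  simp [ip, mul_sum, mul_assoc]
theorem ip_smul_right (Q : ℕ) (c : ℝ) (ψ χ : Fk) : ip Q χ (c • ψ) = c * ip Q χ ψ := by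
  simp [ip, mul_sum, mul_left_comm]
theorem ip_zero_left (Q : ℕ) (χ : Fk) : ip Q 0 χ = 0 := by simp [ip]
theorem ip_zero_right (Q : ℕ) (χ : Fk) : ip Q χ 0 = 0 := by simp [ip]
theorem ip_sum_left {ι : Type*} (Q : ℕ) (s : Finset ι) (f : ι → Fk) (χ : Fk) :
    ip Q (∑ i ∈ s, f i) χ = ∑ i ∈ s, ip Q (f i) χ := by
  simp only [ip, Fk.sum_apply, sum_mul]
  exact sum_comm
theorem ip_sum_right {ι : Type*} (Q : ℕ) (s : Finset ι) (f : ι → Fk) (χ : Fk) :
    ip Q χ (∑ i ∈ s, f i) = ∑ i ∈ s, ip Q χ (f i) := by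
  simp only [ip, Fk.sum_apply, mul_sum]
  exact sum_comm
theorem ip_self_nonneg (Q : ℕ) (ψ : Fk) : 0 ≤ ip Q ψ ψ :=
  sum_nonneg fun _ _ => mul_self_nonneg _

theorem ip_ann {Q p : ℕ} (hp : p ≤ Q) (ψ χ : Fk) : ip Q (ann p ψ) χ = ip Q ψ (cre p χ) := by
  have hpm : p ∈ range (Q + 1) := mem_range.mpr (Nat.lt_succ_of_le hp)
  unfold ip
  rw [← insert_erase hpm, sum_powerset_insert (notMem_erase p _),
    sum_powerset_insert (notMem_erase p _)]
  have h1 : ∀ S ∈ ((range (Q + 1)).erase p).powerset, p ∉ S := fun S hS h =>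
    notMem_erase p _ (mem_powerset.mp hS h)
  have e1 : ∑ S ∈ ((range (Q + 1)).erase p).powerset, ann p ψ (insert p S) * χ (insert p S) = 0 :=
    sum_eq_zero fun S _ => by simp [ann_apply]
  have e2 : ∑ S ∈ ((range (Q + 1)).erase p).powerset, ψ S * cre p χ S = 0 :=
    sum_eq_zero fun S hS => by simp [cre_apply, h1 S hS]
  rw [e1, e2, add_zero, zero_add]
  refine sum_congr rfl fun S hS => ?_
  have hS' := h1 S hS
  simp only [ann_apply, cre_apply, hS', if_false, mem_insert_self, if_true, erase_insert hS',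
    sgn_insert p hS', lt_irrefl]
  ring

theorem ip_ann_le {Q p : ℕ} (hp : p ≤ Q) (ψ : Fk) : ip Q (ann p ψ) (ann p ψ) ≤ ip Q ψ ψ := by
  have h1 : ip Q (ann p ψ) (ann p ψ) = ip Q ψ (cre p (ann p ψ)) := ip_ann hp _ _
  have h2 : ip Q (cre p ψ) (cre p ψ) = ip Q ψ (ann p (cre p ψ)) := by
    rw [ip_comm Q ψ, ip_ann hp]
  have h3 : ann p (cre p ψ) + cre p (ann p ψ) = ψ := by
    have := congrArg (fun X : Op => X ψ) (ann_cre p p)
    simpa using this
  have h4 := ip_add_right Q (ann p (cre p ψ)) (cre p (ann p ψ)) ψ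
  rw [h3] at h4
  have := ip_self_nonneg Q (cre p ψ)
  linarith

theorem wt_eq_zero {Q p : ℕ} (hp : Q < p) : wt Q p = 0 := by
  simp [wt, Nat.descFactorial_of_lt hp]

theorem ip_ee_le (Q p : ℕ) (ψ : Fk) :
    ip Q (ee Q p ψ) (ee Q p ψ) ≤ wt Q p ^ 2 * ip Q ψ ψ := by
  by_cases hp : p ≤ Q
  · simp only [ee, LinearMap.smul_apply, ip_smul_left, ip_smul_right]
    have := ip_ann_le hp ψ
    nlinarith [sq_nonneg (wt Q p)]
  · simp [ee, wt_eq_zero (not_le.mp hp), ip_zero_left]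

theorem Sup.zero (N Q : ℕ) : Sup N Q 0 := fun _ h => absurd rfl h
theorem Sup.add {N Q : ℕ} {ψ χ : Fk} (h : Sup N Q ψ) (h' : Sup N Q χ) : Sup N Q (ψ + χ) := by
  intro S hS
  by_cases h1 : ψ S = 0
  · exact h' S (by simpa [h1] using hS)
  · exact h S h1
theorem Sup.smul {N Q : ℕ} {ψ : Fk} (c : ℝ) (h : Sup N Q ψ) : Sup N Q (c • ψ) := by
  intro S hS
  exact h S fun h1 => hS (by simp [h1])
theorem Sup.sub {N Q : ℕ} {ψ χ : Fk} (h : Sup N Q ψ) (h' : Sup N Q χ) : Sup N Q (ψ - χ) := by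
  have := h.add (h'.smul (-1))
  simpa [sub_eq_add_neg] using this
theorem Sup.sum {ι : Type*} {N Q : ℕ} (s : Finset ι) (f : ι → Fk) (h : ∀ i ∈ s, Sup N Q (f i)) :
    Sup N Q (∑ i ∈ s, f i) :=
  Finset.sum_induction f (Sup N Q) (fun _ _ => Sup.add) (Sup.zero N Q) h
theorem Sup.ann {N Q : ℕ} {ψ : Fk} (h : Sup (N + 1) Q ψ) (p : ℕ) : Sup N Q (ann p ψ) := by
  intro S hS
  rw [ann_apply] at hS
  by_cases hp : p ∈ S
  · simp [hp] at hS
  · simp only [hp, if_false] at hS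
    obtain ⟨h1, h2⟩ := h _ (right_ne_zero_of_mul hS)
    rw [card_insert_of_notMem hp] at h2
    exact ⟨(subset_insert _ _).trans h1, by omega⟩
theorem Sup.ann_zero {Q : ℕ} {ψ : Fk} (h : Sup 0 Q ψ) (p : ℕ) :
    Vale.Agent.P359.ann p ψ = 0 := by
  ext S
  rw [ann_apply]
  by_cases hp : p ∈ S
  · simp [hp]
  · by_contra hS
    simp only [hp, if_false, Fk.zero_apply] at hS
    obtain ⟨_, h2⟩ := h _ (right_ne_zero_of_mul hS)
    rw [card_insert_of_notMem hp] at h2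
    omega
theorem Sup.ann_gt {N Q : ℕ} {ψ : Fk} (h : Sup N Q ψ) {p : ℕ} (hp : Q < p) :
    Vale.Agent.P359.ann p ψ = 0 := by
  ext S
  rw [ann_apply]
  by_cases hpS : p ∈ S
  · simp [hpS]
  · by_contra hS
    simp only [hpS, if_false, Fk.zero_apply] at hS
    obtain ⟨h1, _⟩ := h _ (right_ne_zero_of_mul hS)
    have := mem_range.mp (h1 (mem_insert_self p S))
    omega
theorem Sup.cre {N Q : ℕ} {ψ : Fk} (h : Sup N Q ψ) {p : ℕ} (hp : p ≤ Q) :
    Sup (N + 1) Q (cre p ψ) := by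
  intro S hS
  rw [cre_apply] at hS
  by_cases hpS : p ∈ S
  · simp only [hpS, if_true] at hS
    obtain ⟨h1, h2⟩ := h _ (right_ne_zero_of_mul hS)
    rw [card_erase_of_mem hpS] at h2
    have : 0 < S.card := card_pos.mpr ⟨p, hpS⟩
    refine ⟨?_, by omega⟩
    rw [← insert_erase hpS]
    exact insert_subset (mem_range.mpr (by omega)) h1
  · simp [hpS] at hS
theorem Sup.eq_zero_of_ip {N Q : ℕ} {ψ : Fk} (h : Sup N Q ψ) (h0 : ip Q ψ ψ = 0) : ψ = 0 := by
  ext S
  by_contra hS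
  have h1 := (h S hS).1
  have := (sum_eq_zero_iff_of_nonneg (fun _ _ => mul_self_nonneg _)).mp h0 S (mem_powerset.mpr h1)
  exact hS (mul_self_eq_zero.mp this)

/-- number operator -/
theorem Sup.number {N Q : ℕ} {ψ : Fk} (h : Sup N Q ψ) :
    ∑ p ∈ range (Q + 1), Vale.Agent.P359.cre p (Vale.Agent.P359.ann p ψ) = (N : ℝ) • ψ := by
  ext S
  have e : ∀ p, Vale.Agent.P359.cre p (Vale.Agent.P359.ann p ψ) S = if p ∈ S then ψ S else 0 := by
    intro p
    by_cases hp : p ∈ S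
    · simp only [cre_apply, ann_apply, hp, if_true, notMem_erase, if_false, insert_erase hp,
        sgn_erase p hp, lt_irrefl, one_mul, ← mul_assoc, sgn_mul_self]
    · simp [cre_apply, hp]
  simp only [Fk.sum_apply, e, Fk.smul_apply]
  by_cases hS : ψ S = 0
  · simp [hS]
  · obtain ⟨h1, h2⟩ := h S hS
    rw [← sum_filter, sum_const, filter_mem_eq_inter, inter_eq_right.mpr h1, h2]
    simp

end Vale.Agent.P359
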