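import Vale.Agent.P359.CertData

/-! Kernel checks of the averaged inequalities. -/

namespace Vale.Agent.P359

theorem cert_h3 :
    entCheck 1 64 (t3Ents (2 ^ 70) 41 ++ (cY3.map negEnt ++ cPG.map (pgEnt (2 ^ 70)))) = true := by
  decide +kernel

theorem cert_h4 : entCheck 2 64 (t4Ents (2 ^ 70) 41 ++ cVV.map negEnt) = true := by
  decide +kernel

theorem cert_loc : ((allTerms cY2 cY3 cVV cCM).all fun t => localLin t.1 && localLin t.2) = true := by
  decide +kernel

theorem cert_pg : (cPG.all fun e => decide (0 ≤ e.2)) = true := by decide +kernel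

theorem cert_budget : (2 ^ 70 : ℚ) * (1 / 10) + (cPG.map fun e => (2 ^ 70 : ℚ) * e.2).sum +
    (cY2.map fun e => e.1 * nuQ e.2).sum < 2 ^ 70 * (999 / 1000) := by decide +kernel

theorem cert_perm : cSecs.flatten.Perm (List.range 512) := by decide +kernel

end Vale.Agent.P359
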