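import Vale.Agent.P359.CertY

/-! Kernel check of the aggregated form. -/

namespace Vale.Agent.P359

theorem cert_yhat : yhat (allTerms cY2 cY3 cVV cCM) [] = cYhat := by decide +kernel

theorem cert_keys : (cYhat.all fun e => decide (e.1 < 512)) = true := by decide +kernel

end Vale.Agent.P359
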