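import Vale.Agent.P359.CertY

/-! Kernel check of positivity in the sectors 0 to 35. -/

namespace Vale.Agent.P359

theorem cert_secs0 : ((cSecs.drop 0).take 36).all (secCheck cYhat) = true := by
  decide +kernel

end Vale.Agent.P359
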