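import Vale.Agent.P359.CertY

/-! Kernel check of positivity in the sectors 36 to 53. -/

namespace Vale.Agent.P359

theorem cert_secs1 : ((cSecs.drop 36).take 18).all (secCheck cYhat) = true := by
  decide +kernel

end Vale.Agent.P359
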