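import Vale.Agent.P359.Symb

/-! A verified checker for the finite positivity statement. -/

namespace Vale.Agent.P359

open Finset

def fs (n : ℕ) : Finset ℕ := (range 9).filter fun i => n.testBit i = true

def par : ℕ → ℕ → Bool
  | 0, _ => false
  | p + 1, n => xor (par p n) (n.testBit p)

def sg (b : Bool) : ℤ := cond b (-1) 1

theorem mem_fs {n p : ℕ} : p ∈ fs n ↔ p < 9 ∧ n.testBit p = true := by simp [fs]

theorem fs_congr {n n' : ℕ} (h : ∀ i < 9, n.testBit i = n'.testBit i) : fs n = fs n' := by
  ext i
  simp only [mem_fs]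
  exact and_congr_right fun hi => by rw [h i hi]

theorem par_congr {k n n' : ℕ} (h : ∀ i < k, n.testBit i = n'.testBit i) : par k n = par k n' := by
  induction k with
  | zero => rfl
  | succ k ih => rw [par, par, ih fun i hi => h i (by omega), h k (by omega)]

theorem sg_xor (a b : Bool) : sg (xor a b) = sg a * sg b := by cases a <;> cases b <;> rfl

theorem sgn_fs {p : ℕ} (hp : p ≤ 9) (n : ℕ) : sgn p (fs n) = sg (par p n) := by
  induction p with
  | zero => simp [sgn, par, sg]
  | succ p ih =>
    rw [par, sg_xor, Int.cast_mul, ← ih (by omega)]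
    unfold sgn
    by_cases h : n.testBit p = true
    · have : (fs n).filter (· < p + 1) = insert p ((fs n).filter (· < p)) := by
        ext i
        simp only [mem_filter, mem_insert, mem_fs]
        constructor
        · rintro ⟨h1, h2⟩
          by_cases hi : i = p
          · exact Or.inl hi
          · exact Or.inr ⟨h1, by omega⟩
        · rintro (rfl | ⟨h1, h2⟩)
          · exact ⟨⟨by omega, h⟩, by omega⟩
          · exact ⟨h1, by omega⟩
      rw [this, card_insert_of_notMem (by simp), h, pow_succ]
      simp [sg]
    · have : (fs n).filter (· < p + 1) = (fs n).filter (· < p) := by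
        ext i
        simp only [mem_filter, mem_fs]
        constructor
        · rintro ⟨h1, h2⟩
          refine ⟨h1, ?_⟩
          by_contra h3
          obtain rfl : i = p := by omega
          exact h h1.2
        · exact fun h => ⟨h.1, by omega⟩
      rw [this, Bool.not_eq_true _ |>.mp h]
      simp [sg]

noncomputable def am : ℕ → ℕ → Op
  | 0, _ => 1
  | k + 1, I => am k I * (if I.testBit k = true then ann k else 1)

theorem am_congr {k I I' : ℕ} (h : ∀ i < k, I.testBit i = I'.testBit i) : am k I = am k I' := by
  induction k with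
  | zero => rfl
  | succ k ih => rw [am, am, ih fun i hi => h i (by omega), h k (by omega)]

theorem ann_am_comm (q j I : ℕ) : ann q * am j I = (sg (par j I) : ℝ) • (am j I * ann q) := by
  induction j with
  | zero => simp [am, par, sg]
  | succ j ih =>
    rw [am, par, sg_xor, ← mul_assoc, ih]
    by_cases h : I.testBit j = true
    · simp only [h, if_true, smul_mul_assoc, mul_assoc]
      rw [ann_ann q j]; simp [sg]
    · simp [h, sg]

theorem ann_am {p k : ℕ} (hp : p < k) (I : ℕ) : ann p * am k I =
    if I.testBit p = true then 0 else (sg (par p I) : ℝ) • am k (I ||| 2 ^ p) := by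
  induction k with
  | zero => omega
  | succ k ih =>
    rcases (Nat.lt_succ_iff.mp hp).eq_or_lt with rfl | hp
    · rw [am, ← mul_assoc, ann_am_comm]
      by_cases h : I.testBit p = true
      · simp [h, mul_assoc, ann_sq]
      · have e : am p (I ||| 2 ^ p) = am p I := am_congr fun i hi => by
          simp [Nat.testBit_two_pow_of_ne (show p ≠ i by omega)]
        simp [h, am, e]
    · rw [am, ← mul_assoc, ih hp, am]
      split_ifs with h1 h2 h3 h4 h5 <;>
        simp_all [Nat.testBit_two_pow_of_ne (show p ≠ k by omega)]

def normW : List ℕ → ℤ × ℕ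
  | [] => (1, 0)
  | p :: w => if (normW w).2.testBit p = true then (0, 0)
      else (sg (par p (normW w).2) * (normW w).1, (normW w).2 ||| 2 ^ p)

theorem am_zero (k : ℕ) : am k 0 = 1 := by
  induction k with
  | zero => rfl
  | succ k ih => simp [am, ih]

theorem wordOp_normW (w : List ℕ) (hw : ∀ p ∈ w, p < 9) :
    wordOp ann w = ((normW w).1 : ℝ) • am 9 (normW w).2 := by
  induction w with
  | nil => simp [normW, am_zero]
  | cons p w ih =>
    rw [wordOp_cons, ih fun q hq => hw q (List.mem_cons_of_mem _ hq), mul_smul_comm,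
      ann_am (hw p List.mem_cons_self), normW]
    split_ifs <;> simp [smul_smul, mul_comm]

def tauZ : ℕ → ℕ → ℕ → ℤ
  | 0, _, _ => 1
  | k + 1, I, r => if I.testBit k = true then
      (if r.testBit k = true then 0 else tauZ k I r * sg (par k (r ||| I))) else tauZ k I r

theorem am_apply {k : ℕ} (hk : k ≤ 9) (I r : ℕ) (u : Fk) :
    am k I u (fs r) = tauZ k I r * u (fs (r ||| I % 2 ^ k)) := by
  induction k generalizing u with
  | zero => simp [am, tauZ, Nat.mod_one]
  | succ k ih =>
    rw [am, Module.End.mul_apply, ih (by omega), tauZ]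
    by_cases h : I.testBit k = true
    · simp only [h, if_true, ann_apply, mem_fs, show k < 9 by omega, true_and, Nat.testBit_or,
        Nat.testBit_mod_two_pow, lt_irrefl, decide_false, Bool.false_and, Bool.or_false]
      split_ifs with h1
      · simp
      · rw [sgn_fs (by omega), par_congr (n' := r ||| I) fun i hi => by
          simp [Nat.testBit_mod_two_pow, hi]]
        have : insert k (fs (r ||| I % 2 ^ k)) = fs (r ||| I % 2 ^ (k + 1)) := by
          ext i
          simp only [mem_insert, mem_fs, Nat.testBit_or, Nat.testBit_mod_two_pow]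
          by_cases hi : i = k
          · subst hi; simp [h]; omega
          · have : i < k + 1 ↔ i < k := by omega
            simp [hi, this]
        rw [this]; push_cast; ring
    · simp only [h]
      rw [fs_congr (n := r ||| I % 2 ^ k) (n' := r ||| I % 2 ^ (k + 1))]
      · simp
      · intro i _
        simp only [Nat.testBit_or, Nat.testBit_mod_two_pow]
        by_cases hi : i = k
        · subst hi; simp [h]
        · have : i < k + 1 ↔ i < k := by omega
          simp [this]

theorem am9_apply (I r : ℕ) (u : Fk) : am 9 I u (fs r) = tauZ 9 I r * u (fs (r ||| I)) := by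
  rw [am_apply le_rfl, fs_congr (n' := r ||| I)]
  intro i hi
  simp only [Nat.testBit_or, Nat.testBit_mod_two_pow, hi, decide_true, Bool.true_and]

theorem tauZ_eq_zero {k i I r : ℕ} (hi : i < k) (h1 : I.testBit i = true)
    (h2 : r.testBit i = true) : tauZ k I r = 0 := by
  induction k with
  | zero => omega
  | succ k ih =>
    rw [tauZ]
    rcases (Nat.lt_succ_iff.mp hi).eq_or_lt with rfl | hi
    · simp [h1, h2]
    · simp [ih hi]

def tauQ (I r : ℕ) : ℤ := if (I &&& r) % 512 = 0 then tauZ 9 I r else 0

theorem tauQ_eq (I r : ℕ) : tauQ I r = tauZ 9 I r := by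
  unfold tauQ
  split_ifs with h
  · rfl
  · obtain ⟨i, hi⟩ := Nat.exists_testBit_of_ne_zero h
    rw [show 512 = 2 ^ 9 by norm_num, Nat.testBit_mod_two_pow, Nat.testBit_and] at hi
    simp only [Bool.and_eq_true, decide_eq_true_eq] at hi
    exact (tauZ_eq_zero hi.1 hi.2.1 hi.2.2).symm

/-! sparse vectors -/

abbrev SV := List (ℕ × ℤ)

noncomputable def semR (v : SV) (F : ℕ → ℝ) : ℝ := (v.map fun e => (e.2 : ℝ) * F e.1).sum

@[simp] theorem semR_nil (F : ℕ → ℝ) : semR [] F = 0 := rfl
@[simp] theorem semR_cons (e : ℕ × ℤ) (v : SV) (F : ℕ → ℝ) :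
    semR (e :: v) F = (e.2 : ℝ) * F e.1 + semR v F := by simp [semR]

def addTo (k : ℕ) (c : ℤ) : SV → SV
  | [] => [(k, c)]
  | e :: l => if e.1 = k then (k, e.2 + c) :: l else e :: addTo k c l

theorem semR_addTo (k : ℕ) (c : ℤ) (v : SV) (F : ℕ → ℝ) :
    semR (addTo k c v) F = (c : ℝ) * F k + semR v F := by
  induction v with
  | nil => simp [addTo]
  | cons e l ih =>
    rw [addTo]
    split_ifs with h
    · simp [h]; ring
    · simp [ih]; ring

def addNZ (k : ℕ) (s c : ℤ) (v : SV) : SV :=
  if s = 0 then v else if c = 0 then v else addTo k (c * s) v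

theorem semR_addNZ (k : ℕ) (s c : ℤ) (v : SV) (F : ℕ → ℝ) :
    semR (addNZ k s c v) F = (c : ℝ) * s * F k + semR v F := by
  unfold addNZ
  split_ifs with h h'
  · simp [h]
  · simp [h']
  · simp [semR_addTo]

def chooseF (a n : ℕ) : ℕ := a.descFactorial n / n.factorial

def piB (c : ℤ) (w : List ℕ) (a : ℕ) : ℕ → SV → SV
  | 0, acc => acc
  | n + 1, acc => addNZ (normW (w ++ [a + 1 - n, n])).2 (normW (w ++ [a + 1 - n, n])).1
      (c * chooseF a n) (piB c w a n acc)

def piLin : SLin → SV
  | [] => []
  | t :: x => piB t.1 t.2.1 t.2.2 (t.2.2 + 1) (piLin x)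

theorem wordOp_append (f : ℕ → Op) (w w' : List ℕ) :
    wordOp f (w ++ w') = wordOp f w * wordOp f w' := by simp [wordOp]

theorem semR_piB (c : ℤ) (w : List ℕ) (a : ℕ) (hw : ∀ p ∈ w, p < 9) (ha : a < 8) (u : Fk)
    (S : Finset ℕ) {n : ℕ} (hn : n ≤ a + 1) (acc : SV) :
    semR (piB c w a n acc) (fun I => am 9 I u S) = (c : ℝ) * (wordOp ann w *
      ∑ p ∈ range n, (a.choose p : ℝ) • (ann (a + 1 - p) * ann p)) u S +
        semR acc (fun I => am 9 I u S) := by
  induction n with
  | zero => simp [piB]
  | succ n ih =>
    have h := wordOp_normW (w ++ [a + 1 - n, n]) (by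
      intro p hp
      simp only [List.mem_append, List.mem_cons, List.not_mem_nil, or_false] at hp
      rcases hp with hp | rfl | rfl
      · exact hw p hp
      · omega
      · omega)
    have h2 := congrArg (fun X : Op => X u S) h
    simp only [wordOp_append, wordOp_cons, wordOp_nil, mul_one, LinearMap.smul_apply,
      Fk.smul_apply] at h2
    rw [piB, semR_addNZ, ih (by omega), sum_range_succ, mul_add, mul_smul_comm, chooseF,
      ← Nat.choose_eq_descFactorial_div_factorial]
    simp only [LinearMap.add_apply, LinearMap.smul_apply, Fk.add_apply, Fk.smul_apply, h2]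
    push_cast; ring

theorem semR_piLin (x : SLin) (hx : localLin x = true) (u : Fk) (S : Finset ℕ) :
    semR (piLin x) (fun I => am 9 I u S) = slin ann x u S := by
  induction x with
  | nil => simp [piLin]
  | cons t x ih =>
    simp only [localLin, List.all_cons, Bool.and_eq_true, List.all_eq_true,
      decide_eq_true_eq] at hx ih
    rw [piLin, semR_piB _ _ _ hx.1.1 hx.1.2 u S le_rfl, ih hx.2, slin_cons]
    simp [bbOf]

abbrev Rows := List (ℕ × SV)

noncomputable def semRows (Y : Rows) (F : ℕ → ℕ → ℝ) : ℝ := (Y.map fun e => semR e.2 (F e.1)).sum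

@[simp] theorem semRows_nil (F : ℕ → ℕ → ℝ) : semRows [] F = 0 := rfl
@[simp] theorem semRows_cons (e : ℕ × SV) (Y : Rows) (F : ℕ → ℕ → ℝ) :
    semRows (e :: Y) F = semR e.2 (F e.1) + semRows Y F := by simp [semRows]

def addVec (c : ℤ) : SV → SV → SV
  | [], acc => acc
  | e :: v, acc => addTo e.1 (c * e.2) (addVec c v acc)

theorem semR_addVec (c : ℤ) (v acc : SV) (F : ℕ → ℝ) :
    semR (addVec c v acc) F = c * semR v F + semR acc F := by
  induction v with
  | nil => simp [addVec]
  | cons e v ih => rw [addVec, semR_addTo, ih, semR_cons]; push_cast; ring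

def addRow (I : ℕ) (c : ℤ) (v : SV) : Rows → Rows
  | [] => [(I, addVec c v [])]
  | e :: Y => if e.1 = I then (I, addVec c v e.2) :: Y else e :: addRow I c v Y

theorem semRows_addRow (I : ℕ) (c : ℤ) (v : SV) (Y : Rows) (F : ℕ → ℕ → ℝ) :
    semRows (addRow I c v Y) F = c * semR v (F I) + semRows Y F := by
  induction Y with
  | nil => simp [addRow, semR_addVec]
  | cons e Y ih =>
    rw [addRow]
    split_ifs with h
    · simp [h, semR_addVec]; ring
    · simp [ih]; ring

def addOuter (v : SV) : SV → Rows → Rows
  | [], Y => Y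
  | e :: x, Y => addRow e.1 e.2 v (addOuter v x Y)

theorem semRows_addOuter (v x : SV) (Y : Rows) (A B : ℕ → ℝ) :
    semRows (addOuter v x Y) (fun I I' => A I * B I') =
      semR x A * semR v B + semRows Y (fun I I' => A I * B I') := by
  have h : ∀ (c : ℝ) (v : SV), semR v (fun I' => c * B I') = c * semR v B := by
    intro c v
    induction v with
    | nil => simp
    | cons e v ih => simp [ih]; ring
  induction x with
  | nil => simp [addOuter]
  | cons e x ih => rw [addOuter, semRows_addRow, ih, h, semR_cons]; ring

def yhat : List (SLin × SLin) → Rows → Rows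
  | [], Y => Y
  | t :: L, Y => addOuter (piLin t.2) (piLin t.1) (yhat L Y)

theorem yhat_append (L L' : List (SLin × SLin)) (Y : Rows) :
    yhat (L ++ L') Y = yhat L (yhat L' Y) := by
  induction L with
  | nil => rfl
  | cons t L ih => simp [yhat, ih]

theorem semRows_yhat (L : List (SLin × SLin))
    (hl : ∀ t ∈ L, localLin t.1 = true ∧ localLin t.2 = true) (u : Fk) (S : Finset ℕ) :
    semRows (yhat L []) (fun I I' => am 9 I u S * am 9 I' u S) =
      (L.map fun t => slin ann t.1 u S * slin ann t.2 u S).sum := by
  induction L with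
  | nil => simp [yhat]
  | cons t L ih =>
    rw [yhat, semRows_addOuter, ih fun t ht => hl t (List.mem_cons_of_mem _ ht),
      semR_piLin _ (hl t List.mem_cons_self).1, semR_piLin _ (hl t List.mem_cons_self).2]
    simp

/-! positive semidefiniteness of integer matrices -/

noncomputable def dotL : List ℤ → List ℝ → ℝ
  | a :: l, x :: v => a * x + dotL l v
  | _, _ => 0

noncomputable def bil : List (List ℤ) → List ℝ → List ℝ → ℝ
  | r :: M, x :: v, w => x * dotL r w + bil M v w
  | _, _, _ => 0

theorem dotL_cons_right (r : List ℤ) (x : ℝ) (w : List ℝ) :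
    dotL r (x :: w) = r.headD 0 * x + dotL r.tail w := by
  cases r <;> simp [dotL]

theorem bil_cons_right (M : List (List ℤ)) (v : List ℝ) (x : ℝ) (w : List ℝ) :
    bil M v (x :: w) = x * dotL (M.map (·.headD 0)) v + bil (M.map List.tail) v w := by
  induction M generalizing v with
  | nil => simp [bil, dotL]
  | cons r M ih =>
    cases v with
    | nil => simp [bil, dotL]
    | cons y v => simp only [bil, List.map_cons, ih]; rw [dotL_cons_right r, dotL]; ring

theorem dotL_zip (c d : ℤ) (r r' : List ℤ) (h : r.length = r'.length) (v : List ℝ) :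
    dotL (List.zipWith (fun m b => c * m + d * b) r r') v = c * dotL r v + d * dotL r' v := by
  induction r generalizing r' v with
  | nil => cases r' <;> simp_all [dotL]
  | cons a r ih =>
    cases r' with
    | nil => simp at h
    | cons a' r' =>
      cases v with
      | nil => simp [dotL]
      | cons x v =>
        simp only [List.zipWith_cons_cons, dotL, ih r' (by simpa using h)]
        push_cast; ring

theorem dotL_zero (b : List ℤ) (h : ∀ a ∈ b, a = 0) (v : List ℝ) : dotL b v = 0 := by
  induction b generalizing v with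
  | nil => simp [dotL]
  | cons a b ih =>
    cases v with
    | nil => simp [dotL]
    | cons x v => simp [dotL, h a List.mem_cons_self, ih fun a ha => h a (List.mem_cons_of_mem _ ha)]

theorem bil_schur (c : ℤ) (b : List ℤ) (M : List (List ℤ)) (b' : List ℤ)
    (h : M.length = b'.length) (hM : ∀ r ∈ M, r.length = b.length + 1) (v w : List ℝ) :
    bil (List.zipWith (fun r bi => List.zipWith (fun m bj => c * m + (-bi) * bj) r.tail b) M b')
      v w = c * bil (M.map List.tail) v w - dotL b' v * dotL b w := by
  induction M generalizing b' v with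
  | nil => cases b' <;> simp_all [bil, dotL]
  | cons r M ih =>
    cases b' with
    | nil => simp at h
    | cons a' b' =>
      cases v with
      | nil => simp [bil, dotL]
      | cons x v =>
        have hr := hM r List.mem_cons_self
        simp only [List.zipWith_cons_cons, List.map_cons, bil, dotL,
          ih b' (by simpa using h) fun r hr => hM r (List.mem_cons_of_mem _ hr)]
        rw [dotL_zip _ _ _ _ (by simp [hr])]
        push_cast; ring

def psdB (row : List ℤ) (rest : List (List ℤ)) : List ℤ :=
  List.zipWith (fun m b => 1 * m + 1 * b) row (rest.map (·.headD 0))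

def psd : ℕ → List (List ℤ) → Bool
  | 0, _ => true
  | _ + 1, [] => false
  | _ + 1, [] :: _ => false
  | n + 1, (a :: row) :: rest =>
    decide (row.length = n) && decide (rest.length = n) &&
      rest.all (fun r => decide (r.length = n + 1)) &&
      (if a = 0 then (psdB row rest).all (fun b => decide (b = 0)) && psd n (rest.map List.tail)
      else decide (0 < a) && psd n (List.zipWith (fun r bi =>
        List.zipWith (fun m bj => (4 * a) * m + (-bi) * bj) r.tail (psdB row rest))
          rest (psdB row rest)))

theorem psd_sound (n : ℕ) (M : List (List ℤ)) (h : psd n M = true) (v : List ℝ)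
    (hv : v.length = n) : 0 ≤ bil M v v := by
  induction n generalizing M v with
  | zero =>
    obtain rfl : v = [] := List.length_eq_zero_iff.mp hv
    cases M <;> simp [bil]
  | succ n ih =>
    obtain ⟨x, v, rfl⟩ := List.exists_cons_of_length_eq_add_one hv
    have hv' : v.length = n := by simpa using hv
    match M, h with
    | (a :: row) :: rest, h =>
      simp only [psd, Bool.and_eq_true, decide_eq_true_eq, List.all_eq_true] at h
      obtain ⟨⟨⟨h1, h2⟩, h3⟩, h4⟩ := h
      have hb : dotL (psdB row rest) v = dotL row v + dotL (rest.map (·.headD 0)) v := by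
        rw [psdB, dotL_zip _ _ _ _ (by simp [h1, h2])]; simp
      have hlen : (psdB row rest).length = n := by simp [psdB, h1, h2]
      have e : bil ((a :: row) :: rest) (x :: v) (x :: v) =
          a * x ^ 2 + x * dotL (psdB row rest) v + bil (rest.map List.tail) v v := by
        rw [bil, bil_cons_right, dotL, hb]; ring
      rw [e]
      split_ifs at h4 with ha
      · simp only [Bool.and_eq_true, List.all_eq_true, decide_eq_true_eq] at h4
        rw [dotL_zero _ h4.1, ha]
        simpa using ih _ h4.2 v hv'
      · simp only [Bool.and_eq_true, decide_eq_true_eq] at h4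
        have h5 := ih _ h4.2 v hv'
        rw [bil_schur _ _ _ _ (by rw [h2, hlen]) (by simpa [hlen] using h3)] at h5
        have ha' : (0 : ℝ) < a := by exact_mod_cast h4.1
        push_cast at h5
        have h6 : 0 ≤ 4 * (a : ℝ) * (a * x ^ 2 + x * dotL (psdB row rest) v +
            bil (rest.map List.tail) v v) := by
          nlinarith [sq_nonneg (2 * a * x + dotL (psdB row rest) v)]
        exact nonneg_of_mul_nonneg_right h6 (by positivity)

/-! sectors -/

def gc : ℕ → ℕ → ℕ
  | 0, _ => 1
  | k + 1, r => if r.testBit k = true then gc k r else k.factorial * gc k r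

theorem gc_mul (k r : ℕ) : (gc k r : ℝ) *
    ∏ p ∈ (range k).filter (fun i => r.testBit i = true), (p.factorial : ℝ) =
      ∏ p ∈ range k, (p.factorial : ℝ) := by
  induction k with
  | zero => simp [gc]
  | succ k ih =>
    rw [prod_range_succ, ← ih, gc, range_add_one, filter_insert]
    split_ifs with h
    · rw [prod_insert (by simp)]; ring
    · push_cast; ring

def rowIn (r : ℕ) (c : ℤ) : SV → SV → SV
  | [], acc => acc
  | f :: v, acc => addNZ (r ||| f.1) (tauQ f.1 r) (c * f.2) (rowIn r c v acc)

theorem semR_rowIn (r : ℕ) (c : ℤ) (v acc : SV) (U : ℕ → ℝ) :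
    semR (rowIn r c v acc) U =
      c * semR v (fun I' => tauZ 9 I' r * U (r ||| I')) + semR acc U := by
  induction v with
  | nil => simp [rowIn]
  | cons f v ih => rw [rowIn, semR_addNZ, ih, semR_cons, tauQ_eq]; push_cast; ring

def rowOf (s : ℕ) : Rows → SV → SV
  | [], acc => acc
  | e :: Y, acc => if s &&& e.1 = e.1 then
      rowIn (s ^^^ e.1) (tauZ 9 e.1 (s ^^^ e.1) * gc 9 (s ^^^ e.1)) e.2 (rowOf s Y acc)
      else rowOf s Y acc

noncomputable def contrib (U : ℕ → ℝ) (e : ℕ × SV) (r : ℕ) : ℝ :=
  (tauZ 9 e.1 r : ℝ) * gc 9 r * U (r ||| e.1) * semR e.2 (fun I' => tauZ 9 I' r * U (r ||| I'))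

theorem semR_rowOf (s : ℕ) (Y : Rows) (hY : ∀ e ∈ Y, e.1 < 512) (acc : SV) (U : ℕ → ℝ) :
    U s * semR (rowOf s Y acc) U =
      (Y.map fun e => contrib U e (s ^^^ e.1)).sum + U s * semR acc U := by
  induction Y with
  | nil => simp [rowOf]
  | cons e Y ih =>
    have ih := ih fun e he => hY e (List.mem_cons_of_mem _ he)
    rw [rowOf, List.map_cons, List.sum_cons]
    split_ifs with h
    · have hs : (s ^^^ e.1) ||| e.1 = s := by
        apply Nat.eq_of_testBit_eq
        intro i
        have := congrArg (fun n => n.testBit i) h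
        simp only [Nat.testBit_and] at this
        simp only [Nat.testBit_or, Nat.testBit_xor]
        revert this
        cases s.testBit i <;> cases e.1.testBit i <;> simp
      rw [semR_rowIn, mul_add, ih, contrib, hs]
      push_cast; ring
    · have : tauZ 9 e.1 (s ^^^ e.1) = 0 := by
        by_contra h0
        apply h
        apply Nat.eq_of_testBit_eq
        intro i
        simp only [Nat.testBit_and]
        by_cases h1 : e.1.testBit i = true
        · have hi : i < 9 := by
            by_contra hi
            have h2 : e.1 < 2 ^ i := (hY e List.mem_cons_self).trans_le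
              (Nat.pow_le_pow_right (n := 2) (by norm_num) (show 9 ≤ i by omega))
            rw [Nat.testBit_lt_two_pow h2] at h1
            exact Bool.false_ne_true h1
          by_cases h2 : s.testBit i = true
          · simp [h1, h2]
          · exact absurd (tauZ_eq_zero hi h1 (by simp [Nat.testBit_xor, h1, h2])) h0
        · simp [h1]
      rw [ih, contrib, this]; simp

def secRows (Y : Rows) (σ : List ℕ) : List SV := σ.map fun s => rowOf s Y (σ.map fun t => (t, 0))

def secCheck (Y : Rows) (σ : List ℕ) : Bool :=
  (secRows Y σ).all (fun r => decide (r.map Prod.fst = σ)) &&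
    psd σ.length ((secRows Y σ).map fun r => r.map Prod.snd)

theorem semR_eq_dotL (v : SV) (U : ℕ → ℝ) :
    semR v U = dotL (v.map Prod.snd) ((v.map Prod.fst).map U) := by
  induction v with
  | nil => simp [dotL]
  | cons e v ih => simp [dotL, ih]

theorem secCheck_sound (Y : Rows) (hY : ∀ e ∈ Y, e.1 < 512) (σ : List ℕ)
    (h : secCheck Y σ = true) (U : ℕ → ℝ) :
    0 ≤ (σ.map fun s => (Y.map fun e => contrib U e (s ^^^ e.1)).sum).sum := by
  simp only [secCheck, Bool.and_eq_true, List.all_eq_true, decide_eq_true_eq] at h
  have h1 := psd_sound _ _ h.2 (σ.map U) (by simp)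
  refine h1.trans_eq ?_
  have h0 : semR (σ.map fun t => (t, 0)) U = 0 := by
    generalize σ = l
    induction l with
    | nil => simp
    | cons a l ih => simp [ih]
  have h2 : ∀ l : List ℕ, (∀ s ∈ l, (rowOf s Y (σ.map fun t => (t, 0))).map Prod.fst = σ) →
      bil ((l.map fun s => rowOf s Y (σ.map fun t => (t, 0))).map fun r => r.map Prod.snd)
        (l.map U) (σ.map U) = (l.map fun s => (Y.map fun e => contrib U e (s ^^^ e.1)).sum).sum := by
    intro l hl
    induction l with
    | nil => simp [bil]
    | cons s l ih =>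
      have h3 := semR_rowOf s Y hY (σ.map fun t => (t, 0)) U
      rw [h0, semR_eq_dotL, hl s List.mem_cons_self] at h3
      simp only [List.map_cons, bil, List.sum_cons, h3,
        ih fun s hs => hl s (List.mem_cons_of_mem _ hs)]
      ring
  exact h2 σ fun s hs => h.1 _ (List.mem_map_of_mem hs)

theorem sum_powerset_fs (F : Finset ℕ → ℝ) :
    ∑ S ∈ (range 9).powerset, F S = ∑ n ∈ range 512, F (fs n) := by
  have h : ∀ k ≤ 9, ∀ F : Finset ℕ → ℝ,
      ∑ S ∈ (range k).powerset, F S = ∑ n ∈ range (2 ^ k), F (fs n) := by
    intro k hk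
    induction k with
    | zero => intro F; simp [fs]
    | succ k ih =>
      intro F
      rw [range_add_one, sum_powerset_insert (by simp), ih (by omega), ih (by omega), pow_succ,
        mul_two, sum_range_add]
      congr 1
      refine sum_congr rfl fun n hn => ?_
      have hn := mem_range.mp hn
      congr 1
      ext i
      simp only [mem_insert, mem_fs]
      rcases lt_trichotomy i k with hi | rfl | hi
      · rw [Nat.testBit_two_pow_add_gt hi]; simp [hi.ne]
      · rw [Nat.testBit_two_pow_add_eq, Nat.testBit_lt_two_pow hn]; simp; omega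
      · have h1 : 2 ^ k + n < 2 ^ i := by
          have : 2 ^ (k + 1) ≤ 2 ^ i := Nat.pow_le_pow_right (by norm_num) hi
          omega
        rw [Nat.testBit_lt_two_pow h1, Nat.testBit_lt_two_pow (x := n) (by omega)]
        simp [hi.ne']
  exact h 9 le_rfl F

theorem sum_range_secs {n : ℕ} {secs : List (List ℕ)} (hp : secs.flatten.Perm (List.range n))
    (F : ℕ → ℝ) : ∑ s ∈ range n, F s = (secs.map fun σ => (σ.map F).sum).sum := by
  rw [← List.toFinset_range, List.sum_toFinset _ List.nodup_range, ← (hp.map F).sum_eq,
    List.map_flatten, List.sum_flatten, List.map_map]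
  rfl

theorem locPos_of_check (L : List (SLin × SLin))
    (hl : ∀ t ∈ L, localLin t.1 = true ∧ localLin t.2 = true) (Y : Rows) (hY : yhat L [] = Y)
    (hI : ∀ e ∈ Y, e.1 < 512) (secs : List (List ℕ)) (hp : secs.flatten.Perm (List.range 512))
    (hs : ∀ σ ∈ secs, secCheck Y σ = true) : LocPos L := by
  intro u
  set U : ℕ → ℝ := fun n => u (fs n) with hU
  have hG : (0 : ℝ) < ∏ p ∈ range 9, (p.factorial : ℝ) := prod_pos fun p _ => by positivity
  rw [sum_powerset_fs]
  have e1 : ∀ n, (gfac (fs n))⁻¹ * (L.map fun t => slin ann t.1 u (fs n) * slin ann t.2 u (fs n)).sum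
      = (∏ p ∈ range 9, (p.factorial : ℝ))⁻¹ * (Y.map fun e => contrib U e n).sum := by
    intro n
    rw [← semRows_yhat L hl, hY, ← gc_mul 9 n]
    have hg : (gc 9 n : ℝ) ≠ 0 := fun h0 => by
      have := gc_mul 9 n
      rw [h0, zero_mul] at this
      exact hG.ne this
    have e2 : (Y.map fun e => contrib U e n).sum =
        gc 9 n * semRows Y (fun I I' => am 9 I u (fs n) * am 9 I' u (fs n)) := by
      rw [semRows, ← List.sum_map_mul_left]
      congr 1
      refine List.map_congr_left fun e _ => ?_
      simp only [contrib, am9_apply, semR, ← List.sum_map_mul_left]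
      congr 1
      exact List.map_congr_left fun f _ => by simp only [hU]; ring
    rw [e2, gfac, fs]
    field_simp
  simp only [e1, ← mul_sum]
  refine mul_nonneg (inv_nonneg.mpr hG.le) ?_
  have e3 : ∑ n ∈ range 512, (Y.map fun e => contrib U e n).sum =
      ∑ s ∈ range 512, (Y.map fun e => contrib U e (s ^^^ e.1)).sum := by
    rw [← list_sum_comm, ← list_sum_comm]
    refine congrArg List.sum (List.map_congr_left fun e he => ?_)
    have hx : ∀ n ∈ range 512, n ^^^ e.1 ∈ range 512 := fun n hn =>
      mem_range.mpr (Nat.xor_lt_two_pow (n := 9) (mem_range.mp hn) (hI e he))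
    exact sum_nbij' (· ^^^ e.1) (· ^^^ e.1) hx hx (fun n _ => by simp) (fun n _ => by simp)
      fun n _ => by simp
  rw [e3, sum_range_secs hp]
  refine List.sum_nonneg fun y hy => ?_
  obtain ⟨σ, hσ, rfl⟩ := List.mem_map.mp hy
  exact secCheck_sound Y hI σ (hs σ hσ) U

end Vale.Agent.P359
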