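import Vale.Agent.P359.Two
import Vale.Agent.P359.Check

/-! Assembly of the core inequality from a certificate. -/

namespace Vale.Agent.P359

open Finset Filter Asymptotics Topology

abbrev ZEnt := ℤ × ℕ × ℕ × ℕ

def y2Term (e : ℤ × ℕ) : SLin × SLin := ([(e.1, [], e.2)], [(1, [], e.2)])

def y3Term (e : ZEnt) : SLin × SLin :=
  ([(e.1, [e.2.1 - e.2.2.1], e.2.2.1)], [(1, [e.2.1 - e.2.2.2], e.2.2.2)])

def vvLin (c : ℤ) (b a : ℕ) : ℕ → SLin
  | 0 => []
  | p + 1 => (c * chooseF b p, [b + 1 - p, p], a) :: vvLin c b a p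

def vvTerm (e : ZEnt) : SLin × SLin :=
  (vvLin e.1 (e.2.1 - e.2.2.1) e.2.2.1 (e.2.1 - e.2.2.1 + 1),
    vvLin 1 (e.2.1 - e.2.2.2) e.2.2.2 (e.2.1 - e.2.2.2 + 1))

def negEnt (e : ZEnt) : Ent := (-(e.1 : ℚ), e.2)

def nuQ (b : ℕ) : ℚ := b.factorial * 2 ^ b

def t3Ents (K : ℚ) : ℕ → List Ent
  | 0 => []
  | b + 1 => (-K / nuQ b, b + 1, b, 0) :: (K * (b - 1) / nuQ b, b, b, 0) :: t3Ents K b

def t4Ents (K : ℚ) : ℕ → List Ent
  | 0 => []
  | b + 1 => (K / nuQ b, b, b, b) :: t4Ents K b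

def pgEnt (K : ℚ) (e : ℕ × ℚ) : Ent := (K * e.2 / e.1.factorial, e.1, 0, 0)

theorem slin_vvLin (Q : ℕ) (c : ℤ) (b a n : ℕ) : slin (ee Q) (vvLin c b a n) = (c : ℝ) •
    ((∑ p ∈ range n, (b.choose p : ℝ) • (ee Q (b + 1 - p) * ee Q p)) * bb Q a) := by
  induction n with
  | zero => simp [vvLin]
  | succ n ih =>
    rw [vvLin, slin_cons, ih, sum_range_succ, add_mul, smul_add, add_comm, chooseF,
      ← Nat.choose_eq_descFactorial_div_factorial]
    simp [bbOf_ee, smul_smul]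

theorem y3_val (s : St) (L : List ZEnt) : ((L.map y3Term).map (termVal s)).sum =
    - ((L.map negEnt).map (entVal (fun p Q => ee Q p) s)).sum := by
  induction L with
  | nil => simp
  | cons e L ih =>
    simp only [List.map_cons, List.sum_cons, ih]
    simp [termVal, y3Term, entVal, negEnt, bbOf_ee, s.G_smul_left, add_comm]

theorem vv_val (s : St) (L : List ZEnt) : ((L.map vvTerm).map (termVal s)).sum =
    - ((L.map negEnt).map (entVal (fun p Q => bb Q p) s)).sum := by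
  induction L with
  | nil => simp
  | cons e L ih =>
    simp only [List.map_cons, List.sum_cons, ih]
    have e1 : ∀ b, (∑ p ∈ range (b + 1), (b.choose p : ℝ) • (ee s.Q (b + 1 - p) * ee s.Q p)) =
        bb s.Q b := fun _ => rfl
    simp only [termVal, vvTerm, slin_vvLin, entVal, negEnt, s.G_smul_left, Int.cast_one, one_smul,
      e1]
    push_cast; ring

theorem tendsto_nu (b : ℕ) : Tendsto (fun Q => nu Q b) atTop (𝓝 (nuQ b)) := by
  have h := (tendsto_desc 2 2 b).const_mul (b.factorial : ℝ)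
  simp only [nuQ]
  push_cast at h ⊢
  exact h.congr fun Q => by rw [nu, mul_div_assoc]

theorem nuQ_pos (b : ℕ) : (0 : ℝ) < nuQ b := by
  simp only [nuQ]; push_cast; positivity

theorem tendsto_nu_inv (b : ℕ) :
    Tendsto (fun Q => (nu Q b)⁻¹ - ((nuQ b : ℚ) : ℝ)⁻¹) atTop (𝓝 0) := by
  simpa using ((tendsto_nu b).inv₀ (nuQ_pos b).ne').sub_const ((nuQ b : ℚ) : ℝ)⁻¹

theorem lo_t3 (K : ℚ) (n : ℕ) : Lo fun s => (K : ℝ) * ∑ b ∈ range n, s.t3 b -
    ((t3Ents K n).map (entVal (fun p Q => ee Q p) s)).sum := by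
  induction n with
  | zero => simpa [t3Ents] using Lo.zero
  | succ b ih =>
    have h1 := lo_of_null (tendsto_nu_inv b)
      (((Mu.ee 1).bd (Bd.bb b)).G ((Mu.ee (b + 1)).bd (Bd.bb 0)))
    have h2 := lo_of_null (tendsto_nu_inv b)
      (((Mu.ee 0).bd (Bd.bb b)).G ((Mu.ee b).bd (Bd.bb 0)))
    refine ((ih.add (h1.const_mul (-K))).add (h2.const_mul (K * (b - 1)))).congr fun s _ => ?_
    simp only [t3Ents, sum_range_succ, List.map_cons, List.sum_cons, entVal, St.t3,
      Nat.add_sub_cancel_left, Nat.sub_zero, Nat.sub_self]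
    push_cast; ring

theorem lo_t4 (K : ℚ) (n : ℕ) : Lo fun s => (K : ℝ) * ∑ b ∈ range n, s.t4 b -
    ((t4Ents K n).map (entVal (fun p Q => bb Q p) s)).sum := by
  induction n with
  | zero => simpa [t4Ents] using Lo.zero
  | succ b ih =>
    have h1 := lo_of_null (tendsto_nu_inv b)
      (((Mu.bb 0).bd (Bd.bb b)).G ((Mu.bb 0).bd (Bd.bb b)))
    refine (ih.add (h1.const_mul K)).congr fun s _ => ?_
    simp only [t4Ents, sum_range_succ, List.map_cons, List.sum_cons, entVal, St.t4, Nat.sub_self]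
    push_cast; ring

theorem pg_le (K : ℚ) (hK : 0 ≤ K) (L : List (ℕ × ℚ)) (hL : ∀ e ∈ L, 0 ≤ e.2) (s : St) :
    ((L.map (pgEnt K)).map (entVal (fun p Q => ee Q p) s)).sum ≤
      (((L.map fun e => K * e.2).sum : ℚ) : ℝ) * s.x := by
  induction L with
  | nil => simp
  | cons e L ih =>
    have ih := ih fun e he => hL e (List.mem_cons_of_mem _ he)
    have h1 := (s.G_ee_le e.1 (bb s.Q 0)).trans
      (mul_le_mul_of_nonneg_right (wt_sq_le s.Q e.1) s.x_nonneg)
    have h2 : (0 : ℝ) ≤ (K : ℝ) * e.2 / e.1.factorial := by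
      have : (0 : ℝ) ≤ e.2 := by exact_mod_cast hL e List.mem_cons_self
      have : (0 : ℝ) ≤ K := by exact_mod_cast hK
      positivity
    have h3 := mul_le_mul_of_nonneg_left h1 h2
    have h4 : (K : ℝ) * e.2 / e.1.factorial * (e.1.factorial * s.G (bb s.Q 0) (bb s.Q 0)) =
        K * e.2 * s.x := by
      rw [St.x]
      have : (e.1.factorial : ℝ) ≠ 0 := by positivity
      field_simp
    simp only [List.map_cons, List.sum_cons, entVal, pgEnt, Nat.sub_zero] at ih ⊢
    push_cast at ih ⊢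
    linarith

theorem lo_y2 (L : List (ℤ × ℕ)) : Lo fun s =>
    (((L.map fun e => e.1 * nuQ e.2).sum : ℚ) : ℝ) * s.x - ((L.map y2Term).map (termVal s)).sum := by
  induction L with
  | nil => simpa using Lo.zero
  | cons e L ih =>
    have h0 : Tendsto (fun Q => (nuQ e.2 : ℝ) - nu Q e.2) atTop (𝓝 0) := by
      simpa using (tendsto_nu e.2).const_sub (nuQ e.2 : ℝ)
    have h1 := lo_of_null h0 (isBigO_refl St.x lS)
    refine (ih.add (h1.const_mul e.1)).congr fun s hs => ?_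
    simp only [List.map_cons, List.sum_cons]
    simp only [termVal, y2Term, slin_cons, slin_nil, wordOp_nil, one_mul, add_zero, bbOf_ee,
      s.G_smul_left, Int.cast_one, one_smul, s.G_bb hs]
    push_cast; ring

def allTerms (Y2 : List (ℤ × ℕ)) (Y3 VV : List ZEnt) (CM : List (SLin × SLin)) :
    List (SLin × SLin) :=
  Y2.map y2Term ++ (Y3.map y3Term ++ (VV.map vvTerm ++ commTerms CM))

theorem core_of_cert (K δ : ℚ) (hK : 0 < K) (Y2 : List (ℤ × ℕ)) (Y3 VV : List ZEnt)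
    (CM : List (SLin × SLin)) (PG : List (ℕ × ℚ)) (hPG : ∀ e ∈ PG, 0 ≤ e.2) (Dm : ℕ)
    (h3 : entCheck 1 Dm (t3Ents K 41 ++ (Y3.map negEnt ++ PG.map (pgEnt K))) = true)
    (h4 : entCheck 2 Dm (t4Ents K 41 ++ VV.map negEnt) = true)
    (hl : ∀ t ∈ allTerms Y2 Y3 VV CM, localLin t.1 = true ∧ localLin t.2 = true)
    (hL : LocPos (allTerms Y2 Y3 VV CM))
    (hb : K * δ + (PG.map fun e => K * e.2).sum + (Y2.map fun e => e.1 * nuQ e.2).sum <
      K * (999 / 1000)) :
    ∀ᶠ Q in atTop, CoreGap δ Q := by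
  have hK' : (0 : ℝ) < K := by exact_mod_cast hK
  have a1 : AN fun s => (K : ℝ) * (s.E * s.x - ((999 / 1000) * s.x + ∑ b ∈ range 41, s.t3 b +
      ∑ b ∈ range 41, s.t4 b)) := AN.of_nonneg ((ev_ge 21).mono fun s hs =>
        mul_nonneg hK'.le (sub_nonneg.mpr (s.E_lower hs)))
  have a2 := (lo_t3 K 41).an
  have a3 := (lo_t4 K 41).an
  have a4 := Osc.form (lam := 1) (by simpa using osc_ee) _ h3
  have a5 := Osc.form (lam := 2) (by simpa using osc_bb) _ h4
  have a6 := an_local hL hl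
  have a7 := ((lo_comm CM).const_mul (-1)).an
  have a8 := AN.of_nonneg (Eventually.of_forall fun s => sub_nonneg.mpr (pg_le K hK.le PG hPG s))
  have a9 := (lo_y2 Y2).an
  have a := ((((((((a1.add a2).add a3).add a4).add a5).add a6).add a7).add a8).add a9)
  have hb' : (0 : ℝ) < ((K * (999 / 1000) - (K * δ + (PG.map fun e => K * e.2).sum +
      (Y2.map fun e => e.1 * nuQ e.2).sum) : ℚ) : ℝ) := by exact_mod_cast sub_pos.mpr hb
  have f := AN.final hb' (f := fun s => (K : ℝ) * (s.E * s.x - δ * s.x)) (a.congr fun s _ => by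
    simp only [allTerms, List.map_append, List.sum_append, y3_val, vv_val]
    generalize (PG.map fun e => K * e.2).sum = A
    generalize (Y2.map fun e => e.1 * nuQ e.2).sum = B
    push_cast; ring)
  refine (eventually_comap.mp f).mono fun Q hQ s hs => ?_
  exact sub_nonneg.mp (nonneg_of_mul_nonneg_right (hQ s hs) hK')

end Vale.Agent.P359
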