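import Vale.Agent.P359.CertA
import Vale.Agent.P359.CertB
import Vale.Agent.P359.CertC0
import Vale.Agent.P359.CertC1
import Vale.Agent.P359.CertC2
import Vale.Agent.P359.CertC3
import Vale.Agent.P359.CertC4
import Vale.Agent.P359.CertC5

/-! The core inequality with constant one tenth. -/

namespace Vale.Agent.P359

open Filter

theorem cert_split : cSecs = (cSecs.drop 0).take 36 ++ (cSecs.drop 36).take 18 ++ (cSecs.drop 54).take 11 ++ (cSecs.drop 65).take 12 ++ (cSecs.drop 77).take 18 ++ (cSecs.drop 95).take 35 := by
  decide +kernel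

theorem cert_secs : ∀ σ ∈ cSecs, secCheck cYhat σ = true := by
  rw [← List.all_eq_true, cert_split]
  simp only [List.all_append, cert_secs0, cert_secs1, cert_secs2, cert_secs3, cert_secs4, cert_secs5, Bool.and_self]

theorem cert_loc' : ∀ t ∈ allTerms cY2 cY3 cVV cCM, localLin t.1 = true ∧ localLin t.2 = true := by
  have h := cert_loc
  simpa only [List.all_eq_true, Bool.and_eq_true] using h

theorem core_gap : ∀ᶠ Q in atTop, CoreGap (1 / 10) Q := by
  have h := core_of_cert (2 ^ 70) (1 / 10) (by positivity) cY2 cY3 cVV cCM cPG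
    (by simpa only [List.all_eq_true, decide_eq_true_eq] using cert_pg) 64 cert_h3 cert_h4 cert_loc'
    (locPos_of_check _ cert_loc' cYhat cert_yhat
      (by simpa only [List.all_eq_true, decide_eq_true_eq] using cert_keys) cSecs cert_perm
      cert_secs) cert_budget
  simpa using h

end Vale.Agent.P359
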