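import Mathlib

/-!
Fock space model used in the proof of P359 (not part of the statement).
Vectors are real functions on finite sets of orbitals, operators are independent of `Q`;
only the inner product `ip Q` and the weights depend on `Q`.
-/

namespace Vale.Agent.P359

open Finset

noncomputable section

/-- Fock vectors (a type synonym, so that the group structure is found in one way only). -/
def Fk := Finset ℕ → ℝ

instance : AddCommGroup Fk := Pi.addCommGroup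
instance : Module ℝ Fk := Pi.Function.module (Finset ℕ) ℝ ℝ

@[ext] theorem Fk.ext {ψ χ : Fk} (h : ∀ S, ψ S = χ S) : ψ = χ := funext h
@[simp] theorem Fk.add_apply (ψ χ : Fk) (S : Finset ℕ) : (ψ + χ) S = ψ S + χ S := rfl
@[simp] theorem Fk.sub_apply (ψ χ : Fk) (S : Finset ℕ) : (ψ - χ) S = ψ S - χ S := rfl
@[simp] theorem Fk.neg_apply (ψ : Fk) (S : Finset ℕ) : (-ψ) S = - ψ S := rfl
@[simp] theorem Fk.zero_apply (S : Finset ℕ) : (0 : Fk) S = 0 := rfl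
@[simp] theorem Fk.smul_apply (c : ℝ) (ψ : Fk) (S : Finset ℕ) : (c • ψ) S = c * ψ S := rfl
@[simp] theorem Fk.sum_apply {ι : Type*} (s : Finset ι) (f : ι → Fk) (S : Finset ℕ) :
    (∑ i ∈ s, f i) S = ∑ i ∈ s, f i S := Finset.sum_apply S s f

abbrev Op := Module.End ℝ Fk

def sgn (p : ℕ) (S : Finset ℕ) : ℝ := (-1) ^ (S.filter (· < p)).card

/-- build a Fock vector from a function -/
def Fk.mk (f : Finset ℕ → ℝ) : Fk := f

@[simp] theorem Fk.mk_apply (f : Finset ℕ → ℝ) (S : Finset ℕ) : Fk.mk f S = f S := rfl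

/-- fermionic annihilation operator -/
def ann (p : ℕ) : Op where
  toFun ψ := Fk.mk fun S => if p ∈ S then 0 else sgn p S * ψ (insert p S)
  map_add' ψ χ := by ext S; by_cases h : p ∈ S <;> simp [h, mul_add]
  map_smul' c ψ := by ext S; by_cases h : p ∈ S <;> simp [h, mul_left_comm]

/-- fermionic creation operator -/
def cre (p : ℕ) : Op where
  toFun ψ := Fk.mk fun S => if p ∈ S then sgn p S * ψ (S.erase p) else 0
  map_add' ψ χ := by ext S; by_cases h : p ∈ S <;> simp [h, mul_add]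
  map_smul' c ψ := by ext S; by_cases h : p ∈ S <;> simp [h, mul_left_comm]

/-- inner product on orbitals `0..Q` -/
def ip (Q : ℕ) (ψ χ : Fk) : ℝ := ∑ S ∈ (range (Q + 1)).powerset, ψ S * χ S

def wt (Q p : ℕ) : ℝ := Real.sqrt ((p.factorial : ℝ) * (Q.descFactorial p : ℝ) / (Q : ℝ) ^ p)

/-- rescaled annihilator; vanishes for `p > Q` -/
def ee (Q p : ℕ) : Op := wt Q p • ann p

def lc (Q j : ℕ) : ℝ := Real.sqrt (((j : ℝ) + 1) * ((Q : ℝ) - j) / Q)

/-- `L_+ / √Q` -/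
def lp (Q : ℕ) : Op := ∑ j ∈ range Q, lc Q j • (cre j * ann (j + 1))

/-- `L_- / √Q` -/
def lm (Q : ℕ) : Op := ∑ j ∈ range Q, lc Q j • (cre (j + 1) * ann j)

/-- unnormalised pair annihilator -/
def bb (Q a : ℕ) : Op := ∑ p ∈ range (a + 1), (a.choose p : ℝ) • (ee Q (a + 1 - p) * ee Q p)

def nu (Q a : ℕ) : ℝ := (a.factorial : ℝ) * ((2 * Q - 2).descFactorial a : ℝ) / (Q : ℝ) ^ a

/-- the quadratic form of the Hamiltonian -/
def hform (Q : ℕ) (ψ χ : Fk) : ℝ :=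
  ∑ a ∈ range (2 * Q - 1), (nu Q a)⁻¹ * ip Q (bb Q a ψ) (bb Q a χ)

/-- supported on `N`-subsets of the orbitals `0..Q` -/
def Sup (N Q : ℕ) (ψ : Fk) : Prop := ∀ S, ψ S ≠ 0 → S ⊆ range (Q + 1) ∧ S.card = N

/-- A finite family of vectors spanning an `su(2)`-invariant eigenspace. -/
structure St where
  Q : ℕ
  n : ℕ
  v : Fin n → Fk
  E : ℝ
  Λ : Fin n → Fin n → ℝ
  hlp : ∀ k, lp Q (v k) = ∑ j, Λ j k • v j
  hlm : ∀ j, lm Q (v j) = ∑ k, Λ j k • v k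
  heig : ∀ j, hform Q (v j) (cre 0 (cre 1 (bb Q 0 (v j)))) =
    E * ip Q (v j) (cre 0 (cre 1 (bb Q 0 (v j))))

def St.G (s : St) (X Y : Op) : ℝ := ∑ j, ip s.Q (X (s.v j)) (Y (s.v j))

def St.x (s : St) : ℝ := s.G (bb s.Q 0) (bb s.Q 0)

/-- The analytic core. -/
def CoreGap (δ : ℝ) (Q : ℕ) : Prop := ∀ s : St, s.Q = Q → δ * s.x ≤ s.E * s.x

/-- The gap in Fock space. -/
def FockGap (δ : ℝ) (Q : ℕ) : Prop :=
  ∀ (N : ℕ) (Ψ : Fk), Sup N Q Ψ → ∃ Ψ₀ : Fk, Sup N Q Ψ₀ ∧ (∀ a, bb Q a Ψ₀ = 0) ∧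
    δ * ip Q (Ψ - Ψ₀) (Ψ - Ψ₀) ≤ hform Q Ψ Ψ

/-- first quantised wave function of a Fock vector -/
def kap : (N : ℕ) → Fk → (Fin N → ℕ) → ℝ
  | 0, Ψ, _ => Ψ ∅
  | N + 1, Ψ, x => kap N (ann (x 0) Ψ) (Fin.tail x)

end

end Vale.Agent.P359
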