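import Vale.Agent.P359.Sl2

/-! The eigenvalue identity and the tail bound. -/

namespace Vale.Agent.P359

open Finset

theorem ee_zero (Q : ℕ) : ee Q 0 = ann 0 := by simp [ee, wt_zero]
theorem ee_one {Q : ℕ} (hQ : 1 ≤ Q) : ee Q 1 = ann 1 := by simp [ee, wt_one hQ]

noncomputable def St.t3 (s : St) (b : ℕ) : ℝ :=
  (nu s.Q b)⁻¹ * (- s.G (ee s.Q 1 * bb s.Q b) (ee s.Q (b + 1) * bb s.Q 0) +
    ((b : ℝ) - 1) * s.G (ee s.Q 0 * bb s.Q b) (ee s.Q b * bb s.Q 0))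

noncomputable def St.t4 (s : St) (b : ℕ) : ℝ :=
  (nu s.Q b)⁻¹ * s.G (bb s.Q 0 * bb s.Q b) (bb s.Q 0 * bb s.Q b)

theorem ip_cre {Q p : ℕ} (hp : p ≤ Q) (ψ χ : Fk) : ip Q ψ (cre p χ) = ip Q (ann p ψ) χ :=
  (ip_ann hp ψ χ).symm

theorem bb_dag {Q : ℕ} (hQ : 1 ≤ Q) (b : ℕ) (v : Fk) :
    ip Q (bb Q b v) (bb Q b (cre 0 (cre 1 (bb Q 0 v)))) =
      (if b = 0 then ip Q (bb Q 0 v) (bb Q 0 v) else 0) +
      (- ip Q (ee Q 1 (bb Q b v)) (ee Q (b + 1) (bb Q 0 v)) +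
        ((b : ℝ) - 1) * ip Q (ee Q 0 (bb Q b v)) (ee Q b (bb Q 0 v))) +
      ip Q (bb Q 0 (bb Q b v)) (bb Q 0 (bb Q b v)) := by
  have h0 : ∀ χ, bb Q b (cre 0 χ) = cre 0 (bb Q b χ) + ee Q (b + 1) χ := fun χ =>
    congrArg (fun X : Op => X χ) (bb_cre0 Q b)
  have h1 : ∀ χ, bb Q b (cre 1 χ) = cre 1 (bb Q b χ) + ((b : ℝ) - 1) • ee Q b χ := fun χ =>
    congrArg (fun X : Op => X χ) (bb_cre1 hQ b)
  have h2 : ∀ χ, ee Q (b + 1) (cre 1 χ) =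
      (if b + 1 = 1 then wt Q (b + 1) else 0) • χ - cre 1 (ee Q (b + 1) χ) := fun χ =>
    congrArg (fun X : Op => X χ) (ee_cre Q (b + 1) 1)
  have h3 : bb Q b (bb Q 0 v) = bb Q 0 (bb Q b v) := congrArg (fun X : Op => X v) (bb_bb Q b 0)
  have h4 : ∀ χ, bb Q 0 χ = ann 1 (ann 0 χ) := fun χ => by
    rw [bb_zero, ee_zero, ee_one hQ]; rfl
  rw [h0, h1, h2, map_add, map_smul, ip_add_right, ip_add_right, ip_sub_right, ip_smul_right,
    ip_smul_right, ip_cre (Nat.zero_le _), ip_cre hQ, ip_cre (Nat.zero_le _), ip_cre hQ, h3,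
    ← h4, ee_zero, ee_one hQ]
  by_cases hb : b = 0
  · subst hb; simp [wt_one hQ]; ring
  · simp [hb]; ring

theorem St.E_ident (s : St) (hQ : 1 ≤ s.Q) :
    s.E * s.x = s.x + ∑ b ∈ range (2 * s.Q - 1), (s.t3 b + s.t4 b) := by
  have h4 : ∀ χ, bb s.Q 0 χ = ann 1 (ann 0 χ) := fun χ => by
    rw [bb_zero, ee_zero, ee_one hQ]; rfl
  have h1 : s.E * s.x = ∑ j, hform s.Q (s.v j) (cre 0 (cre 1 (bb s.Q 0 (s.v j)))) := by
    simp only [s.heig, St.x, St.G, mul_sum]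
    refine sum_congr rfl fun j _ => ?_
    rw [ip_cre (Nat.zero_le _), ip_cre hQ, ← h4]
  rw [h1]
  simp only [hform, bb_dag hQ]
  rw [sum_comm]
  have h2 : s.x = ∑ b ∈ range (2 * s.Q - 1), if b = 0 then s.x else 0 := by
    rw [sum_ite_eq']; simp; omega
  conv_rhs => rw [h2, ← sum_add_distrib]
  refine sum_congr rfl fun b _ => ?_
  simp only [St.t3, St.t4, St.G, St.x, Module.End.mul_apply, ← mul_sum, sum_add_distrib,
    sum_neg_distrib]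
  by_cases hb : b = 0
  · subst hb; simp [nu_zero]; ring
  · simp [hb]; ring

theorem St.t4_nonneg (s : St) (b : ℕ) : 0 ≤ s.t4 b :=
  mul_nonneg (inv_nonneg.mpr (nu_nonneg _ _)) (s.G_self_nonneg _)

theorem desc_le {Q : ℕ} (hQ : 2 ≤ Q) (b : ℕ) :
    Q.descFactorial b * 2 ^ b ≤ 4 * (2 * Q - 2).descFactorial b := by
  rcases b with _ | _ | b
  · simp
  · simp; omega
  induction b with
  | zero =>
    obtain ⟨n, rfl⟩ : ∃ n, Q = n + 2 := ⟨Q - 2, by omega⟩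
    rw [show 2 * (n + 2) - 2 = 2 * n + 2 by omega]
    simp [Nat.descFactorial_succ]
    nlinarith
  | succ b ih =>
    rw [Nat.descFactorial_succ Q, Nat.descFactorial_succ (2 * Q - 2), pow_succ]
    have h : (Q - (b + 1 + 1)) * 2 ≤ 2 * Q - 2 - (b + 1 + 1) := by omega
    calc (Q - (b + 1 + 1)) * Q.descFactorial (b + 1 + 1) * (2 ^ (b + 1 + 1) * 2)
        = ((Q - (b + 1 + 1)) * 2) * (Q.descFactorial (b + 1 + 1) * 2 ^ (b + 1 + 1)) := by ring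
      _ ≤ (2 * Q - 2 - (b + 1 + 1)) * (4 * (2 * Q - 2).descFactorial (b + 1 + 1)) :=
          Nat.mul_le_mul h ih
      _ = _ := by ring

theorem wt_sq_le_nu {Q : ℕ} (hQ : 2 ≤ Q) (b : ℕ) :
    wt Q b ^ 2 ≤ 4 * (1 / 2) ^ b * nu Q b := by
  have h : ((Q.descFactorial b : ℕ) : ℝ) * 2 ^ b ≤ 4 * ((2 * Q - 2).descFactorial b : ℕ) := by
    exact_mod_cast desc_le hQ b
  have hQ0 : (0 : ℝ) < Q := by positivity
  rw [wt_sq, nu, one_div, inv_pow]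
  have h2 : (0 : ℝ) < 2 ^ b := by positivity
  have h3 : (0 : ℝ) < b.factorial := by positivity
  have h4 : (0 : ℝ) < (Q : ℝ) ^ b := by positivity
  rw [div_le_iff₀ h4]
  field_simp
  linarith

theorem wt_succ_sq_le {Q : ℕ} (hQ : 1 ≤ Q) (b : ℕ) :
    wt Q (b + 1) ^ 2 ≤ ((b : ℝ) + 1) * wt Q b ^ 2 := by
  by_cases hb : b ≤ Q
  · rw [wt_succ hQ, mul_pow, pow_two (lc Q b), lc_sq hb, mul_comm]
    apply mul_le_mul_of_nonneg_right _ (sq_nonneg _)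
    have hQ0 : (0 : ℝ) < Q := by positivity
    rw [div_le_iff₀ hQ0]
    have : (0 : ℝ) ≤ b := by positivity
    nlinarith
  · rw [wt_eq_zero (by omega)]; simp; positivity

theorem St.G_amgm (s : St) (X Y : Op) {α : ℝ} (hα : 0 < α) :
    2 * |s.G X Y| ≤ α * s.G X X + α⁻¹ * s.G Y Y := by
  have h1 := s.G_self_nonneg (α • X - Y)
  have h2 := s.G_self_nonneg (α • X + Y)
  simp only [s.G_sub_left, s.G_sub_right, s.G_add_left, s.G_add_right, s.G_smul_left,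
    s.G_smul_right, s.G_comm Y X] at h1 h2
  have e : α * s.G X X + α⁻¹ * s.G Y Y = α⁻¹ * (α * (α * s.G X X) + s.G Y Y) := by field_simp
  rw [e, le_inv_mul_iff₀ hα]
  rcases abs_cases (s.G X Y) with h | h <;> rw [h.1] <;> linarith

theorem St.t3_bound (s : St) (hQ : 2 ≤ s.Q) {b : ℕ} (hb1 : 1 ≤ b) (hb : b + 2 ≤ 2 * s.Q) :
    -(9 / 2 * b * (5 / 7) ^ b * s.x) ≤ s.t3 b := by
  have hQ1 : 1 ≤ s.Q := by omega
  have hν := nu_pos hb
  have hx := s.x_nonneg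
  have hα : (0 : ℝ) < (5 / 7) ^ b := by positivity
  have hβ : ((5 / 7 : ℝ) ^ b)⁻¹ * (1 / 2) ^ b ≤ (5 / 7) ^ b := by
    rw [← inv_pow, ← mul_pow]
    exact pow_le_pow_left₀ (by norm_num) (by norm_num) b
  have a1 : s.G (ee s.Q 1 * bb s.Q b) (ee s.Q 1 * bb s.Q b) ≤ nu s.Q b * s.x := by
    have := s.G_ee_le 1 (bb s.Q b)
    rwa [wt_one hQ1, s.G_bb hQ1, one_pow, one_mul] at this
  have a0 : s.G (ee s.Q 0 * bb s.Q b) (ee s.Q 0 * bb s.Q b) ≤ nu s.Q b * s.x := by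
    have := s.G_ee_le 0 (bb s.Q b)
    rwa [wt_zero, s.G_bb hQ1, one_pow, one_mul] at this
  have w0 := wt_sq_le_nu hQ b
  have w1 := wt_succ_sq_le hQ1 b
  have hb' : (1 : ℝ) ≤ b := by exact_mod_cast hb1
  have c0 : s.G (ee s.Q b * bb s.Q 0) (ee s.Q b * bb s.Q 0) ≤
      4 * (1 / 2) ^ b * nu s.Q b * s.x :=
    (s.G_ee_le b _).trans (mul_le_mul_of_nonneg_right w0 hx)
  have c1 : s.G (ee s.Q (b + 1) * bb s.Q 0) (ee s.Q (b + 1) * bb s.Q 0) ≤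
      ((b : ℝ) + 1) * (4 * (1 / 2) ^ b * nu s.Q b) * s.x :=
    (s.G_ee_le (b + 1) _).trans (mul_le_mul_of_nonneg_right
      (w1.trans (mul_le_mul_of_nonneg_left w0 (by positivity))) hx)
  have hνx : 0 ≤ nu s.Q b * s.x := by positivity
  have d1 : 2 * |s.G (ee s.Q 1 * bb s.Q b) (ee s.Q (b + 1) * bb s.Q 0)| ≤
      (1 + 4 * ((b : ℝ) + 1)) * ((5 / 7) ^ b * (nu s.Q b * s.x)) := by
    refine (s.G_amgm _ _ hα).trans ?_
    have e1 := mul_le_mul_of_nonneg_left a1 hα.le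
    have e2 := mul_le_mul_of_nonneg_left c1 (inv_nonneg.mpr hα.le)
    have e3 := mul_le_mul_of_nonneg_right hβ
      (show 0 ≤ 4 * ((b : ℝ) + 1) * (nu s.Q b * s.x) by positivity)
    nlinarith
  have d0 : 2 * |s.G (ee s.Q 0 * bb s.Q b) (ee s.Q b * bb s.Q 0)| ≤
      5 * ((5 / 7) ^ b * (nu s.Q b * s.x)) := by
    refine (s.G_amgm _ _ hα).trans ?_
    have e1 := mul_le_mul_of_nonneg_left a0 hα.le
    have e2 := mul_le_mul_of_nonneg_left c0 (inv_nonneg.mpr hα.le)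
    have e3 := mul_le_mul_of_nonneg_right hβ
      (show 0 ≤ 4 * (nu s.Q b * s.x) by positivity)
    nlinarith
  unfold St.t3
  rw [le_inv_mul_iff₀ hν]
  have f1 := le_abs_self (s.G (ee s.Q 1 * bb s.Q b) (ee s.Q (b + 1) * bb s.Q 0))
  have f0 := neg_abs_le (s.G (ee s.Q 0 * bb s.Q b) (ee s.Q b * bb s.Q 0))
  have f2 := mul_le_mul_of_nonneg_left f0 (show (0 : ℝ) ≤ b - 1 by linarith)
  have f3 := mul_le_mul_of_nonneg_left d0 (show (0 : ℝ) ≤ b - 1 by linarith)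
  nlinarith

theorem tail_sum (n : ℕ) :
    ∑ b ∈ range n, (9 / 2 * ((41 + b : ℕ) : ℝ) * (5 / 7) ^ (41 + b)) ≤ 1 / 1000 := by
  have h : ∀ n : ℕ, ∑ b ∈ range n, (9 / 2 * ((41 + b : ℕ) : ℝ) * (5 / 7) ^ (41 + b)) =
      9 / 2 * (7 / 2 * 41 + 35 / 4) * (5 / 7) ^ 41 -
        9 / 2 * (7 / 2 * (41 + (n : ℝ)) + 35 / 4) * (5 / 7) ^ (41 + n) := by
    intro n
    induction n with
    | zero => simp
    | succ n ih =>
      rw [sum_range_succ, ih, ← add_assoc, pow_succ]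
      push_cast; ring
  rw [h]
  have : (0 : ℝ) ≤ 9 / 2 * (7 / 2 * (41 + (n : ℝ)) + 35 / 4) * (5 / 7) ^ (41 + n) := by positivity
  have h2 : (9 / 2 * (7 / 2 * 41 + 35 / 4) * (5 / 7) ^ 41 : ℝ) ≤ 1 / 1000 := by norm_num
  linarith

theorem St.E_lower (s : St) (hQ : 21 ≤ s.Q) :
    (999 / 1000) * s.x + ∑ b ∈ range 41, s.t3 b + ∑ b ∈ range 41, s.t4 b ≤ s.E * s.x := by
  rw [s.E_ident (by omega)]
  obtain ⟨n, hn⟩ : ∃ n, 2 * s.Q - 1 = 41 + n := ⟨2 * s.Q - 1 - 41, by omega⟩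
  rw [hn, sum_range_add, sum_add_distrib]
  have h1 : -(1 / 1000 * s.x) ≤ ∑ b ∈ range n, (s.t3 (41 + b) + s.t4 (41 + b)) := by
    have h2 := mul_le_mul_of_nonneg_right (tail_sum n) s.x_nonneg
    rw [sum_mul] at h2
    refine le_trans (neg_le_neg h2) ?_
    rw [← sum_neg_distrib]
    refine sum_le_sum fun b hb => ?_
    have hb := mem_range.mp hb
    have := s.t3_bound (by omega) (b := 41 + b) (by omega) (by omega)
    have := s.t4_nonneg (41 + b)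
    linarith
  linarith

end Vale.Agent.P359
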