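import Vale.Agent.P359.Defs
import Vale.Agent.P359.Kap

/-! T5: lower bound of the Hamiltonian by the pair amplitudes (Bessel inequality). -/

namespace Vale.Agent.P359

open Finset
open scoped Matrix Kronecker

/-- the antisymmetrised pair amplitude -/
noncomputable def phiR (Q a p q : ℕ) : ℝ :=
  if p + q = a + 1 then ((a.choose p : ℝ) - a.choose q) * wt Q p * wt Q q else 0

noncomputable def phiV (Q a : ℕ) : Fin (Q + 1) × Fin (Q + 1) → ℂ :=
  fun y => (phiR Q a y.1 y.2 : ℂ)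

theorem pairOp_mulVec {Q : ℕ} (A : Matrix (Fin (Q + 1)) (Fin (Q + 1)) ℂ)
    (f : Fin (Q + 1) × Fin (Q + 1) → ℂ) (p q : Fin (Q + 1)) :
    (pairOp A *ᵥ f) (p, q) = ∑ r, A p r * f (r, q) + ∑ r, A q r * f (p, r) := by
  rw [pairOp, Matrix.add_mulVec, Pi.add_apply]
  congr 1
  · simp [Matrix.mulVec, dotProduct, Fintype.sum_prod_type, Matrix.one_apply]
  · simp [Matrix.mulVec, dotProduct, Fintype.sum_prod_type, Matrix.one_apply]

theorem sqrt_lc {Q p : ℕ} (hQ : 1 ≤ Q) (hp : p ≤ Q) :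
    Real.sqrt (((p + 1) * (Q - p) : ℕ) : ℝ) = Real.sqrt Q * lc Q p := by
  have h : (0 : ℝ) < Q := by exact_mod_cast hQ
  rw [lc, ← Real.sqrt_mul h.le]
  congr 1
  push_cast [Nat.cast_sub hp]
  field_simp

theorem up_sum {Q : ℕ} (hQ : 1 ≤ Q) (p : Fin (Q + 1)) (G : ℕ → ℝ) :
    ∑ r : Fin (Q + 1), spinUp Q p r * (G r : ℂ) = ((Real.sqrt Q * lc Q p * G (p + 1) : ℝ) : ℂ) := by
  have hp : (p : ℕ) ≤ Q := Nat.lt_succ_iff.1 p.2
  simp only [spinUp, sqrt_lc hQ hp, ite_mul, zero_mul]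
  rw [Fin.sum_univ_eq_sum_range
    (fun r => if (p : ℕ) + 1 = r then ((Real.sqrt Q * lc Q p : ℝ) : ℂ) * (G r : ℂ) else 0),
    sum_ite_eq]
  split_ifs with h
  · push_cast; ring
  · have : (p : ℕ) = Q := by rw [mem_range] at h; omega
    simp [lc, this]

theorem down_sum {Q : ℕ} (hQ : 1 ≤ Q) (p : Fin (Q + 1)) (G : ℕ → ℝ) :
    ∑ r : Fin (Q + 1), spinDown Q p r * (G r : ℂ) =
      ((if (p : ℕ) = 0 then 0 else Real.sqrt Q * lc Q (p - 1) * G (p - 1) : ℝ) : ℂ) := by
  have e : ∀ r : Fin (Q + 1), spinDown Q p r * (G r : ℂ) =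
      if (r : ℕ) + 1 = p then ((Real.sqrt Q * lc Q r * G r : ℝ) : ℂ) else 0 := by
    intro r
    have hr : (r : ℕ) ≤ Q := Nat.lt_succ_iff.1 r.2
    simp only [spinDown, Matrix.conjTranspose_apply, spinUp, sqrt_lc hQ hr]
    split_ifs
    · simp
    · simp
  simp only [e]
  rw [Fin.sum_univ_eq_sum_range
    (fun r => if r + 1 = (p : ℕ) then ((Real.sqrt Q * lc Q r * G r : ℝ) : ℂ) else 0)]
  split_ifs with h
  · simp [h]
  · rw [sum_eq_single_of_mem ((p : ℕ) - 1) (mem_range.2 (by have := p.2; omega)),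
      if_pos (by omega)]
    intro r _ hr
    rw [if_neg (by omega)]

theorem down_phi {Q : ℕ} (hQ : 1 ≤ Q) (a : ℕ) :
    pairOp (spinDown Q) *ᵥ phiV Q a = ((Real.sqrt Q : ℝ) : ℂ) • phiV Q (a + 1) := by
  funext ⟨p, q⟩
  rw [pairOp_mulVec]
  simp only [phiV, Pi.smul_apply, smul_eq_mul]
  rw [down_sum hQ p (fun r => phiR Q a r q), down_sum hQ q (fun r => phiR Q a p r)]
  rw [← Complex.ofReal_add, ← Complex.ofReal_mul, Complex.ofReal_inj]
  generalize (p : ℕ) = p
  generalize (q : ℕ) = q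
  rcases p with _ | p <;> rcases q with _ | q
  · simp [phiR]
  · rw [if_pos rfl, if_neg (Nat.succ_ne_zero q)]
    simp only [phiR, zero_add, Nat.add_sub_cancel, Nat.add_right_cancel_iff, wt_succ hQ]
    split_ifs with h
    · subst h; simp; ring
    · simp
  · rw [if_pos rfl, if_neg (Nat.succ_ne_zero p)]
    simp only [phiR, add_zero, Nat.add_sub_cancel, Nat.add_right_cancel_iff, wt_succ hQ]
    split_ifs with h
    · subst h; simp; ring
    · simp
  · rw [if_neg (Nat.succ_ne_zero p), if_neg (Nat.succ_ne_zero q)]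
    simp only [phiR, Nat.add_sub_cancel, wt_succ hQ]
    by_cases h : p + q = a
    · rw [if_pos (by omega), if_pos (by omega), if_pos (by omega), Nat.choose_succ_succ',
        Nat.choose_succ_succ']
      push_cast; ring
    · rw [if_neg (by omega), if_neg (by omega), if_neg (by omega)]; simp

theorem choose_aux {a p q : ℕ} (h : p + q = a + 1) :
    ((a + 1).choose p : ℝ) = a.choose p + a.choose q ∧
    ((a + 1).choose q : ℝ) = a.choose p + a.choose q ∧
    (q : ℝ) * (a.choose p + a.choose q) = (a + 1) * a.choose p ∧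
    (p : ℝ) * (a.choose p + a.choose q) = (a + 1) * a.choose q := by
  have s : (a + 1).choose p = (a + 1).choose q := Nat.choose_symm_of_eq_add h.symm
  have one : ∀ p q : ℕ, p + q = a + 1 → q * (a + 1).choose p = (a + 1) * a.choose p := by
    intro p q h
    have := Nat.choose_mul_succ_eq a p
    rw [show a + 1 - p = q by omega] at this
    linarith
  have h1 := one p q h
  have h2 := one q p (by omega)
  rw [← s] at h2
  have h3 : (a + 1).choose p = a.choose p + a.choose q := by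
    apply Nat.eq_of_mul_eq_mul_left (Nat.succ_pos a)
    rw [Nat.succ_eq_add_one, mul_add, ← h1, ← h2, ← h]; ring
  rw [h3] at h1 h2
  refine ⟨by exact_mod_cast h3, by exact_mod_cast s ▸ h3, by exact_mod_cast h1,
    by exact_mod_cast h2⟩

theorem up_phi {Q : ℕ} (hQ : 1 ≤ Q) (a : ℕ) :
    pairOp (spinUp Q) *ᵥ phiV Q a =
      ((Real.sqrt Q * (a * (2 - ((a : ℝ) + 1) / Q)) : ℝ) : ℂ) • phiV Q (a - 1) := by
  funext ⟨p, q⟩
  rw [pairOp_mulVec]
  simp only [phiV, Pi.smul_apply, smul_eq_mul]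
  rw [up_sum hQ p (fun r => phiR Q a r q), up_sum hQ q (fun r => phiR Q a p r)]
  norm_cast
  have hp := lc_sq (Nat.lt_succ_iff.1 p.2)
  have hq := lc_sq (Nat.lt_succ_iff.1 q.2)
  generalize (p : ℕ) = p at hp ⊢
  generalize (q : ℕ) = q at hq ⊢
  have hQ' : (0 : ℝ) < Q := by exact_mod_cast hQ
  rcases a with _ | a
  · simp only [phiR]
    by_cases h : p + q = 0
    · obtain ⟨rfl, rfl⟩ : p = 0 ∧ q = 0 := by omega
      simp; ring
    · rw [if_neg (by omega), if_neg (by omega)]; simp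
  · simp only [phiR, Nat.add_sub_cancel, wt_succ hQ]
    by_cases h : p + q = a + 1
    · rw [if_pos (by omega), if_pos (by omega), if_pos h]
      obtain ⟨c1, c2, c3, c4⟩ := choose_aux h
      have d1 : ((p : ℝ) + 1) * (a + 1).choose (p + 1) = (a + 1) * a.choose p := by
        have := Nat.add_one_mul_choose_eq a p
        rw [mul_comm]; exact_mod_cast this.symm
      have d2 : ((q : ℝ) + 1) * (a + 1).choose (q + 1) = (a + 1) * a.choose q := by
        have := Nat.add_one_mul_choose_eq a q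
        rw [mul_comm]; exact_mod_cast this.symm
      have hs : (p : ℝ) + q = a + 1 := by exact_mod_cast h
      have c5 : (p : ℝ) * a.choose p = q * a.choose q := by
        have h0 : ((a : ℝ) + 1) ≠ 0 := by positivity
        apply mul_left_cancel₀ h0
        linear_combination (-(p : ℝ)) * c3 + (q : ℝ) * c4
      rw [c1, c2]
      push_cast
      have key : ((p : ℝ) + 1) * (Q - p) * ((a + 1).choose (p + 1) - (a.choose p + a.choose q))
          + ((q : ℝ) + 1) * (Q - q) * ((a.choose p + a.choose q) - (a + 1).choose (q + 1))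
          = (a + 1) * (2 * Q - (a + 1 + 1)) * (a.choose p - a.choose q) := by
        linear_combination ((Q : ℝ) - p) * d1 - ((Q : ℝ) - q) * d2
          + ((Q : ℝ) - a - 2) * (c3 - c4) - ((a : ℝ) + 1) * c5
          - ((q : ℝ) - p) * (a.choose p + a.choose q) * hs
      have e2 : (2 - ((a : ℝ) + 1 + 1) / Q) = (2 * Q - (a + 1 + 1)) / Q := by field_simp
      rw [e2]
      linear_combination
        (√Q * wt Q p * wt Q q * ((a + 1).choose (p + 1) - (a.choose p + a.choose q))) * hp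
        + (√Q * wt Q p * wt Q q * ((a.choose p + a.choose q) - (a + 1).choose (q + 1))) * hq
        + (√Q * wt Q p * wt Q q / Q) * key
    · rw [if_neg (by omega), if_neg (by omega), if_neg h]; simp

theorem z_phi (Q a : ℕ) :
    pairOp (spinZ Q) *ᵥ phiV Q a = ((Q : ℂ) - a - 1) • phiV Q a := by
  funext ⟨p, q⟩
  rw [pairOp_mulVec]
  simp only [spinZ, Matrix.diagonal_apply, ite_mul, zero_mul, sum_ite_eq, mem_univ, if_true,
    Pi.smul_apply, smul_eq_mul, phiV, phiR]
  split_ifs with h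
  · have : ((p : ℕ) : ℂ) + (q : ℕ) = a + 1 := by exact_mod_cast h
    linear_combination (-(((((a.choose p : ℝ) - a.choose q) * wt Q p * wt Q q : ℝ)) : ℂ)) * this
  · simp

theorem sqrtQ_sq (Q : ℕ) : ((Real.sqrt Q : ℝ) : ℂ) * ((Real.sqrt Q : ℝ) : ℂ) = Q := by
  rw [← Complex.ofReal_mul, Real.mul_self_sqrt (by positivity)]; simp

theorem up_down_phi {Q : ℕ} (hQ : 1 ≤ Q) (a : ℕ) :
    pairOp (spinUp Q) *ᵥ (pairOp (spinDown Q) *ᵥ phiV Q a)
      = (((a : ℂ) + 1) * (2 * Q - a - 2)) • phiV Q a := by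
  have hQ' : (Q : ℂ) ≠ 0 := by exact_mod_cast (by omega : Q ≠ 0)
  rw [down_phi hQ, Matrix.mulVec_smul, up_phi hQ, smul_smul, Nat.add_sub_cancel]
  congr 1
  push_cast
  rw [← mul_assoc, sqrtQ_sq]
  field_simp
  ring

theorem down_up_phi {Q : ℕ} (hQ : 1 ≤ Q) (a : ℕ) :
    pairOp (spinDown Q) *ᵥ (pairOp (spinUp Q) *ᵥ phiV Q a)
      = ((a : ℂ) * (2 * Q - a - 1)) • phiV Q a := by
  have hQ' : (Q : ℂ) ≠ 0 := by exact_mod_cast (by omega : Q ≠ 0)
  rw [up_phi hQ, Matrix.mulVec_smul, down_phi hQ, smul_smul]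
  rcases a with _ | a
  · simp
  · rw [Nat.add_sub_cancel]
    congr 1
    push_cast
    rw [mul_right_comm, sqrtQ_sq]
    field_simp
    ring

theorem phi_mem {Q : ℕ} (hQ : 1 ≤ Q) (a : ℕ) :
    (WithLp.toLp 2 (phiV Q a) : Pair Q) ∈ spinComp Q := by
  refine Submodule.subset_span ?_
  change casimir Q *ᵥ phiV Q a = (((Q : ℂ) - 1) * Q) • phiV Q a
  rw [casimir, spinSq, Matrix.add_mulVec, Matrix.smul_mulVec, Matrix.add_mulVec,
    ← Matrix.mulVec_mulVec, ← Matrix.mulVec_mulVec, ← Matrix.mulVec_mulVec, up_down_phi hQ,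
    down_up_phi hQ, z_phi, Matrix.mulVec_smul, z_phi, smul_smul, ← add_smul, smul_smul, ← add_smul]
  congr 1; ring

theorem phi_norm {Q : ℕ} (hQ : 1 ≤ Q) (a : ℕ) (ha : a + 2 ≤ 2 * Q) :
    star (phiV Q a) ⬝ᵥ phiV Q a = ((2 * nu Q a : ℝ) : ℂ) := by
  induction a with
  | zero =>
    obtain ⟨m, rfl⟩ : ∃ m, Q = m + 1 := ⟨Q - 1, by omega⟩
    simp [dotProduct, Fintype.sum_prod_type, phiV, phiR, Fin.sum_univ_succ, nu_zero, wt_zero,
      wt_one hQ]
    norm_num
  | succ a ih =>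
    have hQ' : (Q : ℂ) ≠ 0 := by exact_mod_cast (by omega : Q ≠ 0)
    have hadj : (pairOp (spinDown Q))ᴴ = pairOp (spinUp Q) := by
      simp [pairOp, spinDown, Matrix.conjTranspose_kronecker]
    have h1 : star (pairOp (spinDown Q) *ᵥ phiV Q a) ⬝ᵥ (pairOp (spinDown Q) *ᵥ phiV Q a)
        = star (phiV Q a) ⬝ᵥ (pairOp (spinUp Q) *ᵥ (pairOp (spinDown Q) *ᵥ phiV Q a)) := by
      rw [Matrix.star_mulVec, hadj, ← Matrix.dotProduct_mulVec]
    rw [up_down_phi hQ, down_phi hQ, star_smul, smul_dotProduct, dotProduct_smul, dotProduct_smul,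
      ih (by omega), smul_smul] at h1
    simp only [Complex.star_def, Complex.conj_ofReal, sqrtQ_sq, smul_eq_mul] at h1
    apply mul_left_cancel₀ hQ'
    rw [h1, nu_succ hQ (by omega)]
    push_cast
    field_simp
    ring

theorem phi_orth (Q : ℕ) {a b : ℕ} (hab : a ≠ b) : star (phiV Q a) ⬝ᵥ phiV Q b = 0 := by
  refine sum_eq_zero fun y _ => ?_
  simp only [Pi.star_apply, phiV, phiR]
  by_cases h : (y.1 : ℕ) + y.2 = a + 1
  · rw [if_neg (show ¬ (y.1 : ℕ) + y.2 = b + 1 by omega)]; simp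
  · rw [if_neg h]; simp

theorem phi_inner {Q : ℕ} (a : ℕ) (g : Pair Q) (hg : ∀ y, g (y.2, y.1) = - g y) :
    inner ℂ (WithLp.toLp 2 (phiV Q a) : Pair Q) g = 2 * ∑ y, (ampc Q a y : ℂ) * g y := by
  have e1 : ∀ y : Fin (Q + 1) × Fin (Q + 1),
      phiR Q a y.1 y.2 = ampc Q a y - ampc Q a (y.2, y.1) := by
    intro y
    simp only [phiR, ampc, add_comm (y.2 : ℕ) y.1]
    split_ifs <;> ring
  have e2 : ∑ y : Fin (Q + 1) × Fin (Q + 1), (ampc Q a (y.2, y.1) : ℂ) * g y
      = - ∑ y, (ampc Q a y : ℂ) * g y := by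
    rw [← sum_neg_distrib, ← (Equiv.prodComm _ _).sum_comp]
    refine sum_congr rfl fun y _ => ?_
    simp only [Equiv.prodComm_apply, Prod.swap]
    rw [hg y]; ring
  rw [PiLp.inner_apply]
  simp only [phiV, e1, RCLike.inner_apply, Complex.conj_ofReal]
  push_cast
  simp only [mul_comm (g _), sub_mul, sum_sub_distrib]
  rw [e2]; ring

/-- two-body Bessel inequality -/
theorem pair_bessel {Q : ℕ} (hQ : 1 ≤ Q) (g : Pair Q) (hg : ∀ y, g (y.2, y.1) = - g y) :
    ∑ a ∈ range (2 * Q - 1), 2 * (nu Q a)⁻¹ * ‖∑ y, (ampc Q a y : ℂ) * g y‖ ^ 2 ≤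
      (inner ℂ g ((spinComp Q).starProjection g)).re := by
  have hnu : ∀ a : Fin (2 * Q - 1), 0 < nu Q a := fun a => nu_pos (by have := a.2; omega)
  let v : Fin (2 * Q - 1) → Pair Q := fun a =>
    (((Real.sqrt (2 * nu Q a))⁻¹ : ℝ) : ℂ) • WithLp.toLp 2 (phiV Q a)
  have hv : Orthonormal ℂ v := by
    rw [orthonormal_iff_ite]
    intro a b
    simp only [v, inner_smul_left, inner_smul_right, EuclideanSpace.inner_toLp_toLp,
      Complex.conj_ofReal]
    rw [dotProduct_comm]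
    split_ifs with h
    · subst h
      rw [phi_norm hQ a (by have := a.2; omega)]
      norm_cast
      have h1 := hnu a
      have h2 : Real.sqrt (2 * nu Q a) * Real.sqrt (2 * nu Q a) = 2 * nu Q a :=
        Real.mul_self_sqrt (by positivity)
      have h3 : 0 < Real.sqrt (2 * nu Q a) := Real.sqrt_pos.2 (by positivity)
      field_simp
      linarith
    · rw [phi_orth Q (fun h' => h (Fin.ext h'))]; simp
  have hB := hv.sum_inner_products_le (s := univ) ((spinComp Q).starProjection g)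
  have e1 : (inner ℂ g ((spinComp Q).starProjection g)).re
      = ‖(spinComp Q).starProjection g‖ ^ 2 := by
    have := Submodule.re_inner_starProjection_eq_normSq (spinComp Q) g
    rw [← inner_re_symm] at this
    exact this
  rw [e1, ← Fin.sum_univ_eq_sum_range
    (fun a => 2 * (nu Q a)⁻¹ * ‖∑ y, (ampc Q a y : ℂ) * g y‖ ^ 2)]
  refine le_trans (le_of_eq (sum_congr rfl fun a _ => ?_)) hB
  simp only [v, inner_smul_left, Complex.conj_ofReal]
  rw [← Submodule.inner_starProjection_left_eq_right,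
    Submodule.starProjection_eq_self_iff.2 (phi_mem hQ a), phi_inner a g hg, norm_mul, norm_mul,
    mul_pow, mul_pow, Complex.norm_real, Real.norm_eq_abs, sq_abs, inv_pow,
    Real.sq_sqrt (by have := hnu a; positivity)]
  have := hnu a
  simp only [Complex.norm_ofNat]
  field_simp

theorem count_pairs (N : ℕ) (c : ℝ) :
    ∑ i : Fin N, ∑ j : Fin N, (if i < j then c else 0) = (N : ℝ) * (N - 1) / 2 * c := by
  induction N with
  | zero => simp
  | succ n ih =>
    rw [Fin.sum_univ_succ]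
    simp only [Fin.sum_univ_succ, lt_self_iff_false, if_false, Fin.succ_pos, if_true,
      Fin.succ_lt_succ_iff, Fin.not_lt_zero, zero_add, ih, sum_const, card_univ, Fintype.card_fin,
      nsmul_eq_mul]
    push_cast; ring

theorem pairProj_inner {n Q : ℕ} (ψ : Tens (n + 2) Q) (hψ : IsFermionic ψ) {i j : Fin (n + 2)}
    (hij : i ≠ j) : inner ℂ ψ (pairProj i j ψ) = ∑ x : Fin n → Fin (Q + 1),
      inner ℂ (WithLp.toLp 2 fun y => ψ (Fin.cons y.1 (Fin.cons y.2 x)) : Pair Q)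
        ((spinComp Q).starProjection (WithLp.toLp 2 fun y => ψ (Fin.cons y.1 (Fin.cons y.2 x)))) := by
  obtain ⟨σ, h0, h1⟩ : ∃ σ : Equiv.Perm (Fin (n + 2)), σ 0 = i ∧ σ (Fin.succ 0) = j := by
    refine ⟨Equiv.swap 0 i * Equiv.swap (Fin.succ 0) (Equiv.swap 0 i j), ?_, ?_⟩
    · rw [Equiv.Perm.mul_apply, Equiv.swap_apply_of_ne_of_ne (Fin.succ_ne_zero _).symm,
        Equiv.swap_apply_left]
      intro h
      rw [eq_comm, Equiv.swap_apply_eq_iff, Equiv.swap_apply_left] at h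
      exact hij h.symm
    · rw [Equiv.Perm.mul_apply, Equiv.swap_apply_left, Equiv.swap_apply_self]
  set s : ℂ := ((Equiv.Perm.sign σ⁻¹ : ℤ) : ℂ) with hs
  have hss : (starRingEnd ℂ) s * s = 1 := by
    rcases Int.units_eq_one_or (Equiv.Perm.sign σ⁻¹) with h | h <;> simp [hs, h]
  have hupd : ∀ (p q p' q' : Fin (Q + 1)) (x : Fin n → Fin (Q + 1)),
      Function.update (Function.update
        (fun k => (Fin.cons p (Fin.cons q x) : Fin (n + 2) → Fin (Q + 1)) (σ⁻¹ k)) i p') j q'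
      = fun k => (Fin.cons p' (Fin.cons q' x) : Fin (n + 2) → Fin (Q + 1)) (σ⁻¹ k) := by
    intro p q p' q' x
    funext k
    obtain ⟨k, rfl⟩ := σ.surjective k
    rw [← h0, ← h1]
    refine Fin.cases ?_ (fun k => Fin.cases ?_ (fun k => ?_) k) k
    · rw [Function.update_of_ne (σ.injective.ne (Fin.succ_ne_zero _).symm), Function.update_self]
      simp
    · rw [Function.update_self]; simp
    · rw [Function.update_of_ne
        (σ.injective.ne fun h => Fin.succ_ne_zero k (Fin.succ_injective _ h)),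
        Function.update_of_ne (σ.injective.ne (Fin.succ_ne_zero _))]
      simp
  rw [PiLp.inner_apply, ← (Equiv.arrowCongr σ (Equiv.refl (Fin (Q + 1)))).sum_comp,
    ← (Fin.consEquiv fun _ : Fin (n + 2) => Fin (Q + 1)).sum_comp, Fintype.sum_prod_type]
  simp only [← (Fin.consEquiv fun _ : Fin (n + 1) => Fin (Q + 1)).sum_comp, Fintype.sum_prod_type,
    PiLp.inner_apply]
  rw [sum_comm]
  conv_rhs => rw [sum_comm]
  rw [sum_comm]
  refine sum_congr rfl fun p _ => ?_
  conv_rhs => rw [sum_comm]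
  refine sum_congr rfl fun q _ => sum_congr rfl fun x _ => ?_
  have ea : (Equiv.arrowCongr σ (Equiv.refl (Fin (Q + 1))))
      ((Fin.consEquiv fun _ : Fin (n + 2) => Fin (Q + 1))
        (p, (Fin.consEquiv fun _ : Fin (n + 1) => Fin (Q + 1)) (q, x)))
      = fun k => (Fin.cons p (Fin.cons q x) : Fin (n + 2) → Fin (Q + 1)) (σ⁻¹ k) := rfl
  rw [ea]
  simp only [pairProj, proj, hupd, hψ σ⁻¹, ← hs]
  have eb : (WithLp.toLp 2 fun y : Fin (Q + 1) × Fin (Q + 1) =>
      s * ψ (Fin.cons y.1 (Fin.cons y.2 x)) : Pair Q)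
      = s • (WithLp.toLp 2 fun y => ψ (Fin.cons y.1 (Fin.cons y.2 x)) : Pair Q) := rfl
  rw [eb, map_smul, ← h0, ← h1]
  simp only [PiLp.smul_apply, smul_eq_mul, RCLike.inner_apply, map_mul, Equiv.Perm.coe_inv,
    Equiv.symm_apply_apply, Fin.cons_zero, Fin.cons_succ]
  linear_combination ((spinComp Q).starProjection
    (WithLp.toLp 2 fun y => ψ (Fin.cons y.1 (Fin.cons y.2 x)) : Pair Q) (p, q) *
    (starRingEnd ℂ) (ψ (Fin.cons p (Fin.cons q x)))) * hss

theorem ham_lower {n Q : ℕ} (hQ : 1 ≤ Q) (ψ : Tens (n + 2) Q) (hψ : IsFermionic ψ) :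
    ((n + 2 : ℝ) * (n + 1)) * ∑ a ∈ range (2 * Q - 1), (nu Q a)⁻¹ *
      ∑ x : Fin n → Fin (Q + 1), ‖∑ y : Fin (Q + 1) × Fin (Q + 1), (ampc Q a y : ℂ) *
        ψ (Fin.cons y.1 (Fin.cons y.2 x))‖ ^ 2 ≤ (inner ℂ ψ (ham ψ)).re := by
  set T := ∑ a ∈ range (2 * Q - 1), (nu Q a)⁻¹ *
      ∑ x : Fin n → Fin (Q + 1), ‖∑ y : Fin (Q + 1) × Fin (Q + 1), (ampc Q a y : ℂ) *
        ψ (Fin.cons y.1 (Fin.cons y.2 x))‖ ^ 2 with hT
  have h1 : ∀ i j : Fin (n + 2), i ≠ j → 2 * T ≤ (inner ℂ ψ (pairProj i j ψ)).re := by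
    intro i j hij
    rw [pairProj_inner ψ hψ hij, Complex.re_sum, hT]
    simp only [mul_sum]
    rw [sum_comm]
    refine sum_le_sum fun x _ => ?_
    have := pair_bessel hQ (WithLp.toLp 2 fun y => ψ (Fin.cons y.1 (Fin.cons y.2 x))) (by
      intro y
      simp only
      rw [← cons_cons_swap, hψ, Equiv.Perm.sign_swap (Fin.succ_ne_zero _).symm]; simp)
    simpa only [mul_assoc] using this
  have h2 : ((n + 2 : ℝ) * (n + 1)) * T
      = ∑ i : Fin (n + 2), ∑ j : Fin (n + 2), (if i < j then 2 * T else 0) := by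
    rw [count_pairs]; push_cast; ring
  rw [h2, ham, inner_sum, Complex.re_sum]
  refine sum_le_sum fun i _ => ?_
  rw [inner_sum, Complex.re_sum]
  refine sum_le_sum fun j _ => ?_
  split_ifs with h
  · exact h1 i j h.ne
  · simp

end Vale.Agent.P359
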