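import Vale.Agent.P359.CAR

/-! T2: the `sl2` structure on annihilators. -/

namespace Vale.Agent.P359

open Finset

theorem wt_zero (Q : ℕ) : wt Q 0 = 1 := by simp [wt]
theorem wt_one {Q : ℕ} (hQ : 1 ≤ Q) : wt Q 1 = 1 := by
  have : (Q : ℝ) ≠ 0 := by positivity
  simp [wt, this]
theorem wt_nonneg (Q p : ℕ) : 0 ≤ wt Q p := Real.sqrt_nonneg _
theorem wt_sq (Q p : ℕ) :
    wt Q p ^ 2 = (p.factorial : ℝ) * (Q.descFactorial p : ℝ) / (Q : ℝ) ^ p :=
  Real.sq_sqrt (by positivity)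
theorem wt_succ {Q : ℕ} (hQ : 1 ≤ Q) (p : ℕ) : wt Q (p + 1) = wt Q p * lc Q p := by
  by_cases hp : p ≤ Q
  · unfold wt lc
    rw [← Real.sqrt_mul (by positivity)]
    congr 1
    have : (Q : ℝ) ≠ 0 := by positivity
    rw [Nat.descFactorial_succ, Nat.factorial_succ]
    push_cast [Nat.cast_sub hp]
    field_simp
    ring
  · rw [wt_eq_zero (by omega), wt_eq_zero (by omega), zero_mul]

theorem lc_sq {Q j : ℕ} (hj : j ≤ Q) : lc Q j * lc Q j = ((j : ℝ) + 1) * ((Q : ℝ) - j) / Q := by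
  unfold lc
  apply Real.mul_self_sqrt
  have : (j : ℝ) ≤ Q := by exact_mod_cast hj
  have : (0 : ℝ) ≤ Q - j := by linarith
  positivity

theorem ee_ee (Q p q : ℕ) : ee Q p * ee Q q = -(ee Q q * ee Q p) := by
  simp only [ee, smul_mul_smul_comm]
  rw [ann_ann p q, mul_comm, smul_neg]
theorem ee_sq (Q p : ℕ) : ee Q p * ee Q p = 0 := by
  simp [ee, ann_sq]

theorem ip_lp (Q : ℕ) (ψ χ : Fk) : ip Q (lp Q ψ) χ = ip Q ψ (lm Q χ) := by
  simp only [lp, lm, LinearMap.sum_apply, LinearMap.smul_apply, Module.End.mul_apply,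
    ip_sum_left, ip_sum_right, ip_smul_left, ip_smul_right]
  refine sum_congr rfl fun j hj => ?_
  have hj := mem_range.mp hj
  rw [ip_comm Q (cre j _), ← ip_ann hj.le, ip_comm, ip_ann (by omega)]

theorem ann_cre_ann (p i j : ℕ) : ann p * (cre i * ann j) =
    cre i * ann j * ann p + if p = i then ann j else 0 := by
  have h1 : ann p * cre i = (if p = i then 1 else 0) - cre i * ann p :=
    eq_sub_of_add_eq (ann_cre p i)
  rw [← mul_assoc, h1, sub_mul, mul_assoc, ann_ann p j]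
  split_ifs <;> simp [mul_assoc, add_comm]

theorem ee_lp {Q : ℕ} (hQ : 1 ≤ Q) (p : ℕ) :
    ee Q p * lp Q = lp Q * ee Q p + ee Q (p + 1) := by
  simp only [ee, lp, mul_sum, sum_mul, smul_mul_smul_comm, ann_cre_ann, smul_add, sum_add_distrib]
  congr 1
  · exact sum_congr rfl fun j _ => by rw [mul_comm]
  · simp only [smul_ite, smul_zero, sum_ite_eq, mem_range]
    split_ifs with h
    · rw [wt_succ hQ]
    · rw [wt_eq_zero (by omega), zero_smul]

theorem ee_lm {Q : ℕ} (hQ : 1 ≤ Q) (p : ℕ) : ee Q p * lm Q =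
    lm Q * ee Q p + ((p : ℝ) * (1 - ((p : ℝ) - 1) / Q)) • ee Q (p - 1) := by
  simp only [ee, lm, mul_sum, sum_mul, smul_mul_smul_comm, ann_cre_ann, smul_add, sum_add_distrib]
  congr 1
  · exact sum_congr rfl fun j _ => by rw [mul_comm]
  · have hQ0 : (Q : ℝ) ≠ 0 := by positivity
    rcases p with _ | p
    · simp
    · simp only [smul_ite, smul_zero, Nat.add_right_cancel_iff, sum_ite_eq, mem_range,
        Nat.add_sub_cancel, smul_smul]
      split_ifs with h
      · rw [wt_succ hQ, mul_assoc, lc_sq h.le]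
        congr 1
        push_cast
        field_simp
        ring
      · rcases (not_lt.mp h).eq_or_lt with h | h
        · subst h
          have : (1 - ((Q : ℝ) + 1 - 1) / Q) = 0 := by field_simp; ring
          push_cast
          rw [this]; simp
        · rw [wt_eq_zero h]; simp

theorem bb_zero (Q : ℕ) : bb Q 0 = ee Q 1 * ee Q 0 := by simp [bb]

theorem ee2_lp {Q : ℕ} (hQ : 1 ≤ Q) (p q : ℕ) : ee Q q * ee Q p * lp Q =
    lp Q * (ee Q q * ee Q p) + (ee Q (q + 1) * ee Q p + ee Q q * ee Q (p + 1)) := by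
  rw [mul_assoc, ee_lp hQ, mul_add, ← mul_assoc, ee_lp hQ]
  noncomm_ring

theorem bb_lp {Q : ℕ} (hQ : 1 ≤ Q) (a : ℕ) :
    bb Q a * lp Q = lp Q * bb Q a + bb Q (a + 1) := by
  simp only [bb, sum_mul, mul_sum, smul_mul_assoc, mul_smul_comm, ee2_lp hQ, smul_add,
    sum_add_distrib]
  congr 1
  have := Finset.sum_choose_succ_nsmul (fun p r => ee Q (r + 1) * ee Q p) a
  simp only [← Nat.cast_smul_eq_nsmul ℝ] at this
  have e1 : ∑ p ∈ range (a + 1 + 1), ((a + 1).choose p : ℝ) • (ee Q (a + 1 + 1 - p) * ee Q p) =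
      ∑ p ∈ range (a + 2), ((a + 1).choose p : ℝ) • (ee Q (a + 1 - p + 1) * ee Q p) :=
    sum_congr rfl fun p hp => by
      have := mem_range.mp hp
      rw [show a + 1 + 1 - p = a + 1 - p + 1 by omega]
  rw [e1, this]
  congr 1
  exact sum_congr rfl fun p hp => by
    have := mem_range.mp hp
    rw [show a + 1 - p = a - p + 1 by omega]

theorem ee2_lm {Q : ℕ} (hQ : 1 ≤ Q) (p q : ℕ) : ee Q q * ee Q p * lm Q =
    lm Q * (ee Q q * ee Q p) + (((q : ℝ) * (1 - ((q : ℝ) - 1) / Q)) • (ee Q (q - 1) * ee Q p) +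
      ((p : ℝ) * (1 - ((p : ℝ) - 1) / Q)) • (ee Q q * ee Q (p - 1))) := by
  rw [mul_assoc, ee_lm hQ, mul_add, ← mul_assoc, ee_lm hQ]
  simp only [add_mul, smul_mul_assoc, mul_smul_comm, mul_assoc, add_assoc]

theorem sum_choose_ee (Q n : ℕ) :
    ∑ p ∈ range (n + 1), (n.choose p : ℝ) • (ee Q (n - p) * ee Q p) = 0 := by
  have h := sum_range_reflect (fun p => (n.choose p : ℝ) • (ee Q (n - p) * ee Q p)) (n + 1)
  have h2 : ∑ j ∈ range (n + 1), (n.choose (n + 1 - 1 - j) : ℝ) •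
      (ee Q (n - (n + 1 - 1 - j)) * ee Q (n + 1 - 1 - j)) =
      - ∑ p ∈ range (n + 1), (n.choose p : ℝ) • (ee Q (n - p) * ee Q p) := by
    rw [← sum_neg_distrib]
    refine sum_congr rfl fun j hj => ?_
    have hj := mem_range.mp hj
    rw [show n + 1 - 1 - j = n - j by omega, show n - (n - j) = j by omega,
      Nat.choose_symm (by omega), ee_ee Q j, smul_neg]
  rw [h2] at h
  have h3 : (2 : ℝ) • ∑ p ∈ range (n + 1), (n.choose p : ℝ) • (ee Q (n - p) * ee Q p) = 0 := by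
    rw [two_smul]; nth_rewrite 1 [← h]; simp
  exact (smul_eq_zero.mp h3).resolve_left two_ne_zero

theorem bb_lm {Q : ℕ} (hQ : 1 ≤ Q) (a : ℕ) : bb Q a * lm Q =
    lm Q * bb Q a + ((a : ℝ) * (2 - ((a : ℝ) + 1) / Q)) • bb Q (a - 1) := by
  have hQ0 : (Q : ℝ) ≠ 0 := by positivity
  simp only [bb, sum_mul, mul_sum, smul_mul_assoc, mul_smul_comm, ee2_lm hQ, smul_add,
    sum_add_distrib]
  congr 1
  rcases a with _ | a
  · simp [ee_sq]
  rw [sum_range_succ' (fun p => ((a + 1).choose p : ℝ) • ((p : ℝ) * (1 - ((p : ℝ) - 1) / Q)) •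
    (ee Q (a + 1 + 1 - p) * ee Q (p - 1)))]
  have h0 := sum_choose_ee Q (a + 1)
  simp only [Nat.cast_zero, zero_mul, zero_smul, smul_zero, add_zero, Nat.add_sub_cancel]
  rw [sum_range_succ] at h0
  rw [sum_range_succ (fun p => ((a + 1).choose p : ℝ) • (((a + 1 + 1 - p : ℕ) : ℝ) *
    (1 - (((a + 1 + 1 - p : ℕ) : ℝ) - 1) / Q)) • (ee Q (a + 1 + 1 - p - 1) * ee Q p))]
  have e0 : ((a + 1).choose (a + 1) : ℝ) • (((a + 1 + 1 - (a + 1) : ℕ) : ℝ) *
      (1 - (((a + 1 + 1 - (a + 1) : ℕ) : ℝ) - 1) / Q)) •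
        (ee Q (a + 1 + 1 - (a + 1) - 1) * ee Q (a + 1)) =
      - ∑ p ∈ range (a + 1), ((a + 1).choose p : ℝ) • (ee Q (a + 1 - p) * ee Q p) := by
    rw [← eq_neg_of_add_eq_zero_right h0]
    simp
  rw [e0, smul_sum, ← sum_neg_distrib, ← sum_add_distrib, ← sum_add_distrib]
  refine sum_congr rfl fun p hp => ?_
  have hp := mem_range.mp hp
  rw [show a + 1 + 1 - p - 1 = a + 1 - p by omega, show a + 1 + 1 - (p + 1) = a + 1 - p by omega]
  simp only [smul_smul, ← neg_smul, ← add_smul]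
  congr 1
  have h1 : (((a + 1).choose (p + 1) : ℕ) : ℝ) * (p + 1) = (a + 1).choose p * ((a : ℝ) + 1 - p) := by
    have := Nat.choose_succ_right_eq (a + 1) p
    have h2 := congrArg (Nat.cast : ℕ → ℝ) this
    push_cast [Nat.cast_sub (show p ≤ a + 1 by omega)] at h2
    exact h2
  have h2 : ((a : ℝ) + 1) * a.choose p = (a + 1).choose p * ((a : ℝ) + 1 - p) := by
    have := Nat.choose_mul_succ_eq a p
    have h2 := congrArg (Nat.cast : ℕ → ℝ) this
    push_cast [Nat.cast_sub (show p ≤ a + 1 by omega)] at h2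
    linarith
  push_cast [Nat.cast_sub (show p ≤ a + 1 + 1 by omega)]
  have h3 : (((a + 1).choose (p + 1) : ℕ) : ℝ) * ((p + 1) * (1 - ((p : ℝ) + 1 - 1) / Q)) =
      (a + 1).choose p * ((a : ℝ) + 1 - p) * (1 - ((p : ℝ) + 1 - 1) / Q) := by
    rw [← h1]; ring
  have h4 : ((a : ℝ) + 1) * (2 - ((a : ℝ) + 1 + 1) / Q) * a.choose p =
      (a + 1).choose p * ((a : ℝ) + 1 - p) * (2 - ((a : ℝ) + 1 + 1) / Q) := by
    rw [← h2]; ring
  rw [h3, h4]
  field_simp
  ring

theorem bb_top {Q a : ℕ} (ha : 2 * Q ≤ a + 1) : bb Q a = 0 := by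
  refine sum_eq_zero fun p hp => ?_
  have hp := mem_range.mp hp
  by_cases h1 : Q < p
  · simp [ee, wt_eq_zero h1]
  by_cases h2 : Q < a + 1 - p
  · simp [ee, wt_eq_zero h2]
  rw [show a + 1 - p = p by omega, ee_sq, smul_zero]

theorem ee_bb (Q p a : ℕ) : ee Q p * bb Q a = bb Q a * ee Q p := by
  simp only [bb, mul_sum, sum_mul, mul_smul_comm, smul_mul_assoc]
  refine sum_congr rfl fun r _ => ?_
  congr 1
  rw [← mul_assoc, ee_ee Q p, neg_mul, mul_assoc, ee_ee Q p]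
  simp [mul_assoc]

theorem bb_bb (Q a b : ℕ) : bb Q a * bb Q b = bb Q b * bb Q a := by
  conv_lhs => rw [bb]
  conv_rhs => rw [show bb Q a = ∑ p ∈ range (a + 1), (a.choose p : ℝ) •
    (ee Q (a + 1 - p) * ee Q p) from rfl]
  simp only [mul_sum, sum_mul, mul_smul_comm, smul_mul_assoc]
  refine sum_congr rfl fun r _ => ?_
  congr 1
  rw [mul_assoc, ee_bb, ← mul_assoc, ee_bb, mul_assoc]

theorem ee_cre (Q p r : ℕ) :
    ee Q p * cre r = (if p = r then wt Q p else 0) • (1 : Op) - cre r * ee Q p := by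
  have h1 : ann p * cre r = (if p = r then 1 else 0) - cre r * ann p :=
    eq_sub_of_add_eq (ann_cre p r)
  simp only [ee, smul_mul_assoc, mul_smul_comm, h1, smul_sub]
  split_ifs <;> simp

theorem ee2_cre (Q p q r : ℕ) : ee Q q * ee Q p * cre r = cre r * (ee Q q * ee Q p) +
    ((if p = r then wt Q p else 0) • ee Q q - (if q = r then wt Q q else 0) • ee Q p) := by
  rw [mul_assoc, ee_cre, mul_sub, ← mul_assoc, ee_cre]
  simp only [mul_smul_comm, mul_one, sub_mul, smul_mul_assoc, one_mul, mul_assoc]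
  abel

theorem bb_cre0 (Q a : ℕ) : bb Q a * cre 0 = cre 0 * bb Q a + ee Q (a + 1) := by
  simp only [bb, sum_mul, mul_sum, smul_mul_assoc, mul_smul_comm, ee2_cre, smul_add,
    sum_add_distrib]
  congr 1
  rw [sum_eq_single 0]
  · simp [wt_zero]
  · intro p hp h0
    have hp := mem_range.mp hp
    rw [if_neg h0, if_neg (by omega)]; simp
  · simp

theorem bb_cre1 {Q : ℕ} (hQ : 1 ≤ Q) (a : ℕ) :
    bb Q a * cre 1 = cre 1 * bb Q a + ((a : ℝ) - 1) • ee Q a := by
  simp only [bb, sum_mul, mul_sum, smul_mul_assoc, mul_smul_comm, ee2_cre, smul_add,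
    sum_add_distrib, smul_sub, sum_sub_distrib, sub_smul]
  congr 2
  · rw [sum_eq_single 1]
    · simp [wt_one hQ]
    · intro p _ h0
      simp [h0]
    · intro h
      have : a = 0 := by simpa using h
      simp [this]
  · rw [sum_eq_single a]
    · simp [wt_one hQ]
    · intro p hp h0
      have hp := mem_range.mp hp
      rw [if_neg (by omega)]; simp
    · simp

theorem nu_zero (Q : ℕ) : nu Q 0 = 1 := by simp [nu]
theorem nu_succ {Q a : ℕ} (hQ : 1 ≤ Q) (ha : a + 2 ≤ 2 * Q) :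
    nu Q (a + 1) = ((a : ℝ) + 1) * (2 - ((a : ℝ) + 2) / Q) * nu Q a := by
  have hQ0 : (Q : ℝ) ≠ 0 := by positivity
  unfold nu
  rw [Nat.descFactorial_succ, Nat.factorial_succ]
  push_cast [Nat.cast_sub (show a ≤ 2 * Q - 2 by omega), Nat.cast_sub (show 2 ≤ 2 * Q by omega)]
  field_simp
  ring
theorem nu_pos {Q a : ℕ} (ha : a + 2 ≤ 2 * Q) : 0 < nu Q a := by
  have h1 : 0 < (2 * Q - 2).descFactorial a := Nat.descFactorial_pos.mpr (by omega)
  have h2 : 0 < Q := by omega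
  unfold nu
  positivity
theorem nu_nonneg (Q a : ℕ) : 0 ≤ nu Q a := by unfold nu; positivity

theorem hform_comm (Q : ℕ) (ψ χ : Fk) : hform Q ψ χ = hform Q χ ψ := by
  simp only [hform, ip_comm Q (bb Q _ ψ)]

theorem hform_lp {Q : ℕ} (hQ : 1 ≤ Q) (ψ χ : Fk) :
    hform Q (lp Q ψ) χ = hform Q ψ (lm Q χ) := by
  have h1 : ∀ a, bb Q a (lp Q ψ) = lp Q (bb Q a ψ) + bb Q (a + 1) ψ := fun a =>
    congrArg (fun X : Op => X ψ) (bb_lp hQ a)
  have h2 : ∀ a, bb Q a (lm Q χ) = lm Q (bb Q a χ) +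
      ((a : ℝ) * (2 - ((a : ℝ) + 1) / Q)) • bb Q (a - 1) χ := fun a =>
    congrArg (fun X : Op => X χ) (bb_lm hQ a)
  simp only [hform, h1, h2, ip_add_left, ip_add_right, ip_smul_right, ip_lp, mul_add,
    sum_add_distrib]
  congr 1
  obtain ⟨n, hn⟩ : ∃ n, 2 * Q - 1 = n + 1 := ⟨2 * Q - 2, by omega⟩
  rw [hn, sum_range_succ, sum_range_succ', bb_top (Q := Q) (a := n + 1) (by omega)]
  simp only [LinearMap.zero_apply, ip_zero_left, mul_zero, add_zero, Nat.cast_zero, zero_mul,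
    Nat.add_sub_cancel]
  refine sum_congr rfl fun a ha => ?_
  have ha := mem_range.mp ha
  have p1 := nu_pos (Q := Q) (a := a) (by omega)
  have p2 := nu_pos (Q := Q) (a := a + 1) (by omega)
  have e := nu_succ hQ (a := a) (by omega)
  push_cast
  rw [← mul_assoc]
  congr 1
  rw [show (a : ℝ) + 1 + 1 = a + 2 by ring]
  field_simp
  rw [e]; field_simp

theorem Sup.cre_ann {N Q : ℕ} {ψ : Fk} (h : Sup N Q ψ) {i : ℕ} (hi : i ≤ Q) (j : ℕ) :
    Sup N Q (Vale.Agent.P359.cre i (Vale.Agent.P359.ann j ψ)) := by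
  rcases N with _ | N
  · rw [h.ann_zero, map_zero]; exact Sup.zero _ _
  · exact (h.ann j).cre hi

theorem Sup.lp {N Q : ℕ} {ψ : Fk} (h : Sup N Q ψ) : Sup N Q (lp Q ψ) := by
  simp only [Vale.Agent.P359.lp, LinearMap.sum_apply, LinearMap.smul_apply, Module.End.mul_apply]
  exact Sup.sum _ _ fun j hj => (h.cre_ann (mem_range.mp hj).le _).smul _
theorem Sup.lm {N Q : ℕ} {ψ : Fk} (h : Sup N Q ψ) : Sup N Q (lm Q ψ) := by
  simp only [Vale.Agent.P359.lm, LinearMap.sum_apply, LinearMap.smul_apply, Module.End.mul_apply]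
  exact Sup.sum _ _ fun j hj => (h.cre_ann (mem_range.mp hj) _).smul _
theorem Sup.bb {N Q : ℕ} {ψ : Fk} (h : Sup (N + 2) Q ψ) (a : ℕ) : Sup N Q (bb Q a ψ) := by
  simp only [Vale.Agent.P359.bb, ee, LinearMap.sum_apply, LinearMap.smul_apply,
    Module.End.mul_apply, map_smul]
  exact Sup.sum _ _ fun j _ => ((((h.ann _).ann _).smul _).smul _).smul _
theorem Sup.bb_lt {N Q : ℕ} {ψ : Fk} (h : Sup N Q ψ) (hN : N < 2) (a : ℕ) :
    Vale.Agent.P359.bb Q a ψ = 0 := by
  simp only [Vale.Agent.P359.bb, ee, LinearMap.sum_apply, LinearMap.smul_apply,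
    Module.End.mul_apply, map_smul]
  refine sum_eq_zero fun p _ => ?_
  interval_cases N
  · simp [h.ann_zero]
  · simp [(h.ann p).ann_zero]

/-! the form `G` -/

theorem St.G_comm (s : St) (X Y : Op) : s.G X Y = s.G Y X := by
  simp only [St.G, ip_comm s.Q (X _)]
theorem St.G_add_left (s : St) (X X' Y : Op) : s.G (X + X') Y = s.G X Y + s.G X' Y := by
  simp only [St.G, LinearMap.add_apply, ip_add_left, sum_add_distrib]
theorem St.G_add_right (s : St) (X Y Y' : Op) : s.G X (Y + Y') = s.G X Y + s.G X Y' := by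
  simp only [St.G, LinearMap.add_apply, ip_add_right, sum_add_distrib]
theorem St.G_smul_left (s : St) (c : ℝ) (X Y : Op) : s.G (c • X) Y = c * s.G X Y := by
  simp only [St.G, LinearMap.smul_apply, ip_smul_left, mul_sum]
theorem St.G_smul_right (s : St) (c : ℝ) (X Y : Op) : s.G X (c • Y) = c * s.G X Y := by
  simp only [St.G, LinearMap.smul_apply, ip_smul_right, mul_sum]
theorem St.G_neg_left (s : St) (X Y : Op) : s.G (-X) Y = - s.G X Y := by
  simp only [St.G, LinearMap.neg_apply, ip_neg_left, sum_neg_distrib]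
theorem St.G_neg_right (s : St) (X Y : Op) : s.G X (-Y) = - s.G X Y := by
  simp only [St.G, LinearMap.neg_apply, ip_neg_right, sum_neg_distrib]
theorem St.G_sub_left (s : St) (X X' Y : Op) : s.G (X - X') Y = s.G X Y - s.G X' Y := by
  simp only [St.G, LinearMap.sub_apply, ip_sub_left, sum_sub_distrib]
theorem St.G_sub_right (s : St) (X Y Y' : Op) : s.G X (Y - Y') = s.G X Y - s.G X Y' := by
  simp only [St.G, LinearMap.sub_apply, ip_sub_right, sum_sub_distrib]
theorem St.G_zero_left (s : St) (Y : Op) : s.G 0 Y = 0 := by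
  simp [St.G, ip_zero_left]
theorem St.G_zero_right (s : St) (X : Op) : s.G X 0 = 0 := by
  simp [St.G, ip_zero_right]
theorem St.G_sum_left {ι : Type*} (s : St) (t : Finset ι) (f : ι → Op) (Y : Op) :
    s.G (∑ i ∈ t, f i) Y = ∑ i ∈ t, s.G (f i) Y := by
  simp only [St.G, LinearMap.sum_apply, ip_sum_left]
  exact sum_comm
theorem St.G_sum_right {ι : Type*} (s : St) (t : Finset ι) (X : Op) (f : ι → Op) :
    s.G X (∑ i ∈ t, f i) = ∑ i ∈ t, s.G X (f i) := by
  simp only [St.G, LinearMap.sum_apply, ip_sum_right]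
  exact sum_comm
theorem St.G_self_nonneg (s : St) (X : Op) : 0 ≤ s.G X X :=
  sum_nonneg fun _ _ => ip_self_nonneg _ _
/-- Cauchy-Schwarz -/
theorem St.G_sq_le (s : St) (X Y : Op) : s.G X Y ^ 2 ≤ s.G X X * s.G Y Y := by
  have h : ∀ t : ℝ, 0 ≤ s.G X X * (t * t) + (2 * s.G X Y) * t + s.G Y Y := by
    intro t
    have := s.G_self_nonneg (t • X + Y)
    simp only [s.G_add_left, s.G_add_right, s.G_smul_left, s.G_smul_right, s.G_comm Y X] at this
    linarith
  have := discrim_le_zero h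
  unfold discrim at this
  nlinarith
/-- invariance -/
theorem St.G_inv (s : St) (X Y : Op) :
    s.G (X * lm s.Q - lm s.Q * X) Y = s.G X (Y * lp s.Q - lp s.Q * Y) := by
  rw [s.G_sub_left, s.G_sub_right]
  congr 1
  · simp only [St.G, Module.End.mul_apply, s.hlp, s.hlm, map_sum, map_smul, ip_sum_left,
      ip_sum_right, ip_smul_left, ip_smul_right]
    exact sum_comm
  · simp only [St.G, Module.End.mul_apply]
    refine sum_congr rfl fun j _ => ?_
    rw [ip_comm, ← ip_lp, ip_comm]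
theorem St.G_ee_le (s : St) (p : ℕ) (X : Op) :
    s.G (ee s.Q p * X) (ee s.Q p * X) ≤ wt s.Q p ^ 2 * s.G X X := by
  simp only [St.G, Module.End.mul_apply, mul_sum]
  exact sum_le_sum fun j _ => ip_ee_le _ _ _
theorem St.G_bb (s : St) (hQ : 1 ≤ s.Q) (a : ℕ) :
    s.G (bb s.Q a) (bb s.Q a) = nu s.Q a * s.x := by
  induction a with
  | zero => simp [nu_zero, St.x]
  | succ a ih =>
    by_cases ha : a + 2 ≤ 2 * s.Q
    · have h := s.G_inv (bb s.Q (a + 1)) (bb s.Q a)
      rw [bb_lm hQ, bb_lp hQ, add_sub_cancel_left, add_sub_cancel_left, s.G_smul_left,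
        Nat.add_sub_cancel, ih] at h
      rw [← h, nu_succ hQ ha]
      push_cast; ring
    · rw [bb_top (by omega), s.G_zero_left]
      have : (2 * s.Q - 2).descFactorial (a + 1) = 0 := Nat.descFactorial_of_lt (by omega)
      rw [nu, this]; simp
theorem St.x_nonneg (s : St) : 0 ≤ s.x := s.G_self_nonneg _

end Vale.Agent.P359
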