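import Vale.Agent.P359.Sl2

/-! T3: from the core inequality to the gap in Fock space (spectral theorem). -/

namespace Vale.Agent.P359

open Finset

theorem hform_add_right (Q : ℕ) (ψ φ χ : Fk) :
    hform Q χ (ψ + φ) = hform Q χ ψ + hform Q χ φ := by
  simp only [hform, map_add, ip_add_right, mul_add, sum_add_distrib]

theorem hform_smul_right (Q : ℕ) (c : ℝ) (ψ χ : Fk) :
    hform Q χ (c • ψ) = c * hform Q χ ψ := by
  simp only [hform, map_smul, ip_smul_right, mul_sum]
  exact sum_congr rfl fun _ _ => by ring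

theorem hform_sum_right {ι : Type*} (Q : ℕ) (s : Finset ι) (f : ι → Fk) (χ : Fk) :
    hform Q χ (∑ i ∈ s, f i) = ∑ i ∈ s, hform Q χ (f i) := by
  simp only [hform, map_sum, ip_sum_right, mul_sum]
  rw [sum_comm]

theorem hform_sum_left {ι : Type*} (Q : ℕ) (s : Finset ι) (f : ι → Fk) (χ : Fk) :
    hform Q (∑ i ∈ s, f i) χ = ∑ i ∈ s, hform Q (f i) χ := by
  rw [hform_comm, hform_sum_right]
  exact sum_congr rfl fun _ _ => hform_comm _ _ _

theorem hform_smul_left (Q : ℕ) (c : ℝ) (ψ χ : Fk) :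
    hform Q (c • ψ) χ = c * hform Q ψ χ := by
  rw [hform_comm, hform_smul_right, hform_comm]

theorem hform_add_left (Q : ℕ) (ψ φ χ : Fk) :
    hform Q (ψ + φ) χ = hform Q ψ χ + hform Q φ χ := by
  rw [hform_comm, hform_add_right, hform_comm Q χ, hform_comm Q χ]

/-- index set of the `N`-particle sector -/
abbrev Idx (N Q : ℕ) := {S // S ∈ powersetCard N (range (Q + 1))}

/-- extension by zero -/
noncomputable def extz (N Q : ℕ) : EuclideanSpace ℝ (Idx N Q) →ₗ[ℝ] Fk where
  toFun u := Fk.mk fun S => if h : S ∈ powersetCard N (range (Q + 1)) then u ⟨S, h⟩ else 0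
  map_add' u w := by
    ext S
    by_cases h : S ∈ powersetCard N (range (Q + 1)) <;>
      simp only [h, dite_true, dite_false, Fk.add_apply, Fk.mk_apply, PiLp.add_apply, add_zero]
  map_smul' c u := by
    ext S
    by_cases h : S ∈ powersetCard N (range (Q + 1)) <;>
      simp only [h, dite_true, dite_false, Fk.smul_apply, Fk.mk_apply, PiLp.smul_apply, mul_zero,
        RingHom.id_apply, smul_eq_mul]

theorem extz_apply (N Q : ℕ) (u : EuclideanSpace ℝ (Idx N Q)) (S : Finset ℕ) :
    extz N Q u S = if h : S ∈ powersetCard N (range (Q + 1)) then u ⟨S, h⟩ else 0 := rfl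

/-- restriction -/
noncomputable def resz (N Q : ℕ) (ψ : Fk) : EuclideanSpace ℝ (Idx N Q) :=
  WithLp.toLp 2 fun s => ψ s.1

theorem sup_extz (N Q : ℕ) (u : EuclideanSpace ℝ (Idx N Q)) : Sup N Q (extz N Q u) := by
  intro S hS
  rw [extz_apply] at hS
  by_cases h : S ∈ powersetCard N (range (Q + 1))
  · exact mem_powersetCard.1 h
  · exact absurd (dif_neg h) hS

theorem extz_resz {N Q : ℕ} {ψ : Fk} (h : Sup N Q ψ) : extz N Q (resz N Q ψ) = ψ := by
  funext S
  rw [extz_apply]
  split_ifs with hS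
  · rfl
  · by_contra hc
    exact hS (mem_powersetCard.2 (h S (Ne.symm hc)))

theorem ip_extz (N Q : ℕ) (u w : EuclideanSpace ℝ (Idx N Q)) :
    ip Q (extz N Q u) (extz N Q w) = inner ℝ u w := by
  rw [ip, ← sum_subset (s₁ := powersetCard N (range (Q + 1)))
    (fun S hS => mem_powerset.2 (mem_powersetCard.1 hS).1)
    (fun S _ hS => by rw [extz_apply, dif_neg hS, zero_mul]), ← sum_coe_sort, PiLp.inner_apply]
  refine sum_congr rfl fun s _ => ?_
  rw [extz_apply, extz_apply, dif_pos s.2, dif_pos s.2]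
  simp [mul_comm]

theorem exists_eig (N Q : ℕ) : ∃ (n : ℕ) (v : Fin n → Fk) (μ : Fin n → ℝ),
    (∀ i, Sup N Q (v i)) ∧ (∀ i j, ip Q (v i) (v j) = if i = j then 1 else 0) ∧
    (∀ ψ, Sup N Q ψ → ψ = ∑ k, ip Q (v k) ψ • v k) ∧
    ∀ i ψ, Sup N Q ψ → hform Q (v i) ψ = μ i * ip Q (v i) ψ := by
  let H : EuclideanSpace ℝ (Idx N Q) →ₗ[ℝ] EuclideanSpace ℝ (Idx N Q) :=
    { toFun := fun u => WithLp.toLp 2 fun s =>
        hform Q (extz N Q u) (extz N Q (EuclideanSpace.basisFun _ ℝ s))
      map_add' := fun u w => by ext s; simp only [map_add, hform_add_left, PiLp.add_apply]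
      map_smul' := fun c u => by
        ext s; simp only [map_smul, hform_smul_left, PiLp.smul_apply, RingHom.id_apply, smul_eq_mul] }
  have hH : ∀ u w, inner ℝ (H u) w = hform Q (extz N Q u) (extz N Q w) := by
    intro u w
    conv_rhs => rw [← (EuclideanSpace.basisFun _ ℝ).sum_repr w]
    rw [map_sum, hform_sum_right, PiLp.inner_apply]
    refine sum_congr rfl fun s _ => ?_
    rw [map_smul, hform_smul_right]
    simp [H]
  have hsym : H.IsSymmetric := by
    intro u w
    rw [hH, real_inner_comm, hH, hform_comm]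
  let b := hsym.eigenvectorBasis rfl
  refine ⟨_, fun i => extz N Q (b i), hsym.eigenvalues rfl, fun i => sup_extz _ _ _, ?_, ?_, ?_⟩
  · intro i j
    rw [ip_extz]
    exact orthonormal_iff_ite.1 b.orthonormal i j
  · intro ψ hψ
    have e := congrArg (extz N Q) (b.sum_repr' (resz N Q ψ))
    rw [map_sum, extz_resz hψ] at e
    conv_lhs => rw [← e]
    refine sum_congr rfl fun k _ => ?_
    rw [map_smul, ← ip_extz, extz_resz hψ]
  · intro i ψ hψ
    rw [← extz_resz hψ, ← hH, ip_extz, hsym.apply_eigenvectorBasis, real_inner_smul_left]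
    rfl

theorem sup_probe {N Q : ℕ} (hQ : 1 ≤ Q) {ψ : Fk} (h : Sup N Q ψ) :
    Sup N Q (cre 0 (cre 1 (bb Q 0 ψ))) := by
  by_cases hN : N < 2
  · rw [h.bb_lt hN, map_zero, map_zero]; exact Sup.zero _ _
  · obtain ⟨m, rfl⟩ : ∃ m, N = m + 2 := ⟨N - 2, by omega⟩
    exact ((h.bb 0).cre hQ).cre (Nat.zero_le Q)

theorem bb_eq_zero {N Q : ℕ} {ψ : Fk} (h : Sup N Q ψ) (h0 : hform Q ψ ψ = 0) (a : ℕ) :
    bb Q a ψ = 0 := by
  by_cases hN : N < 2
  · exact h.bb_lt hN a
  obtain ⟨m, rfl⟩ : ∃ m, N = m + 2 := ⟨N - 2, by omega⟩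
  by_cases ha : 2 * Q ≤ a + 1
  · rw [bb_top ha]; rfl
  have h1 := (sum_eq_zero_iff_of_nonneg (fun a _ =>
    mul_nonneg (inv_nonneg.2 (nu_nonneg Q a)) (ip_self_nonneg Q (bb Q a ψ)))).1 h0 a
    (mem_range.2 (by omega))
  have h2 := nu_pos (Q := Q) (a := a) (by omega)
  exact (h.bb a).eq_zero_of_ip ((mul_eq_zero.1 h1).resolve_left (inv_pos.2 h2).ne')

theorem fockGap_of_coreGap {δ : ℝ} {Q : ℕ} (hQ : 1 ≤ Q) (h : CoreGap δ Q) : FockGap δ Q := by
  classical
  intro N Ψ hΨ
  obtain ⟨n, v, μ, hs, hon, hex, heig⟩ := exists_eig N Q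
  have hvan : ∀ j k, μ j ≠ μ k → ip Q (v j) (lp Q (v k)) = 0 := by
    intro j k hjk
    have e1 := heig j _ (hs k).lp
    rw [hform_comm, hform_lp hQ, heig k _ (hs j).lm, ← ip_lp, ip_comm] at e1
    have : (μ j - μ k) * ip Q (v j) (lp Q (v k)) = 0 := by linarith
    exact (mul_eq_zero.1 this).resolve_left (sub_ne_zero.2 hjk)
  have hgap : ∀ i, μ i ≠ 0 → δ ≤ μ i := by
    intro i hi
    let e := (Fintype.equivFin {j // μ j = μ i}).symm
    have hsum : ∀ f : Fin n → Fk, (∀ j, μ j ≠ μ i → f j = 0) →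
        ∑ j, f j = ∑ j, f (e j) := by
      intro f hf
      rw [e.sum_comp (fun j => f j), ← sum_subtype (univ.filter fun j => μ j = μ i) (by simp),
        sum_filter]
      refine sum_congr rfl fun j _ => ?_
      split_ifs with hj
      · rfl
      · exact hf j hj
    let s : St :=
      { Q := Q
        n := _
        v := fun j => v (e j)
        E := μ i
        Λ := fun j k => ip Q (v (e j)) (lp Q (v (e k)))
        hlp := fun k => by
          conv_lhs => rw [hex _ (hs (e k)).lp]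
          exact hsum _ fun j hj => by rw [hvan j _ (by rw [(e k).2]; exact hj), zero_smul]
        hlm := fun j => by
          conv_lhs => rw [hex _ (hs (e j)).lm]
          rw [hsum]
          · exact sum_congr rfl fun k _ => by rw [← ip_lp, ip_comm]
          · intro k hk
            rw [← ip_lp, ip_comm, hvan _ k (by rw [(e j).2]; exact hk.symm), zero_smul]
        heig := fun j => by rw [heig _ _ (sup_probe hQ (hs _)), (e j).2] }
    have h1 : ∑ j, hform Q (s.v j) (s.v j) = ∑ _a ∈ range (2 * Q - 1), s.x := by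
      simp only [hform]
      rw [sum_comm]
      refine sum_congr rfl fun a ha => ?_
      rw [← mul_sum]
      have := s.G_bb hQ a
      have h2 := nu_pos (Q := Q) (a := a) (by rw [mem_range] at ha; omega)
      change (nu Q a)⁻¹ * s.G (bb s.Q a) (bb s.Q a) = _
      rw [this]
      change (nu Q a)⁻¹ * (nu Q a * s.x) = _
      rw [← mul_assoc, inv_mul_cancel₀ h2.ne', one_mul]
    have h2 : ∑ j, hform Q (s.v j) (s.v j) = ∑ _j : Fin s.n, μ i := by
      refine sum_congr rfl fun j _ => ?_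
      change hform Q (v (e j)) (v (e j)) = _
      rw [heig _ _ (hs _), hon, if_pos rfl, mul_one, (e j).2]
    have hn : s.n ≠ 0 := by
      change Fintype.card {j // μ j = μ i} ≠ 0
      exact (Fintype.card_pos_iff.2 ⟨⟨i, rfl⟩⟩).ne'
    have hx : s.x ≠ 0 := by
      intro hx
      rw [h2, hx] at h1
      simp [hi, hn] at h1
    exact le_of_mul_le_mul_right (h s rfl) (lt_of_le_of_ne s.x_nonneg hx.symm)
  set c : Fin n → ℝ := fun k => ip Q (v k) Ψ with hc
  refine ⟨∑ k, (if μ k = 0 then c k else 0) • v k, Sup.sum _ _ fun k _ => (hs k).smul _, ?_, ?_⟩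
  · intro a
    rw [map_sum]
    refine sum_eq_zero fun k _ => ?_
    rw [map_smul]
    split_ifs with hk
    · rw [bb_eq_zero (hs k) (by rw [heig _ _ (hs k), hk, zero_mul]), smul_zero]
    · rw [zero_smul]
  · have e1 : Ψ - ∑ k, (if μ k = 0 then c k else 0) • v k
        = ∑ k, (if μ k = 0 then 0 else c k) • v k := by
      conv_lhs => rw [hex Ψ hΨ]
      rw [← sum_sub_distrib]
      refine sum_congr rfl fun k _ => ?_
      rw [← sub_smul]; congr 1
      split_ifs <;> simp [hc]
    have e2 : ∀ d : Fin n → ℝ, ip Q (∑ k, d k • v k) (∑ k, d k • v k) = ∑ k, d k ^ 2 := by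
      intro d
      rw [ip_sum_left]
      refine sum_congr rfl fun k _ => ?_
      simp only [ip_smul_left, ip_sum_right, ip_smul_right, hon, mul_ite, mul_one, mul_zero,
        sum_ite_eq, mem_univ, if_true, sq]
    have e3 : hform Q Ψ Ψ = ∑ k, μ k * c k ^ 2 := by
      conv_lhs => enter [2]; rw [hex Ψ hΨ]
      rw [hform_sum_left]
      refine sum_congr rfl fun k _ => ?_
      rw [hform_smul_left, heig k Ψ hΨ]; ring
    rw [e1, e2, e3, mul_sum]
    refine sum_le_sum fun k _ => ?_
    split_ifs with hk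
    · simp [hk]
    · exact mul_le_mul_of_nonneg_right (hgap k hk) (sq_nonneg _)

end Vale.Agent.P359
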