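import Vale.Agent.P359.Asym

/-! Symbolic operators, commutator terms and the reduction of local positivity to a finite statement. -/

namespace Vale.Agent.P359

open Finset Filter Asymptotics Topology

/-- integer combinations of `e_{w₁} ⋯ e_{w_k} b_a` -/
abbrev SLin := List (ℤ × List ℕ × ℕ)

noncomputable def wordOp (f : ℕ → Op) (w : List ℕ) : Op := (w.map f).prod

noncomputable def bbOf (f : ℕ → Op) (a : ℕ) : Op :=
  ∑ p ∈ range (a + 1), (a.choose p : ℝ) • (f (a + 1 - p) * f p)

noncomputable def slin (f : ℕ → Op) (x : SLin) : Op :=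
  (x.map fun t => (t.1 : ℝ) • (wordOp f t.2.1 * bbOf f t.2.2)).sum

theorem bbOf_ee (Q a : ℕ) : bbOf (ee Q) a = bb Q a := rfl

@[simp] theorem slin_nil (f : ℕ → Op) : slin f [] = 0 := rfl
@[simp] theorem slin_cons (f : ℕ → Op) (t : ℤ × List ℕ × ℕ) (x : SLin) :
    slin f (t :: x) = (t.1 : ℝ) • (wordOp f t.2.1 * bbOf f t.2.2) + slin f x := by simp [slin]
@[simp] theorem slin_append (f : ℕ → Op) (x y : SLin) :
    slin f (x ++ y) = slin f x + slin f y := by simp [slin]
@[simp] theorem wordOp_nil (f : ℕ → Op) : wordOp f [] = 1 := rfl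
@[simp] theorem wordOp_cons (f : ℕ → Op) (p : ℕ) (w : List ℕ) :
    wordOp f (p :: w) = f p * wordOp f w := by simp [wordOp]

def consW (p : ℕ) (x : SLin) : SLin := x.map fun t => (t.1, p :: t.2.1, t.2.2)

theorem slin_consW (f : ℕ → Op) (p : ℕ) (x : SLin) : slin f (consW p x) = f p * slin f x := by
  induction x with
  | nil => simp [consW]
  | cons t x ih =>
    simp only [consW, List.map_cons, slin_cons, wordOp_cons, mul_add, mul_smul_comm,
      mul_assoc] at ih ⊢
    rw [ih]

def symU (c : ℤ) : List ℕ → ℕ → SLin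
  | [], a => [(c, [], a + 1)]
  | p :: w, a => (c, (p + 1) :: w, a) :: consW p (symU c w a)

def symT (c : ℤ) : List ℕ → ℕ → SLin
  | [], a => [(c * (2 * a), [], a - 1)]
  | p :: w, a => (c * p, (p - 1) :: w, a) :: consW p (symT c w a)

def linU : SLin → SLin
  | [] => []
  | t :: x => symU t.1 t.2.1 t.2.2 ++ linU x

def linT : SLin → SLin
  | [] => []
  | t :: x => symT t.1 t.2.1 t.2.2 ++ linT x

def linNeg (x : SLin) : SLin := x.map fun t => (-t.1, t.2)

theorem slin_linNeg (f : ℕ → Op) (x : SLin) : slin f (linNeg x) = - slin f x := by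
  induction x with
  | nil => simp [linNeg]
  | cons t x ih =>
    simp only [linNeg, List.map_cons, slin_cons] at ih ⊢
    rw [ih]; simp [add_comm]

theorem bd_word (w : List ℕ) (a : ℕ) : Bd fun Q => wordOp (ee Q) w * bb Q a := by
  induction w with
  | nil => simpa using Bd.bb a
  | cons p w ih => simpa [mul_assoc] using (Mu.ee p).bd ih

theorem bd_slin (x : SLin) : Bd fun Q => slin (ee Q) x := by
  induction x with
  | nil => simpa using Bd.zero
  | cons t x ih => simpa [bbOf_ee] using ((bd_word t.2.1 t.2.2).smul t.1).add ih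

theorem uu_sym (c : ℤ) (w : List ℕ) (a : ℕ) :
    UU (fun Q => (c : ℝ) • (wordOp (ee Q) w * bb Q a)) (fun Q => slin (ee Q) (symU c w a)) := by
  induction w with
  | nil => simpa [symU, bbOf_ee] using (osc_bb.up a).smul c
  | cons p w ih =>
    have := (osc_ee.up p).mul ih
    simpa [symU, bbOf_ee, slin_consW, mul_assoc] using this

theorem tt_sym (c : ℤ) (w : List ℕ) (a : ℕ) :
    TT (fun Q => (c : ℝ) • (wordOp (ee Q) w * bb Q a)) (fun Q => slin (ee Q) (symT c w a)) := by
  induction w with
  | nil => simpa [symT, bbOf_ee, smul_smul] using (TT.bb a).smul c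
  | cons p w ih =>
    have := osc_ee.tt p ih ((bd_word w a).smul c)
    refine this.congr (fun Q _ => by simp [mul_assoc]) fun Q _ => ?_
    simp [symT, bbOf_ee, slin_consW, mul_assoc, smul_smul, mul_comm]

theorem uu_lin (x : SLin) : UU (fun Q => slin (ee Q) x) (fun Q => slin (ee Q) (linU x)) := by
  induction x with
  | nil => simpa [linU] using UU.zero
  | cons t x ih => simpa [linU, bbOf_ee] using (uu_sym t.1 t.2.1 t.2.2).add ih

theorem tt_lin (x : SLin) : TT (fun Q => slin (ee Q) x) (fun Q => slin (ee Q) (linT x)) := by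
  induction x with
  | nil => simpa [linT] using TT.zero
  | cons t x ih => simpa [linT, bbOf_ee] using (tt_sym t.1 t.2.1 t.2.2).add ih

noncomputable def termVal (s : St) (t : SLin × SLin) : ℝ :=
  s.G (slin (ee s.Q) t.1) (slin (ee s.Q) t.2)

def commTerms : List (SLin × SLin) → List (SLin × SLin)
  | [] => []
  | t :: L => (linT t.1, t.2) :: (linNeg t.1, linU t.2) :: commTerms L

theorem lo_comm (L : List (SLin × SLin)) : Lo fun s => ((commTerms L).map (termVal s)).sum := by
  induction L with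
  | nil => simpa [commTerms] using Lo.zero
  | cons t L ih =>
    refine ((lo_inv (tt_lin t.1) (uu_lin t.2) (bd_slin t.2)).add ih).congr fun s _ => ?_
    simp only [commTerms, List.map_cons, List.sum_cons, termVal, slin_linNeg, s.G_neg_left]
    ring

/-! ### localisation to the orbitals `0..8` -/

def localLin (x : SLin) : Bool := x.all fun t => t.2.1.all (fun p => decide (p < 9)) && decide (t.2.2 < 8)

noncomputable def gfac (r : Finset ℕ) : ℝ := ∏ p ∈ r, (p.factorial : ℝ)

/-- the finite positivity statement -/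
def LocPos (L : List (SLin × SLin)) : Prop :=
  ∀ u : Fk, 0 ≤ ∑ r ∈ (range 9).powerset,
    (gfac r)⁻¹ * (L.map fun t => slin ann t.1 u r * slin ann t.2 u r).sum

noncomputable def locMap (Q : ℕ) (ρ : Finset ℕ) : Op where
  toFun χ := Fk.mk fun s => (∏ p ∈ s, wt Q p) * χ (s ∪ ρ)
  map_add' ψ χ := by ext S; simp [mul_add]
  map_smul' c ψ := by ext S; simp [mul_left_comm]

theorem locMap_apply (Q : ℕ) (ρ : Finset ℕ) (χ : Fk) (s : Finset ℕ) :
    locMap Q ρ χ s = (∏ p ∈ s, wt Q p) * χ (s ∪ ρ) := rfl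

theorem locMap_ee (Q : ℕ) {ρ : Finset ℕ} (hρ : ∀ q ∈ ρ, 9 ≤ q) {p : ℕ} (hp : p < 9) :
    locMap Q ρ * ee Q p = ann p * locMap Q ρ := by
  ext χ s
  have hpρ : p ∉ ρ := fun h => by have := hρ p h; omega
  have hs : sgn p (s ∪ ρ) = sgn p s := by
    unfold sgn
    congr 2
    ext q
    simp only [mem_filter, mem_union]
    constructor
    · rintro ⟨h | h, h'⟩
      · exact ⟨h, h'⟩
      · have := hρ q h; omega
    · exact fun h => ⟨Or.inl h.1, h.2⟩
  simp only [Module.End.mul_apply, locMap_apply, ee, LinearMap.smul_apply, Fk.smul_apply,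
    ann_apply, mem_union, hpρ, or_false, hs]
  split_ifs with h
  · simp
  · rw [prod_insert h, insert_union]; ring

theorem locMap_slin (Q : ℕ) {ρ : Finset ℕ} (hρ : ∀ q ∈ ρ, 9 ≤ q) (x : SLin)
    (hx : localLin x = true) : locMap Q ρ * slin (ee Q) x = slin ann x * locMap Q ρ := by
  have hw : ∀ w : List ℕ, (∀ p ∈ w, p < 9) →
      locMap Q ρ * wordOp (ee Q) w = wordOp ann w * locMap Q ρ := by
    intro w hw
    induction w with
    | nil => simp
    | cons p w ih =>
      rw [wordOp_cons, wordOp_cons, ← mul_assoc, locMap_ee Q hρ (hw p List.mem_cons_self),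
        mul_assoc, ih fun q hq => hw q (List.mem_cons_of_mem _ hq), mul_assoc]
  have hb : ∀ a < 8, locMap Q ρ * bbOf (ee Q) a = bbOf ann a * locMap Q ρ := by
    intro a ha
    simp only [bbOf, mul_sum, sum_mul, mul_smul_comm, smul_mul_assoc]
    refine sum_congr rfl fun p hp => ?_
    have hp := mem_range.mp hp
    rw [← mul_assoc, locMap_ee Q hρ (by omega), mul_assoc, locMap_ee Q hρ (by omega), mul_assoc]
  induction x with
  | nil => simp
  | cons t x ih =>
    simp only [localLin, List.all_cons, Bool.and_eq_true, List.all_eq_true,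
      decide_eq_true_eq] at hx ih
    rw [slin_cons, slin_cons, mul_add, add_mul, ih hx.2, mul_smul_comm, smul_mul_assoc,
      ← mul_assoc, hw _ hx.1.1, mul_assoc, hb _ hx.1.2, mul_assoc]

theorem sum_powerset_union {A R : Finset ℕ} (h : Disjoint A R) (F : Finset ℕ → ℝ) :
    ∑ S ∈ (A ∪ R).powerset, F S = ∑ ρ ∈ R.powerset, ∑ r ∈ A.powerset, F (r ∪ ρ) := by
  induction A using Finset.induction_on generalizing F with
  | empty => simp
  | insert a A ha ih =>
    have h1 : a ∉ A ∪ R := by
      simp only [mem_union, ha, false_or]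
      exact disjoint_left.mp h (mem_insert_self _ _)
    have h2 : Disjoint A R := h.mono_left (subset_insert _ _)
    rw [insert_union, sum_powerset_insert h1, ih h2, ih h2, ← sum_add_distrib]
    refine sum_congr rfl fun ρ _ => ?_
    rw [sum_powerset_insert ha]
    simp only [insert_union]

noncomputable def theta (Q : ℕ) (S : Finset ℕ) : ℝ :=
  ∏ p ∈ S.filter (· < 9), wt Q p ^ 2 / p.factorial

noncomputable def ipT (Q : ℕ) (ψ χ : Fk) : ℝ :=
  ∑ S ∈ (range (Q + 1)).powerset, theta Q S * (ψ S * χ S)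

theorem list_sum_comm {ι κ : Type*} (L : List ι) (t : Finset κ) (f : ι → κ → ℝ) :
    (L.map fun i => ∑ k ∈ t, f i k).sum = ∑ k ∈ t, (L.map fun i => f i k).sum := by
  induction L with
  | nil => simp
  | cons a L ih => simp [ih, sum_add_distrib]

theorem ipT_nonneg {L : List (SLin × SLin)} (hL : LocPos L)
    (hl : ∀ t ∈ L, localLin t.1 = true ∧ localLin t.2 = true) {Q : ℕ} (hQ : 8 ≤ Q) (ψ : Fk) :
    0 ≤ (L.map fun t => ipT Q (slin (ee Q) t.1 ψ) (slin (ee Q) t.2 ψ)).sum := by
  simp only [ipT, list_sum_comm]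
  have hU : range (Q + 1) = range 9 ∪ (range (Q + 1) \ range 9) :=
    (union_sdiff_of_subset (range_mono (by omega))).symm
  rw [hU, sum_powerset_union disjoint_sdiff]
  refine sum_nonneg fun ρ hρ => ?_
  have hρ' : ∀ q ∈ ρ, 9 ≤ q := fun q hq => by
    have h1 := (Finset.mem_sdiff.mp (mem_powerset.mp hρ hq)).2
    rw [mem_range] at h1
    omega
  refine (hL (locMap Q ρ ψ)).trans_eq (sum_congr rfl fun r hr => ?_)
  rw [← List.sum_map_mul_left]
  congr 1
  refine List.map_congr_left fun t ht => ?_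
  have e : ∀ x, localLin x = true → slin ann x (locMap Q ρ ψ) r =
      (∏ p ∈ r, wt Q p) * slin (ee Q) x ψ (r ∪ ρ) := fun x hx => by
    have := congrArg (fun X : Op => X ψ r) (locMap_slin Q hρ' x hx)
    exact this.symm
  have hf : (r ∪ ρ).filter (· < 9) = r := by
    ext q
    simp only [mem_filter, mem_union]
    constructor
    · rintro ⟨h | h, h'⟩
      · exact h
      · have := hρ' q h; omega
    · exact fun h => ⟨Or.inl h, mem_range.mp (mem_powerset.mp hr h)⟩
  rw [e _ (hl t ht).1, e _ (hl t ht).2, theta, hf, prod_div_distrib, prod_pow, gfac]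
  ring

noncomputable def tau (Q : ℕ) : ℝ := ∏ p ∈ range 9, wt Q p ^ 2 / p.factorial

theorem theta_bounds (Q : ℕ) (S : Finset ℕ) : tau Q ≤ theta Q S ∧ theta Q S ≤ 1 := by
  have h0 : ∀ p, 0 ≤ wt Q p ^ 2 / (p.factorial : ℝ) := fun p => by positivity
  have h1 : ∀ p, wt Q p ^ 2 / (p.factorial : ℝ) ≤ 1 := fun p =>
    div_le_one_of_le₀ (wt_sq_le Q p) (by positivity)
  refine ⟨?_, prod_le_one (fun p _ => h0 p) fun p _ => h1 p⟩
  refine prod_le_prod_of_subset_of_le_one ?_ (fun p _ => h0 p) fun p _ _ => h1 p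
  intro p hp
  exact mem_range.mpr (mem_filter.mp hp).2

theorem tendsto_desc (k c : ℕ) (a : ℕ) : Tendsto
    (fun Q : ℕ => (((k * Q - c).descFactorial a : ℕ) : ℝ) / (Q : ℝ) ^ a) atTop (𝓝 (k ^ a)) := by
  rcases Nat.eq_zero_or_pos k with hk | hk
  · subst hk
    rcases a with _ | a <;> simp
  induction a with
  | zero => simp
  | succ a ih =>
    have h1 : Tendsto (fun Q : ℕ => (k : ℝ) - (c + a) / (Q : ℝ)) atTop (𝓝 (k - 0)) :=
      tendsto_const_nhds.sub (tendsto_div_Q _)
    have h2 := h1.mul ih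
    rw [sub_zero, ← pow_succ'] at h2
    refine h2.congr' ((eventually_ge_atTop (c + a + 1)).mono fun Q hQ => ?_)
    have hQ0 : (Q : ℝ) ≠ 0 := by
      have : 0 < Q := by omega
      positivity
    have h3 : Q ≤ k * Q := Nat.le_mul_of_pos_left Q hk
    simp only [Nat.descFactorial_succ]
    rw [Nat.sub_sub]
    push_cast [Nat.cast_sub (show c + a ≤ k * Q by omega)]
    field_simp
    ring

theorem tendsto_tau : Tendsto tau atTop (𝓝 1) := by
  have h := tendsto_finsetProd (f := fun (p Q : ℕ) => wt Q p ^ 2 / (p.factorial : ℝ))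
    (a := fun _ => (1 : ℝ)) (x := atTop) (range 9) fun p _ => by
      have := tendsto_desc 1 0 p
      simp only [one_mul, Nat.sub_zero, Nat.cast_one, one_pow] at this
      refine this.congr fun Q => ?_
      rw [wt_sq]
      have : (p.factorial : ℝ) ≠ 0 := by positivity
      field_simp
  rw [prod_const_one] at h
  exact h

theorem ipT_close (Q : ℕ) (ψ χ : Fk) :
    |ip Q ψ χ - ipT Q ψ χ| ≤ (1 - tau Q) * (ip Q ψ ψ + ip Q χ χ) := by
  simp only [ip, ipT, ← sum_sub_distrib, ← sum_add_distrib, mul_sum]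
  refine (abs_sum_le_sum_abs _ _).trans (sum_le_sum fun S _ => ?_)
  obtain ⟨h1, h2⟩ := theta_bounds Q S
  rw [show ψ S * χ S - theta Q S * (ψ S * χ S) = (1 - theta Q S) * (ψ S * χ S) by ring, abs_mul,
    abs_of_nonneg (by linarith)]
  refine mul_le_mul (by linarith) ?_ (abs_nonneg _) (by linarith)
  rw [abs_le]
  constructor <;> nlinarith [sq_nonneg (ψ S + χ S), sq_nonneg (ψ S - χ S)]

theorem an_local {L : List (SLin × SLin)} (hL : LocPos L)
    (hl : ∀ t ∈ L, localLin t.1 = true ∧ localLin t.2 = true) :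
    AN fun s => (L.map (termVal s)).sum := by
  refine ⟨fun s => (L.map fun t => ∑ j, ipT s.Q (slin (ee s.Q) t.1 (s.v j))
    (slin (ee s.Q) t.2 (s.v j))).sum, (ev_ge 8).mono fun s hs => ?_, ?_⟩
  · simp only [list_sum_comm]
    exact sum_nonneg fun j _ => ipT_nonneg hL hl hs _
  · have h := Lo.lsum L (f := fun t s => termVal s t - ∑ j, ipT s.Q (slin (ee s.Q) t.1 (s.v j))
      (slin (ee s.Q) t.2 (s.v j))) fun t _ => by
        have h1 : Tendsto (fun Q => 1 - tau Q) atTop (𝓝 0) := by
          simpa using (tendsto_const_nhds (x := (1 : ℝ))).sub tendsto_tau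
        have h2 := lo_of_null h1 (IsBigO.add (bd_slin t.1) (bd_slin t.2))
        refine IsBigO.trans_isLittleO (IsBigO.of_bound' (Eventually.of_forall fun s => ?_)) h2
        refine le_trans ?_ (le_abs_self _)
        simp only [termVal, St.G, ← sum_sub_distrib, ← sum_add_distrib, mul_sum, Real.norm_eq_abs]
        exact (abs_sum_le_sum_abs _ _).trans (sum_le_sum fun j _ => ipT_close _ _ _)
    refine h.congr fun s _ => ?_
    clear h hL hl
    induction L with
    | nil => simp
    | cons t L ih => simp only [List.map_cons, List.sum_cons, ih]; ring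

end Vale.Agent.P359
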