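import Vale.Agent.P359.Asym

/-! Approximate Clebsch-Gordan evaluation of two-factor forms. -/

namespace Vale.Agent.P359

open Finset Filter Polynomial

/-- coefficients of `(α + β Z) * l` -/
def mulLinGo (α β : ℤ) : ℤ → List ℤ → List ℤ
  | prev, [] => [β * prev]
  | prev, x :: xs => (α * x + β * prev) :: mulLinGo α β x xs

/-- coefficients of `(2 + Z)^a (lam - Z)^p` -/
def ccP (lam : ℕ) : ℕ → List ℤ
  | 0 => [1]
  | p + 1 => mulLinGo lam (-1) 0 (ccP lam p)

def ccZ (lam : ℕ) : ℕ → ℕ → List ℤ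
  | 0, p => ccP lam p
  | a + 1, p => mulLinGo 2 1 0 (ccZ lam a p)

theorem ccZ_zero_succ (lam p : ℕ) : ccZ lam 0 (p + 1) = mulLinGo lam (-1) 0 (ccZ lam 0 p) := rfl

theorem mulLinGo_length (α β prev : ℤ) (l : List ℤ) :
    (mulLinGo α β prev l).length = l.length + 1 := by
  induction l generalizing prev with
  | nil => rfl
  | cons x xs ih => simp [mulLinGo, ih]

theorem mulLinGo_getD (α β prev : ℤ) (l : List ℤ) (m : ℕ) :
    (mulLinGo α β prev l).getD m 0 =
      α * l.getD m 0 + β * (if m = 0 then prev else l.getD (m - 1) 0) := by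
  induction l generalizing prev m with
  | nil => rcases m with _ | m <;> simp [mulLinGo]
  | cons x xs ih =>
    rcases m with _ | m
    · simp [mulLinGo]
    · rw [mulLinGo, List.getD_cons_succ, ih, List.getD_cons_succ]
      rcases m with _ | m <;> simp

theorem ccZ_length (lam a p : ℕ) : (ccZ lam a p).length = a + p + 1 := by
  induction a with
  | zero =>
    induction p with
    | zero => rfl
    | succ p ih => rw [ccZ_zero_succ, mulLinGo_length, ih]; omega
  | succ a ih => rw [ccZ, mulLinGo_length, ih]; omega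

noncomputable def pS : ℝ[X] := X + 1
noncomputable def pR (lam : ℝ) : ℝ[X] := C lam * X - C 2

noncomputable def hom (lam : ℝ) (D : ℕ) (l : List ℤ) : ℝ[X] :=
  ∑ m ∈ range (D + 1), ((l.getD m 0 : ℤ) : ℝ) • (pS ^ (D - m) * pR lam ^ m)

theorem hom_mulLin (lam : ℝ) (α β : ℤ) (D : ℕ) (l : List ℤ) (hl : l.length = D + 1) :
    hom lam (D + 1) (mulLinGo α β 0 l) = ((α : ℝ) • pS + (β : ℝ) • pR lam) * hom lam D l := by
  simp only [hom, mulLinGo_getD, Int.cast_add, Int.cast_mul, add_smul, sum_add_distrib, add_mul,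
    mul_sum]
  congr 1
  · rw [sum_range_succ, List.getD_eq_default _ _ hl.le]
    simp only [Int.cast_zero, mul_zero, zero_smul, add_zero]
    refine sum_congr rfl fun m hm => ?_
    have hm := mem_range.mp hm
    rw [show D + 1 - m = D - m + 1 by omega, pow_succ]
    simp only [smul_eq_C_mul, C_mul]; ring
  · rw [sum_range_succ']
    simp only [if_true, Int.cast_zero, mul_zero, zero_smul, add_zero, Nat.add_eq_zero_iff,
      one_ne_zero, and_false, if_false, Nat.add_sub_cancel]
    refine sum_congr rfl fun m hm => ?_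
    rw [show D + 1 - (m + 1) = D - m by omega, pow_succ]
    simp only [smul_eq_C_mul, C_mul]; ring

theorem hom_ccZ (lam a p : ℕ) :
    hom lam (a + p) (ccZ lam a p) = ((2 + lam : ℝ) ^ (a + p)) • (X : ℝ[X]) ^ a := by
  induction a with
  | zero =>
    induction p with
    | zero => simp [hom, ccZ, ccP]
    | succ p ih =>
      rw [ccZ_zero_succ, ← add_assoc, hom_mulLin _ _ _ _ _ (ccZ_length _ _ _), ih]
      simp only [pS, pR, smul_eq_C_mul, C_pow, C_add, Int.cast_natCast, Int.cast_neg, Int.cast_one,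
        C_neg, C_1]
      ring
  | succ a ih =>
    rw [ccZ, show a + 1 + p = a + p + 1 by omega, hom_mulLin _ _ _ _ _ (ccZ_length _ _ _), ih]
    simp only [pS, pR, smul_eq_C_mul, C_pow, C_add, Int.cast_ofNat, Int.cast_one, C_1]
    ring

noncomputable def op2 (B : ℕ → Fam) (D : ℕ) (f : ℝ[X]) : Fam :=
  fun Q => ∑ a ∈ range (D + 1), f.coeff a • (B (D - a) Q * bb Q a)

theorem op2_smul (B : ℕ → Fam) (D : ℕ) (c : ℝ) (f : ℝ[X]) (Q : ℕ) :
    op2 B D (c • f) Q = c • op2 B D f Q := by
  simp [op2, smul_sum, smul_smul]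

theorem op2_sum {ι : Type*} (B : ℕ → Fam) (D : ℕ) (t : Finset ι) (f : ι → ℝ[X]) (Q : ℕ) :
    op2 B D (∑ i ∈ t, f i) Q = ∑ i ∈ t, op2 B D (f i) Q := by
  simp only [op2, finsetSum_coeff, sum_smul]
  exact sum_comm

theorem op2_X_pow (B : ℕ → Fam) {D a : ℕ} (ha : a ≤ D) (Q : ℕ) :
    op2 B D (X ^ a) Q = B (D - a) Q * bb Q a := by
  simp [op2, coeff_X_pow, ite_smul, Nat.lt_succ_of_le ha]

variable {B : ℕ → Fam} {lam : ℝ}

theorem Osc.bd2 (hB : Osc B lam) (D : ℕ) (f : ℝ[X]) : Bd (op2 B D f) :=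
  Bd.sum _ fun a _ => ((hB.mu (D - a)).bd (Bd.bb a)).smul _

theorem Osc.uu2 (hB : Osc B lam) {D : ℕ} {f : ℝ[X]} (hf : f.natDegree ≤ D) :
    UU (op2 B D f) (op2 B (D + 1) (pS * f)) := by
  intro Q hQ
  have h : ∀ a, B (D - a) Q * bb Q a * lp Q = lp Q * (B (D - a) Q * bb Q a) +
      (B (D - a + 1) Q * bb Q a + B (D - a) Q * bb Q (a + 1)) := fun a =>
    (hB.up (D - a)).mul (osc_bb.up a) Q hQ
  simp only [op2, sum_mul, mul_sum, smul_mul_assoc, mul_smul_comm, h, smul_add, sum_add_distrib,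
    pS, add_mul, one_mul, coeff_add, add_smul]
  congr 1
  rw [add_comm]
  congr 1
  · rw [sum_range_succ' _ (D + 1)]
    simp only [coeff_X_mul, mul_coeff_zero, coeff_X_zero, zero_mul, zero_smul, add_zero]
    exact sum_congr rfl fun a _ => by rw [show D + 1 - (a + 1) = D - a by omega]
  · rw [sum_range_succ _ (D + 1), coeff_eq_zero_of_natDegree_lt (by omega)]
    simp only [zero_smul, add_zero]
    exact sum_congr rfl fun a ha => by
      have := mem_range.mp ha
      rw [show D + 1 - a = D - a + 1 by omega]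

noncomputable def pT (lam : ℝ) (D : ℕ) (f : ℝ[X]) : ℝ[X] :=
  C 2 * derivative f + C lam * (C ((D : ℝ) + 1) * f - X * derivative f)

theorem coeff_X_mul_deriv (f : ℝ[X]) (a : ℕ) : (X * derivative f).coeff a = a * f.coeff a := by
  rcases a with _ | a
  · simp
  · rw [coeff_X_mul, coeff_derivative]; push_cast; ring

theorem Osc.tt2 (hB : Osc B lam) (D : ℕ) (f : ℝ[X]) :
    TT (op2 B (D + 1) f) (op2 B D (pT lam D f)) := by
  have h := TT.sum (range (D + 1 + 1)) fun a _ =>
    (hB.tt (D + 1 - a) (TT.bb a) (Bd.bb a)).smul (f.coeff a)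
  refine h.congr (fun Q _ => rfl) fun Q _ => ?_
  simp only [op2, pT, coeff_add, coeff_C_mul, coeff_sub, coeff_X_mul_deriv, coeff_derivative,
    smul_add, sum_add_distrib, add_smul, mul_smul_comm, smul_smul]
  rw [add_comm]
  congr 1
  · rw [sum_range_succ' _ (D + 1)]
    simp only [Nat.cast_zero, mul_zero, zero_smul, add_zero, Nat.add_sub_cancel]
    refine sum_congr rfl fun a _ => ?_
    rw [show D + 1 - (a + 1) = D - a by omega]
    congr 1; push_cast; ring
  · rw [sum_range_succ _ (D + 1)]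
    simp only [Nat.sub_self, Nat.cast_zero, mul_zero, zero_smul, add_zero]
    refine sum_congr rfl fun a ha => ?_
    have := mem_range.mp ha
    rw [show D + 1 - a - 1 = D - a by omega]
    congr 1
    push_cast [Nat.cast_sub (show a ≤ D + 1 by omega)]
    ring

theorem pT_basis (lam : ℝ) {k m D : ℕ} (h : k + m = D + 1) :
    pT lam D (pS ^ k * pR lam ^ m) = ((2 + lam) * k) • (pS ^ (k - 1) * pR lam ^ m) := by
  have hD : (C ((D : ℝ) + 1) : ℝ[X]) = (k : ℝ[X]) + (m : ℝ[X]) := by
    rw [show (D : ℝ) + 1 = (k : ℝ) + m by exact_mod_cast h.symm]; simp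
  have hS : derivative pS = 1 := by simp [pS]
  have hR : derivative (pR lam) = C lam := by simp [pR]
  rw [pT, hD, derivative_mul, derivative_pow, derivative_pow, hS, hR]
  simp only [smul_eq_C_mul, C_mul, C_add, map_natCast]
  have h2 : (C 2 : ℝ[X]) = C lam * X - pR lam := by simp [pR]
  have hX : (X : ℝ[X]) = pS - 1 := by simp [pS]
  rw [h2, hX]
  generalize pS = S
  generalize pR lam = R
  rcases k with _ | k <;> rcases m with _ | m <;> simp [pow_succ] <;> ring

theorem natDegree_basis (lam : ℝ) (k m : ℕ) : (pS ^ k * pR lam ^ m).natDegree ≤ k + m := by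
  have hS : pS.natDegree ≤ 1 := by unfold pS; compute_degree
  have hR : (pR lam).natDegree ≤ 1 := by unfold pR; compute_degree
  refine natDegree_mul_le.trans (add_le_add ?_ ?_)
  · simpa using natDegree_pow_le_of_le k hS
  · simpa using natDegree_pow_le_of_le m hR

noncomputable def bW (B : ℕ → Fam) (lam : ℝ) (D k m : ℕ) : Fam :=
  op2 B D (pS ^ k * pR lam ^ m)

theorem Osc.step (hB : Osc B lam) {D k m k' m' : ℕ} (h : k + m = D + 1) (h' : k' + m' = D) :
    Lo fun s => s.G (bW B lam (D + 1) k m s.Q) (bW B lam (D + 1) (k' + 1) m' s.Q) -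
      (2 + lam) * k * s.G (bW B lam D (k - 1) m s.Q) (bW B lam D k' m' s.Q) := by
  have h1 := lo_inv (hB.tt2 D (pS ^ k * pR lam ^ m))
    (hB.uu2 (D := D) (f := pS ^ k' * pR lam ^ m') (h' ▸ natDegree_basis lam k' m')) (hB.bd2 _ _)
  refine (h1.const_mul (-1)).congr fun s _ => ?_
  rw [pT_basis lam h, op2_smul, s.G_smul_left, bW, bW, bW, bW, pow_succ' pS k', mul_assoc pS]
  ring

theorem Osc.orth (hB : Osc B lam) (D : ℕ) : ∀ m m' : ℕ, m ≤ D → m' ≤ D →
    Lo fun s => s.G (bW B lam D (D - m) m s.Q) (bW B lam D (D - m') m' s.Q) -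
      (if m = m' then ((D - m).factorial : ℝ) * (2 + lam) ^ (D - m) *
        s.G (bW B lam m 0 m s.Q) (bW B lam m 0 m s.Q) else 0) := by
  induction D with
  | zero =>
    intro m m' hm hm'
    obtain rfl : m = 0 := by omega
    obtain rfl : m' = 0 := by omega
    simpa using Lo.zero
  | succ D ih =>
    have key : ∀ m m' : ℕ, m ≤ D + 1 → m' ≤ D →
        Lo fun s => s.G (bW B lam (D + 1) (D + 1 - m) m s.Q)
          (bW B lam (D + 1) (D + 1 - m') m' s.Q) -
        (if m = m' then ((D + 1 - m).factorial : ℝ) * (2 + lam) ^ (D + 1 - m) *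
          s.G (bW B lam m 0 m s.Q) (bW B lam m 0 m s.Q) else 0) := by
      intro m m' hm hm'
      have h1 := hB.step (D := D) (k := D + 1 - m) (m := m) (k' := D - m') (m' := m')
        (by omega) (by omega)
      rw [show D - m' + 1 = D + 1 - m' by omega] at h1
      rcases hm.eq_or_lt with hm | hm
      · subst hm
        refine h1.congr fun s _ => ?_
        rw [if_neg (by omega)]; simp
      · have h2 := ih m m' (by omega) hm'
        refine (h1.add (h2.const_mul ((2 + lam) * (D + 1 - m : ℕ)))).congr fun s _ => ?_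
        rw [show D + 1 - m - 1 = D - m by omega]
        split_ifs
        · rw [show D + 1 - m = D - m + 1 by omega, Nat.factorial_succ, pow_succ]
          push_cast; ring
        · ring
    intro m m' hm hm'
    rcases hm'.eq_or_lt with hm' | hm'
    · rcases hm.eq_or_lt with hm | hm
      · subst hm; subst hm'
        simpa using Lo.zero
      · refine (key m' m (by omega) (by omega)).congr fun s _ => ?_
        rw [if_neg (by omega), if_neg (by omega), s.G_comm]
    · exact key m m' hm (by omega)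

/-- An entry `(c, D, a, a')` stands for `c G(B_{D-a} b_a, B_{D-a'} b_{a'})`. -/
abbrev Ent := ℚ × ℕ × ℕ × ℕ

noncomputable def entVal (B : ℕ → Fam) (s : St) (e : Ent) : ℝ :=
  (e.1 : ℝ) * s.G (B (e.2.1 - e.2.2.1) s.Q * bb s.Q e.2.2.1) (B (e.2.1 - e.2.2.2) s.Q * bb s.Q e.2.2.2)

def entCoef (lam : ℕ) (e : Ent) (u v : List ℤ) (m : ℕ) : ℚ :=
  if m ≤ e.2.1 then e.1 * ((u.getD m 0 * v.getD m 0 * (e.2.1 - m).factorial : ℤ) : ℚ) /
    (2 + lam) ^ (e.2.1 + m) else 0

def entCoef' (lam : ℕ) (e : Ent) : ℕ → ℚ :=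
  entCoef lam e (ccZ lam e.2.2.1 (e.2.1 - e.2.2.1)) (ccZ lam e.2.2.2 (e.2.1 - e.2.2.2))

theorem Osc.ent {lam : ℕ} (hB : Osc B lam) {Dm : ℕ} (e : Ent) (h1 : e.2.2.1 ≤ e.2.1)
    (h2 : e.2.2.2 ≤ e.2.1) (h3 : e.2.1 ≤ Dm) :
    Lo fun s => entVal B s e - ∑ m ∈ range (Dm + 1), (entCoef' lam e m : ℝ) *
      s.G (bW B lam m 0 m s.Q) (bW B lam m 0 m s.Q) := by
  obtain ⟨c, D, a, a'⟩ := e
  simp only at h1 h2 h3
  have hL : (0 : ℝ) < 2 + lam := by positivity
  have hexp : ∀ a ≤ D, ∀ Q, B (D - a) Q * bb Q a = ((2 + lam : ℝ) ^ D)⁻¹ •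
      ∑ m ∈ range (D + 1), (((ccZ lam a (D - a)).getD m 0 : ℤ) : ℝ) • bW B lam D (D - m) m Q := by
    intro a ha Q
    have h := hom_ccZ lam a (D - a)
    rw [show a + (D - a) = D by omega] at h
    have h' := congrArg (fun f => op2 B D f Q) h
    simp only [hom, op2_sum, op2_smul, op2_X_pow B ha] at h'
    simp only [bW]
    rw [h', smul_smul, inv_mul_cancel₀ (by positivity), one_smul]
  have hs := Lo.sum (range (D + 1)) fun m hm => Lo.sum (range (D + 1)) fun m' hm' =>
    (hB.orth D m m' (Nat.lt_succ_iff.mp (mem_range.mp hm))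
      (Nat.lt_succ_iff.mp (mem_range.mp hm'))).const_mul
      ((c : ℝ) * ((2 + lam : ℝ) ^ D)⁻¹ * ((2 + lam : ℝ) ^ D)⁻¹ *
        (((ccZ lam a (D - a)).getD m 0 : ℤ) : ℝ) * (((ccZ lam a' (D - a')).getD m' 0 : ℤ) : ℝ))
  refine hs.congr fun s _ => ?_
  simp only [mul_sub, sum_sub_distrib]
  congr 1
  · simp only [entVal]
    rw [hexp a h1, hexp a' h2]
    simp only [s.G_smul_left, s.G_smul_right, s.G_sum_left, s.G_sum_right, mul_sum]
    exact sum_congr rfl fun m _ => sum_congr rfl fun m' _ => by ring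
  · rw [← sum_subset (s₁ := range (D + 1)) (s₂ := range (Dm + 1)) (range_mono (by omega))]
    · refine sum_congr rfl fun m hm => ?_
      have hm' := mem_range.mp hm
      simp only [mul_ite, mul_zero, sum_ite_eq, hm, if_true, entCoef', entCoef,
        if_pos (show m ≤ D by omega)]
      push_cast
      obtain ⟨k, rfl⟩ : ∃ k, D = m + k := ⟨D - m, by omega⟩
      simp only [Nat.add_sub_cancel_left]
      field_simp
      ring
    · intro m _ hm
      have : ¬ m ≤ D := fun h => hm (mem_range.mpr (by omega))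
      simp [entCoef', entCoef, this]

def entCheck (lam Dm : ℕ) (F : List Ent) : Bool :=
  F.all (fun e => decide (e.2.2.1 ≤ e.2.1) && decide (e.2.2.2 ≤ e.2.1) && decide (e.2.1 ≤ Dm)) &&
  (List.range (Dm + 1)).all fun m => decide (0 ≤ (F.map fun e => entCoef' lam e m).sum)

theorem Osc.form {lam : ℕ} (hB : Osc B lam) {Dm : ℕ} (F : List Ent)
    (h : entCheck lam Dm F = true) : AN fun s => (F.map (entVal B s)).sum := by
  simp only [entCheck, Bool.and_eq_true, List.all_eq_true, decide_eq_true_eq,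
    List.mem_range] at h
  obtain ⟨hwf, hpos⟩ := h
  refine ⟨fun s => ∑ m ∈ range (Dm + 1), (((F.map fun e => entCoef' lam e m).sum : ℚ) : ℝ) *
      s.G (bW B lam m 0 m s.Q) (bW B lam m 0 m s.Q), Eventually.of_forall fun s =>
      sum_nonneg fun m hm => mul_nonneg (by exact_mod_cast hpos m (mem_range.mp hm))
        (s.G_self_nonneg _), ?_⟩
  have h1 := Lo.lsum F fun e he => hB.ent (Dm := Dm) e (hwf e he).1.1 (hwf e he).1.2 (hwf e he).2
  refine h1.congr fun s _ => ?_
  clear h1 hwf hpos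
  induction F with
  | nil => simp
  | cons e F ih =>
    simp only [List.map_cons, List.sum_cons, ih, Rat.cast_add, add_mul, sum_add_distrib]
    ring

end Vale.Agent.P359
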